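import Vale.Agent.P143_h11.Factor

set_option linter.unusedSectionVars false
set_option linter.unusedVariables false

open Filter Topology MeasureTheory ProbabilityTheory
open scoped ENNReal unitInterval

namespace Vale.Agent.P143

section Cayley

variable {Γ : Type*} [Group Γ] {s : Set Γ}

theorem countable_of_closure (hs : s.Finite) (hgen : Subgroup.closure s = ⊤) : Countable Γ := by
  have : Finite s := hs
  have hc : Countable (FreeGroup s) := by
    have : Function.Surjective (FreeGroup.mk (α := s)) := fun x => Quot.exists_rep x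
    exact this.countable
  have h : Function.Surjective (FreeGroup.lift (fun x : s => (x : Γ))) := by
    rw [← MonoidHom.range_eq_top, FreeGroup.range_lift_eq_closure, Subtype.range_coe, hgen]
  exact h.countable

theorem cayley_connected (hgen : Subgroup.closure s = ⊤) :
    (SimpleGraph.mulCayley s).Connected := by
  have key : ∀ x ∈ Subgroup.closure s, ∀ u : Γ, (SimpleGraph.mulCayley s).Reachable u (u * x) := by
    intro x hx
    induction hx using Subgroup.closure_induction with
    | mem x hx =>
      intro u
      by_cases h : u = u * x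
      · rw [← h]
      · apply SimpleGraph.Adj.reachable
        rw [SimpleGraph.mulCayley_adj]
        refine ⟨h, Or.inl ?_⟩
        rwa [inv_mul_cancel_left]
    | one => intro u; rw [mul_one]
    | mul x y _ _ hx hy =>
      intro u
      rw [← mul_assoc]
      exact (hx u).trans (hy (u * x))
    | inv x _ hx =>
      intro u
      have := hx (u * x⁻¹)
      rw [inv_mul_cancel_right] at this
      exact this.symm
  rw [SimpleGraph.connected_iff]
  refine ⟨fun u v => ?_, ⟨1⟩⟩
  have := key (u⁻¹ * v) (by rw [hgen]; exact Subgroup.mem_top _) u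
  rwa [mul_inv_cancel_left] at this

theorem cayley_locallyFinite (hs : s.Finite) (v : Γ) :
    ((SimpleGraph.mulCayley s).neighborSet v).Finite := by
  refine ((hs.image (fun x => v * x)).union (hs.image (fun x => v * x⁻¹))).subset ?_
  intro w hw
  rw [SimpleGraph.mem_neighborSet, SimpleGraph.mulCayley_adj] at hw
  rcases hw.2 with h | h
  · left; exact ⟨_, h, by simp⟩
  · right; exact ⟨_, h, by simp⟩

theorem cayley_map (γ : Γ) :
    (SimpleGraph.mulCayley s).map (Equiv.mulLeft γ).toEmbedding = SimpleGraph.mulCayley s := by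
  ext u v
  have h := actG_adj (Equiv.mulLeft γ) (SimpleGraph.mulCayley s) (γ⁻¹ * u) (γ⁻¹ * v)
  simp only [Equiv.coe_mulLeft, mul_inv_cancel_left] at h
  unfold actG at h
  rw [h, SimpleGraph.mulCayley_adj_mul_iff_right]

theorem cayley_unimodular [Countable Γ] [MeasurableSpace Γ] [DiscreteMeasurableSpace Γ] :
    IsUnimodular (Measure.dirac ((SimpleGraph.mulCayley s, (1 : Γ)) : SimpleGraph Γ × Γ)) := by
  intro f hf hinv
  have hm : ∀ (F : SimpleGraph Γ → Γ → Γ → ℝ≥0∞), (∀ u v, Measurable fun G => F G u v) →
      Measurable fun x : SimpleGraph Γ × Γ => ∑' v, F x.1 x.2 v := by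
    intro F hF
    apply Measurable.tsum
    intro v
    apply measurable_from_prod_countable_left
    intro u
    exact hF u v
  rw [lintegral_dirac' _ (hm f hf), lintegral_dirac' _ (hm (fun G u v => f G v u) fun u v => hf v u)]
  simp only
  have h1 : ∀ v : Γ, f (SimpleGraph.mulCayley s) v 1 = f (SimpleGraph.mulCayley s) 1 v⁻¹ := by
    intro v
    have := hinv (Equiv.mulLeft v⁻¹) (SimpleGraph.mulCayley s) v 1
    rw [cayley_map] at this
    simp only [Equiv.coe_mulLeft, inv_mul_cancel, mul_one] at this
    exact this.symm
  simp only [h1]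
  exact ((Equiv.inv Γ).tsum_eq (fun v => f (SimpleGraph.mulCayley s) 1 v)).symm

theorem measurableSingleton_graph {V : Type*} [Countable V] :
    MeasurableSingletonClass (SimpleGraph V) := by
  constructor
  intro G
  have : ({G} : Set (SimpleGraph V)) = ⋂ u, ⋂ v, {G' : SimpleGraph V | G'.Adj u v ↔ G.Adj u v} := by
    ext G'
    simp only [Set.mem_singleton_iff, Set.mem_iInter, Set.mem_ofPred_eq]
    constructor
    · rintro rfl u v; exact Iff.rfl
    · intro h
      ext u v
      exact h u v
  rw [this]
  refine MeasurableSet.iInter fun u => MeasurableSet.iInter fun v => ?_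
  by_cases h : G.Adj u v
  · have : {G' : SimpleGraph V | G'.Adj u v ↔ G.Adj u v} = {G' : SimpleGraph V | G'.Adj u v} := by
      ext G'; simp [h]
    rw [this]
    exact measurable_adj measurable_id u v
  · have : {G' : SimpleGraph V | G'.Adj u v ↔ G.Adj u v} = {G' : SimpleGraph V | G'.Adj u v}ᶜ := by
      ext G'; simp [h]
    rw [this]
    exact (measurable_adj measurable_id u v).compl

/-- The free uniform spanning forest of a Cayley graph is a factor of i.i.d. labels. -/
theorem cayley_factor [Infinite Γ] (hs : s.Finite) (hgen : Subgroup.closure s = ⊤) :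
    ∃ Φ : (Γ → I) → Set (Sym2 Γ), Measurable Φ ∧
      (∀ (γ : Γ) (U : Γ → I), Φ (fun v => U (γ⁻¹ * v)) = Sym2.map (γ * ·) '' Φ U) ∧
      IsFUSF (SimpleGraph.mulCayley s) ((iidUniform Γ).map Φ) := by
  have : Countable Γ := countable_of_closure hs hgen
  let _ : MeasurableSpace Γ := ⊤
  have : DiscreteMeasurableSpace Γ := ⟨fun _ => trivial⟩
  have : MeasurableSingletonClass (SimpleGraph Γ) := measurableSingleton_graph
  obtain ⟨Φ, hm, he, hl⟩ := exists_factor
    (Measure.dirac ((SimpleGraph.mulCayley s, (1 : Γ)) : SimpleGraph Γ × Γ)) cayley_unimodular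
    (by rw [ae_dirac_eq]; exact cayley_connected hgen)
    (by rw [ae_dirac_eq]; exact cayley_locallyFinite hs)
  rw [ae_dirac_eq] at hl
  refine ⟨Φ (SimpleGraph.mulCayley s), ?_, ?_, hl⟩
  · exact hm.comp (measurable_const.prodMk measurable_id)
  · intro γ U
    have h := he (Equiv.mulLeft γ) (SimpleGraph.mulCayley s) U
    rw [cayley_map] at h
    exact h

end Cayley

end Vale.Agent.P143
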