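import Vale.Agent.P143_h11.Mtp

set_option linter.unusedSectionVars false
set_option linter.unusedVariables false

open Filter Topology MeasureTheory ProbabilityTheory
open scoped InnerProductSpace ENNReal

namespace Vale.Agent.P143

open Vale.Agent.P143C (vlab unif)

theorem expMeasure_Iio_le (x : ℝ) : expMeasure 1 (Set.Iio x) ≤ ENNReal.ofReal x := by
  have h1 : expMeasure 1 (Set.Iio x) ≤ expMeasure 1 (Set.Iic x) := measure_mono Set.Iio_subset_Iic_self
  refine h1.trans ?_
  rw [← ofReal_cdf, cdf_expMeasure_eq zero_lt_one]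
  split_ifs with h
  · apply ENNReal.ofReal_le_ofReal
    have := Real.add_one_le_exp (-(1 * x))
    linarith
  · simp

instance : NullSingletonClass (expMeasure 1) := by
  constructor
  intro x
  have h : expMeasure 1 ≪ volume := withDensity_absolutelyContinuous _ _
  exact h (measure_singleton x)

section Clock

variable {V : Type*} [Countable V] [MeasurableSpace V] [DiscreteMeasurableSpace V]
  {S : SimpleGraph V → (ℕ → ℝ) → Set (Sym2 V)}

theorem nuX_coord (e : Sym2 V) {A : Set ℝ} (hA : MeasurableSet A) :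
    nuX V {x | x e ∈ A} = expMeasure 1 A := by
  have h := Measure.infinitePi_map_eval (fun _ : Sym2 V => expMeasure 1) e
  have h2 : ((Measure.infinitePi fun _ : Sym2 V => expMeasure 1).map fun x => x e) A =
      expMeasure 1 A := by rw [h]
  rw [Measure.map_apply (measurable_pi_apply e) hA] at h2
  exact h2

theorem nuX_tau_lt (G : SimpleGraph V) (e : Sym2 V) (t : ℝ) :
    nuX V {x | tau G x e < t} ≤ ENNReal.ofReal (t / mm G e) := by
  have h1 : {x : Lab V | tau G x e < t} = {x | x e ∈ Set.Iio (t / mm G e)} := by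
    ext x
    simp only [tau, Set.mem_ofPred_eq, Set.mem_Iio]
    rw [lt_div_iff₀ (mm_pos G e)]
  rw [h1, nuX_coord e measurableSet_Iio]
  exact expMeasure_Iio_le _

theorem nuX_nonneg (G : SimpleGraph V) : ∀ᵐ x ∂(nuX V), ∀ e, 0 ≤ tau G x e := by
  rw [ae_all_iff]
  intro e
  have h := nuX_tau_lt G e 0
  rw [zero_div, ENNReal.ofReal_zero, nonpos_iff_eq_zero] at h
  rw [ae_iff]
  simpa only [not_le] using h

theorem nuX_inj (G : SimpleGraph V) : ∀ᵐ x ∂(nuX V), Function.Injective (tau G x) := by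
  have h : ∀ e f : Sym2 V, e ≠ f → ∀ᵐ x ∂(nuX V), tau G x e ≠ tau G x f := by
    intro e f hef
    have h1 := Measure.infinitePi_map_eval_prod (P := fun _ : Sym2 V => expMeasure 1) hef
    have hd : MeasurableSet {p : ℝ × ℝ | p.1 * mm G e = p.2 * mm G f} :=
      measurableSet_eq_fun (measurable_fst.mul_const _) (measurable_snd.mul_const _)
    have h2 : ((expMeasure 1).prod (expMeasure 1)) {p : ℝ × ℝ | p.1 * mm G e = p.2 * mm G f} = 0 := by
      rw [Measure.prod_apply hd]
      refine lintegral_eq_zero_of_ae_eq_zero (ae_of_all _ fun x => ?_)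
      have : Prod.mk x ⁻¹' {p : ℝ × ℝ | p.1 * mm G e = p.2 * mm G f} = {x * mm G e / mm G f} := by
        ext y
        simp only [Set.mem_preimage, Set.mem_ofPred_eq, Set.mem_singleton_iff]
        rw [eq_div_iff (mm_pos G f).ne', eq_comm]
      show (expMeasure 1) (Prod.mk x ⁻¹' {p : ℝ × ℝ | p.1 * mm G e = p.2 * mm G f}) = 0
      rw [this]
      exact measure_singleton _
    rw [← h1, Measure.map_apply (by fun_prop) hd] at h2
    rw [ae_iff]
    refine (congrArg _ ?_).trans h2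
    ext a
    simp [tau]
  have h' : ∀ᵐ x ∂(nuX V), ∀ e f : Sym2 V, e ≠ f → tau G x e ≠ tau G x f := by
    rw [ae_all_iff]; intro e
    rw [ae_all_iff]; intro f
    by_cases hef : e = f
    · exact ae_of_all _ fun a h => absurd hef h
    · filter_upwards [h e f hef] with a ha _ using ha
  filter_upwards [h'] with a ha e f hef
  by_contra hne
  exact ha e f hne hef

theorem dg_ne_top {G : SimpleGraph V} {v : V} (h : (G.neighborSet v).Finite) : dg G v ≠ ∞ := by
  classical
  unfold dg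
  rw [tsum_eq_sum (s := h.toFinset)]
  · apply ENNReal.sum_ne_top.2
    intro w _
    split_ifs <;> simp
  · intro w hw
    rw [if_neg]
    intro h2
    exact hw (by rw [Set.Finite.mem_toFinset]; exact h2)

theorem sum_rate_le {G : SimpleGraph V} (h : ∀ v, (G.neighborSet v).Finite) (o : V) (t : ℝ) :
    (∑' b, open Classical in if G.Adj o b then ENNReal.ofReal (t / mm G s(o, b)) else 0) ≤
      ENNReal.ofReal t := by
  classical
  by_cases hne : ∃ b, G.Adj o b
  swap
  · push Not at hne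
    simp [hne]
  by_cases ht : t < 0
  · have : ∀ b, ENNReal.ofReal (t / mm G s(o, b)) = 0 := fun b =>
      ENNReal.ofReal_of_nonpos (div_nonpos_of_nonpos_of_nonneg ht.le (mm_pos _ _).le)
    simp [this]
  push Not at ht
  obtain ⟨b0, hb0⟩ := hne
  have hD1 : (1 : ℝ≥0∞) ≤ dg G o := by
    unfold dg
    calc (1 : ℝ≥0∞) = if G.Adj o b0 then 1 else 0 := by rw [if_pos hb0]
      _ ≤ _ := ENNReal.le_tsum b0
  have hDtop : dg G o ≠ ∞ := dg_ne_top (h o)
  have hDpos : 0 < (dg G o).toReal := ENNReal.toReal_pos (by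
    intro h0; rw [h0] at hD1; exact absurd hD1 (by simp)) hDtop
  have h1 : ∀ b, (if G.Adj o b then ENNReal.ofReal (t / mm G s(o, b)) else 0) ≤
      (if G.Adj o b then 1 else 0) * (ENNReal.ofReal t / dg G o) := by
    intro b
    split_ifs with hb
    · rw [one_mul, ← ENNReal.ofReal_toReal hDtop, ← ENNReal.ofReal_div_of_pos hDpos]
      apply ENNReal.ofReal_le_ofReal
      apply div_le_div_of_nonneg_left ht hDpos
      rw [mm_mk]
      refine le_trans ?_ (le_max_right _ _)
      apply ENNReal.toReal_mono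
      · exact (max_lt (lt_top_iff_ne_top.2 hDtop) (lt_top_iff_ne_top.2 (dg_ne_top (h b)))).ne
      · exact le_max_left _ _
    · simp
  refine (ENNReal.tsum_le_tsum h1).trans ?_
  rw [ENNReal.tsum_mul_right]
  exact ENNReal.mul_div_le

theorem dens_Rt_le (P : Measure (SimpleGraph V × V)) [IsProbabilityMeasure P]
    (hlf : ∀ᵐ p ∂P, ∀ v, (p.1.neighborSet v).Finite)
    (hS : Measurable fun p : SimpleGraph V × (ℕ → ℝ) => S p.1 p.2) (t : ℝ) :
    dens (rho P S) (fun ω : Om V => dd (Rt t ω.1 ω.2.1)) ≤ ENNReal.ofReal t := by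
  classical
  have hprob : ∀ G, IsProbabilityMeasure (kap S G) := kap_prob hS
  unfold dens
  have hm : Measurable fun w : Om V × V => ∑' b,
      (if (w.2, b) ∈ dd (Rt t w.1.1 w.1.2.1) then (1 : ℝ≥0∞) else 0) := by
    apply Measurable.tsum
    intro b
    apply measurable_from_prod_countable_left
    intro u
    exact Measurable.ite (measurable_mem_iff' (measurable_dd (measurable_Rt measurable_fst
      measurable_snd.fst t)) (u, b)) measurable_const measurable_const
  have h0 := lintegral_rho P hS hm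
  have e0 : (∫⁻ p, ∑' b, (if (p.2, b) ∈ dd (Rt t p.1.1 p.1.2.1) then (1 : ℝ≥0∞) else 0) ∂(rho P S)) =
    ∫⁻ p, ∫⁻ x, ∫⁻ z, (∑' b, (if (p.2, b) ∈ dd (Rt t p.1 x) then (1 : ℝ≥0∞) else 0))
      ∂((kap S p.1).prod (nuU V)) ∂(nuX V) ∂P := h0
  rw [show (∫⁻ p, ∑' b, @ite _ ((p.2, b) ∈ dd (Rt t p.1.1 p.1.2.1)) (Classical.propDecidable _)
    (1 : ℝ≥0∞) 0 ∂(rho P S)) = ∫⁻ p, ∑' b, (if (p.2, b) ∈ dd (Rt t p.1.1 p.1.2.1) then
      (1 : ℝ≥0∞) else 0) ∂(rho P S) from by congr! 4, e0]
  simp only [lintegral_const, measure_univ, mul_one]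
  calc ∫⁻ p, ∫⁻ x, ∑' b, (if (p.2, b) ∈ dd (Rt t p.1 x) then (1 : ℝ≥0∞) else 0) ∂(nuX V) ∂P
      ≤ ∫⁻ p, ENNReal.ofReal t ∂P := by
        apply lintegral_mono_ae
        filter_upwards [hlf] with p hp
        rw [lintegral_tsum]
        · refine le_trans (ENNReal.tsum_le_tsum (fun b => ?_)) (sum_rate_le hp p.2 t)
          have hset : (fun x : Lab V => if (p.2, b) ∈ dd (Rt t p.1 x) then (1 : ℝ≥0∞) else 0) =
              {x | p.1.Adj p.2 b ∧ tau p.1 x s(p.2, b) < t}.indicator (fun _ => 1) := by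
            ext x
            rw [Set.indicator_apply]
            exact if_congr Iff.rfl rfl rfl
          rw [hset]
          by_cases hadj : p.1.Adj p.2 b
          · have hset2 : {x : Lab V | p.1.Adj p.2 b ∧ tau p.1 x s(p.2, b) < t} =
              {x | tau p.1 x s(p.2, b) < t} := by ext x; simp [hadj]
            rw [hset2, if_pos hadj]
            have hms : MeasurableSet {x : Lab V | tau p.1 x s(p.2, b) < t} :=
              measurableSet_lt (measurable_tau measurable_const measurable_id _) measurable_const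
            have : ∫⁻ x, {x : Lab V | tau p.1 x s(p.2, b) < t}.indicator (fun _ => (1 : ℝ≥0∞)) x
                ∂(nuX V) = nuX V {x | tau p.1 x s(p.2, b) < t} := lintegral_indicator_one hms
            rw [this]
            exact nuX_tau_lt _ _ _
          · have hset2 : {x : Lab V | p.1.Adj p.2 b ∧ tau p.1 x s(p.2, b) < t} = ∅ := by
              ext x; simp [hadj]
            rw [hset2]; simp
        · intro b
          exact (Measurable.ite (measurable_mem_iff' (measurable_dd (measurable_Rt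
            (X := Lab V) (G := fun _ => p.1) (x := fun x => x) measurable_const
            measurable_id t)) (p.2, b)) measurable_const measurable_const).aemeasurable
    _ = ENNReal.ofReal t := by simp

theorem good_ae (P : Measure (SimpleGraph V × V)) [IsProbabilityMeasure P] (hP : IsUnimodular P)
    (hconn : ∀ᵐ p ∂P, p.1.Connected) (hlf : ∀ᵐ p ∂P, ∀ v, (p.1.neighborSet v).Finite)
    (hS : Measurable fun p : SimpleGraph V × (ℕ → ℝ) => S p.1 p.2)
    (hF : ∀ G : SimpleGraph V, G.Connected → IsFUSF G (kap S G)) :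
    ∀ᵐ p ∂P, ∀ᵐ x ∂(nuX V), Good p.1 (kap S p.1) x := by
  have hprob : ∀ G, IsProbabilityMeasure (kap S G) := kap_prob hS
  have := rho_prob P hS
  have hM := mtp_rho P hP hconn hS hF
  have hG0 : ∀ (g : Equiv.Perm V) (ω : Om V), (actO g ω).1 = actG g ω.1 := fun g ω => rfl
  have hx0 : EqLab actO (fun ω : Om V => ω.2.1) := fun g ω e => actL_apply g ω.2.1 e
  have hT0 : RandEdge actO (fun ω : Om V => ω.2.2.1) :=
    ⟨measurable_snd.snd.fst, fun g ω e => mem_actT g ω.2.2.1 e⟩
  have hE := randEdge_edgeSet (X := Om V) (G := fun ω => ω.1) (act := actO) measurable_fst hG0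
  have hcond : ∀ k j : ℕ, ∀ᵐ p ∂P, ∀ᵐ x ∂(nuX V), ∀ᵐ T ∂(kap S p.1),
      Wc (Zb p.1.edgeSet) (dd (T ∩ Rt (j * hh k) p.1 x)) (dd (Rt (j * hh k) p.1 x \ T)) =
      Wup (Zb p.1.edgeSet) (dd (T ∩ Rt (j * hh k) p.1 x)) (dd (Rt (j * hh k) p.1 x \ T)) := by
    intro k j
    have hR := randEdge_Rt (X := Om V) (G := fun ω => ω.1) (x := fun ω => ω.2.1) (act := actO)
      measurable_fst measurable_snd.fst hG0 hx0 (j * hh k)
    have hO := (hT0.inter hR)
    have hC := (hR.diff hT0)
    have hfin : dens (rho P S) (fun ω : Om V => dd (Rt (j * hh k) ω.1 ω.2.1 \ ω.2.2.1)) ≠ ∞ := by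
      refine ne_top_of_le_ne_top ENNReal.ofReal_ne_top
        (le_trans ?_ (dens_Rt_le P hlf hS (j * hh k)))
      unfold dens
      apply lintegral_mono
      intro p
      apply ENNReal.tsum_le_tsum
      intro b
      by_cases h : (p.2, b) ∈ dd (Rt (j * hh k) p.1.1 p.1.2.1 \ p.1.2.2.1)
      · rw [if_pos h, if_pos]
        exact h.1
      · rw [if_neg h]; exact zero_le
    have h1 := cond_eq hM hE.Zb hO.dd hC.dd (fun ω => by
      rw [Set.disjoint_left]
      intro i h2 h3
      exact h3.2 h2.1) hfin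
    have hms : MeasurableSet {w : Om V × V | Wc (Zb w.1.1.edgeSet)
        (dd (w.1.2.2.1 ∩ Rt (j * hh k) w.1.1 w.1.2.1)) (dd (Rt (j * hh k) w.1.1 w.1.2.1 \ w.1.2.2.1)) =
        Wup (Zb w.1.1.edgeSet)
        (dd (w.1.2.2.1 ∩ Rt (j * hh k) w.1.1 w.1.2.1)) (dd (Rt (j * hh k) w.1.1 w.1.2.1 \ w.1.2.2.1))} := by
      have hlow := hE.Zb.Wc hO.dd hC.dd
      have hup := hE.Zb.Wup hO.dd hC.dd
      have hset : {w : Om V × V | Wc (Zb w.1.1.edgeSet)
        (dd (w.1.2.2.1 ∩ Rt (j * hh k) w.1.1 w.1.2.1)) (dd (Rt (j * hh k) w.1.1 w.1.2.1 \ w.1.2.2.1)) =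
        Wup (Zb w.1.1.edgeSet)
        (dd (w.1.2.2.1 ∩ Rt (j * hh k) w.1.1 w.1.2.1)) (dd (Rt (j * hh k) w.1.1 w.1.2.1 \ w.1.2.2.1))} =
        Prod.fst ⁻¹' (⋂ i : V × V, {ω : Om V | ‖pj (Wup (Zb ω.1.edgeSet)
          (dd (ω.2.2.1 ∩ Rt (j * hh k) ω.1 ω.2.1)) (dd (Rt (j * hh k) ω.1 ω.2.1 \ ω.2.2.1)))
            (dl i)‖ ^ 2 = ‖pj (Wc (Zb ω.1.edgeSet)
          (dd (ω.2.2.1 ∩ Rt (j * hh k) ω.1 ω.2.1)) (dd (Rt (j * hh k) ω.1 ω.2.1 \ ω.2.2.1)))
            (dl i)‖ ^ 2}) := by
        ext w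
        simp only [Set.mem_preimage, Set.mem_iInter, Set.mem_ofPred_eq]
        constructor
        · intro h i; rw [h]
        · intro h
          exact eq_of_norm_pj_dl (hup.closed w.1) (hlow.closed w.1) (Wc_le_Wup _ (by
            rw [Set.disjoint_left]
            intro i h2 h3
            exact h3.2 h2.1)) h
      rw [hset]
      apply measurable_fst
      exact MeasurableSet.iInter fun i => measurableSet_eq_fun
        (hup.meas.measurable_norm_sq _) (hlow.meas.measurable_norm_sq _)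
    have h2 := (ae_rho P hS hms).1 h1
    filter_upwards [h2] with p hp
    filter_upwards [hp] with x hx
    have h3 := Measure.ae_ae_of_ae_prod hx
    filter_upwards [h3] with T hT
    exact hT.exists.choose_spec
  have hcond' : ∀ᵐ p ∂P, ∀ k j : ℕ, ∀ᵐ x ∂(nuX V), ∀ᵐ T ∂(kap S p.1),
      Wc (Zb p.1.edgeSet) (dd (T ∩ Rt (j * hh k) p.1 x)) (dd (Rt (j * hh k) p.1 x \ T)) =
      Wup (Zb p.1.edgeSet) (dd (T ∩ Rt (j * hh k) p.1 x)) (dd (Rt (j * hh k) p.1 x \ T)) := by
    rw [ae_all_iff]; intro k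
    rw [ae_all_iff]; intro j
    exact hcond k j
  filter_upwards [hcond'] with p hp
  have hp' : ∀ᵐ x ∂(nuX V), ∀ k j : ℕ, ∀ᵐ T ∂(kap S p.1),
      Wc (Zb p.1.edgeSet) (dd (T ∩ Rt (j * hh k) p.1 x)) (dd (Rt (j * hh k) p.1 x \ T)) =
      Wup (Zb p.1.edgeSet) (dd (T ∩ Rt (j * hh k) p.1 x)) (dd (Rt (j * hh k) p.1 x \ T)) := by
    rw [ae_all_iff]; intro k
    rw [ae_all_iff]; intro j
    exact hp k j
  filter_upwards [hp', nuX_nonneg p.1, nuX_inj p.1] with x h1 h2 h3
  exact ⟨h2, h3, h1⟩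

end Clock

end Vale.Agent.P143
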