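import Vale.Agent.P143_h11.Dim

set_option linter.unusedSectionVars false
set_option linter.unusedVariables false

open Filter Topology MeasureTheory ContinuousLinearMap
open scoped InnerProductSpace ENNReal

namespace Vale.Agent.P143

section Cond

variable {V : Type*} [Countable V] [MeasurableSpace V] [DiscreteMeasurableSpace V]
  {X : Type*} [MeasurableSpace X] {act : Equiv.Perm V → X → X}

theorem RandSub.Wc {Z : X → Submodule ℝ (L2 (V × V))} (hZ : RandSub act Z)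
    {O C : X → Set (V × V)} (hO : RandSet act O) (hC : RandSet act C) :
    RandSub act fun x => Wc (Z x) (O x) (C x) :=
  (RandSub.Lz hO).compress (hZ.inf (RandSub.Lz hC))

theorem RandSub.Wup {Z : X → Submodule ℝ (L2 (V × V))} (hZ : RandSub act Z)
    {O C : X → Set (V × V)} (hO : RandSet act O) (hC : RandSet act C) :
    RandSub act fun x => Wup (Z x) (O x) (C x) :=
  ((RandSub.Lz hO).compress hZ).inf (RandSub.Lz hC)

theorem eq_of_norm_pj_dl {S T : Submodule ℝ (L2 (V × V))} (hS : IsClosed (S : Set (L2 (V × V))))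
    (hT : IsClosed (T : Set (L2 (V × V)))) (hTS : T ≤ S)
    (h : ∀ i, ‖pj S (dl i)‖ ^ 2 = ‖pj T (dl i)‖ ^ 2) : T = S := by
  have hD : IsClosed ((S ⊓ Tᗮ : Submodule ℝ (L2 (V × V))) : Set (L2 (V × V))) :=
    isClosed_inf hS (Submodule.isClosed_orthogonal _)
  have h1 : ∀ i, pj (S ⊓ Tᗮ) (dl i) = 0 := by
    intro i
    have h2 := norm_sq_pj_inf_orth hS hT hTS (dl i)
    rw [h i, sub_self] at h2
    exact norm_eq_zero.1 (pow_eq_zero_iff (two_ne_zero) |>.1 h2)
  refine le_antisymm hTS ?_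
  intro w hw
  have h3 : w - pj T w ∈ S ⊓ Tᗮ := ⟨S.sub_mem hw (hTS (pj_mem hT w)), sub_pj_mem w⟩
  have h4 : w - pj T w = 0 := by
    apply ext_L2
    intro i
    rw [← inner_dl_left, ← (pj_eq_self hD).2 h3, ← inner_pj, h1 i, inner_zero_left]
    rfl
  rw [sub_eq_zero.1 h4]
  exact pj_mem hT w

/-- The key equality of the lower and the upper subspace. -/
theorem cond_eq {μ : Measure (X × V)} [IsFiniteMeasure μ] (hμ : MTP act μ)
    {Z : X → Submodule ℝ (L2 (V × V))} (hZ : RandSub act Z) {O C : X → Set (V × V)}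
    (hO : RandSet act O) (hC : RandSet act C) (hOC : ∀ x, Disjoint (O x) (C x))
    (hfin : dens μ C ≠ ∞) : ∀ᵐ p ∂μ, Wc (Z p.1) (O p.1) (C p.1) = Wup (Z p.1) (O p.1) (C p.1) := by
  have hM : RandSub act fun x => compress (Lz (O x)) (Z x) := (RandSub.Lz hO).compress hZ
  have hlow := hZ.Wc hO hC
  have hup := hZ.Wup hO hC
  have hLC := (RandSub.Lz hC).orth
  -- the chain of (in)equalities of dimensions
  have h1 : dimm μ (fun x => compress (Lz (O x)) (Z x) ⊓ (Wc (Z x) (O x) (C x))ᗮ) ≤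
      dimm μ (fun x => compress (Z x) (Lz (C x))ᗮ) := dimm_diff_le hμ hZ hO hC
  have hfin' : dimm μ (fun x => (Lz (C x) : Submodule ℝ (L2 (V × V)))ᗮ) ≠ ∞ := by
    rw [dimm_Lz_orth]; exact hfin
  have h2 : dimm μ (fun x => compress (Z x) (Lz (C x))ᗮ) =
      dimm μ (fun x => compress (Lz (C x))ᗮ (Z x)) := dimm_compress hμ hLC hZ (Or.inr hfin')
  have h3 : dimm μ (fun x => compress (compress (Lz (O x)) (Z x)) (Lz (C x))ᗮ) =
      dimm μ (fun x => compress (Lz (C x))ᗮ (compress (Lz (O x)) (Z x))) :=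
    dimm_compress hμ hLC hM (Or.inr hfin')
  have h4 : ∀ x, compress (Lz (C x))ᗮ (compress (Lz (O x)) (Z x)) =
      compress (Lz (C x))ᗮ (Z x) := by
    intro x
    have : (Lz (C x))ᗮ ⊓ (compress (Lz (O x)) (Z x))ᗮ = (Lz (C x))ᗮ ⊓ (Z x)ᗮ := by
      ext c
      rw [Submodule.mem_inf, Submodule.mem_inf]
      apply and_congr_right
      intro hc
      apply mem_compress_orth (isClosed_Lz _)
      rw [Lz_orth] at hc
      intro i hi
      apply hc i
      intro hi2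
      exact Set.disjoint_left.1 (hOC x) hi hi2
    conv_lhs => rw [compress, this]
    rfl
  have h5 : ∀ x, compress (compress (Lz (O x)) (Z x)) (Lz (C x))ᗮ =
      compress (Lz (O x)) (Z x) ⊓ (Wup (Z x) (O x) (C x))ᗮ := by
    intro x
    conv_lhs => rw [compress, orth_orth (isClosed_Lz _)]
    rfl
  simp only [h4, h5] at h3
  have h6 : dimm μ (fun x => compress (Lz (O x)) (Z x) ⊓ (Wc (Z x) (O x) (C x))ᗮ) ≤
      dimm μ (fun x => compress (Lz (O x)) (Z x) ⊓ (Wup (Z x) (O x) (C x))ᗮ) := by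
    rw [h3, ← h2]; exact h1
  have h7 : dimm μ (fun x => compress (Lz (O x)) (Z x) ⊓ (Wup (Z x) (O x) (C x))ᗮ) ≠ ∞ := by
    rw [h3]
    exact ne_top_of_le_ne_top hfin' (dimm_mono μ
      (fun x => isClosed_compress (Submodule.isClosed_orthogonal _) _)
      (fun x => Submodule.isClosed_orthogonal _) (fun x => compress_le _ _))
  -- pointwise comparison
  have hD1 := hM.inf hlow.orth
  have hD2 := hM.inf hup.orth
  have hle : ∀ x, compress (Lz (O x)) (Z x) ⊓ (Wup (Z x) (O x) (C x))ᗮ ≤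
      compress (Lz (O x)) (Z x) ⊓ (Wc (Z x) (O x) (C x))ᗮ := fun x =>
    inf_le_inf le_rfl (Submodule.orthogonal_le (Wc_le_Wup (Z x) (hOC x)))
  unfold dimm at h6 h7
  rw [hs_eq μ hD1.meas, hs_eq μ hD2.meas] at h6
  rw [hs_eq μ hD2.meas] at h7
  have h8 := ae_eq_of_ae_le_of_lintegral_le (μ := Km μ)
    (f := fun q => ENNReal.ofReal (‖pj (compress (Lz (O q.1.1)) (Z q.1.1) ⊓
      (Wup (Z q.1.1) (O q.1.1) (C q.1.1))ᗮ) (dq q)‖ ^ 2))
    (g := fun q => ENNReal.ofReal (‖pj (compress (Lz (O q.1.1)) (Z q.1.1) ⊓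
      (Wc (Z q.1.1) (O q.1.1) (C q.1.1))ᗮ) (dq q)‖ ^ 2))
    (Eventually.of_forall fun q => by
      apply ENNReal.ofReal_le_ofReal
      have := norm_pj_mono (hD2.closed q.1.1) (hD1.closed q.1.1) (hle q.1.1) (dq q)
      gcongr) h7 (measurable_norm_dq hD1.meas).ennreal_ofReal.aemeasurable h6
  -- translate to the equality of diagonal entries of the projections
  have h9 : ∀ᵐ q ∂(Km μ), ‖pj (Wup (Z q.1.1) (O q.1.1) (C q.1.1)) (dq q)‖ ^ 2 =
      ‖pj (Wc (Z q.1.1) (O q.1.1) (C q.1.1)) (dq q)‖ ^ 2 := by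
    filter_upwards [h8] with q hq
    have h10 := (ENNReal.ofReal_eq_ofReal_iff (by positivity) (by positivity)).1 hq
    rw [norm_sq_pj_inf_orth (hM.closed _) (hup.closed _) inf_le_left,
      norm_sq_pj_inf_orth (hM.closed _) (hlow.closed _)
        ((Wc_le_Wup (Z q.1.1) (hOC q.1.1)).trans inf_le_left)] at h10
    linarith
  have h10 : ∀ᵐ p ∂μ, ∀ b : V, ‖pj (Wup (Z p.1) (O p.1) (C p.1)) (dl (p.2, b))‖ ^ 2 =
      ‖pj (Wc (Z p.1) (O p.1) (C p.1)) (dl (p.2, b))‖ ^ 2 := by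
    have h11 := Measure.ae_ae_of_ae_prod h9
    filter_upwards [h11] with p hp b
    rw [Measure.ae_count_iff] at hp
    exact hp b
  have h11 := hμ.everywhere (N := fun x u => ∀ b : V,
    ‖pj (Wup (Z x) (O x) (C x)) (dl (u, b))‖ ^ 2 = ‖pj (Wc (Z x) (O x) (C x)) (dl (u, b))‖ ^ 2)
    (by
      intro v
      have : {x | ∀ b : V, ‖pj (Wup (Z x) (O x) (C x)) (dl (v, b))‖ ^ 2 =
          ‖pj (Wc (Z x) (O x) (C x)) (dl (v, b))‖ ^ 2} =
          ⋂ b : V, {x | ‖pj (Wup (Z x) (O x) (C x)) (dl (v, b))‖ ^ 2 =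
          ‖pj (Wc (Z x) (O x) (C x)) (dl (v, b))‖ ^ 2} := by ext x; simp
      rw [this]
      exact MeasurableSet.iInter fun b =>
        measurableSet_eq_fun (hup.meas.measurable_norm_sq _) (hlow.meas.measurable_norm_sq _))
    (by
      intro g x v
      have e1 : ∀ b, ‖pj (Wup (Z (act g x)) (O (act g x)) (C (act g x))) (dl (g v, g b))‖ =
          ‖pj (Wup (Z x) (O x) (C x)) (dl (v, b))‖ := by
        intro b
        have := (hup.eqv.pj hup.closed) g x (dl (v, b))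
        rw [Ug_dl] at this
        rw [this, Ug_norm]
      have e2 : ∀ b, ‖pj (Wc (Z (act g x)) (O (act g x)) (C (act g x))) (dl (g v, g b))‖ =
          ‖pj (Wc (Z x) (O x) (C x)) (dl (v, b))‖ := by
        intro b
        have := (hlow.eqv.pj hlow.closed) g x (dl (v, b))
        rw [Ug_dl] at this
        rw [this, Ug_norm]
      constructor
      · intro h b
        have := h (g b)
        rwa [e1, e2] at this
      · intro h b
        obtain ⟨b', rfl⟩ := g.surjective b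
        rw [e1, e2]
        exact h b') h10
  filter_upwards [h11] with p hp
  apply eq_of_norm_pj_dl (hup.closed _) (hlow.closed _) (Wc_le_Wup _ (hOC _))
  rintro ⟨u, b⟩
  exact hp u b

theorem compress_Lz_union {S : Submodule ℝ (L2 (V × V))} {O F : Set (V × V)} (hS : S ≤ Lz F) :
    compress (Lz (O ∪ F)) S = compress (Lz O) S := by
  have h : ∀ s ∈ S, pj (Lz (O ∪ F)) s = pj (Lz O) s := by
    intro s hs
    apply ext_L2
    intro i
    rw [pj_Lz, pj_Lz]
    by_cases h1 : i ∈ O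
    · rw [rs_notMem (by simp [h1]), rs_notMem (by simpa using h1)]
    · by_cases h2 : i ∈ F
      · rw [rs_notMem (by simp [h2]), rs_mem (by simpa using h1), hS hs i h2]
      · rw [rs_mem (by simp [h1, h2]), rs_mem (by simpa using h1)]
  apply le_antisymm
  · apply compress_le_closure (isClosed_Lz _) (isClosed_compress (isClosed_Lz _) _)
    intro s hs
    rw [h s hs]
    exact pj_mem_compress (isClosed_Lz _) hs
  · apply compress_le_closure (isClosed_Lz _) (isClosed_compress (isClosed_Lz _) _)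
    intro s hs
    rw [← h s hs]
    exact pj_mem_compress (isClosed_Lz _) hs

theorem Wc_eq_of_subset (Z : Submodule ℝ (L2 (V × V))) {R O O' : Set (V × V)} (hO' : O' ⊆ R) :
    Wc Z O (R \ O) = compress (Lz (O ∪ O'))
      ((Z ⊓ Lz (R \ (O ∪ O'))) ⊓ Lz (O' \ O)) := by
  have h1 : (Z ⊓ Lz (R \ (O ∪ O'))) ⊓ Lz (O' \ O) = Z ⊓ Lz (R \ O) := by
    rw [inf_assoc, Lz_inf]
    congr 2
    ext i
    simp only [Set.mem_union, Set.mem_sdiff]
    constructor
    · rintro (⟨h1, h2⟩ | ⟨h1, h2⟩)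
      · exact ⟨h1, fun h => h2 (Or.inl h)⟩
      · exact ⟨hO' h1, h2⟩
    · rintro ⟨h1, h2⟩
      by_cases h3 : i ∈ O'
      · exact Or.inr ⟨h3, h2⟩
      · exact Or.inl ⟨h1, by rintro (h | h); exacts [h2 h, h3 h]⟩
  have h2 : Z ⊓ Lz (R \ O) ≤ Lz (O' \ O) :=
    inf_le_right.trans (Lz_anti (fun i hi => ⟨hO' hi.1, hi.2⟩))
  have h3 : O ∪ O' = O ∪ (O' \ O) := by
    ext i; simp only [Set.mem_union, Set.mem_sdiff]; tauto
  rw [h1]
  conv_rhs => rw [h3]
  rw [compress_Lz_union h2]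
  rfl

/-- Lipschitz bound. -/
theorem lip {μ : Measure (X × V)} [IsFiniteMeasure μ] (hμ : MTP act μ)
    {Z : X → Submodule ℝ (L2 (V × V))} (hZ : RandSub act Z) {R O O' : X → Set (V × V)}
    (hR : RandSet act R) (hO : RandSet act O) (hO' : RandSet act O')
    (hOR : ∀ x, O x ⊆ R x) (hOR' : ∀ x, O' x ⊆ R x) :
    ∫⁻ p, ∑' b, ENNReal.ofReal |‖pj (Wc (Z p.1) (O p.1) (R p.1 \ O p.1)) (dl (p.2, b))‖ ^ 2 -
      ‖pj (Wc (Z p.1) (O' p.1) (R p.1 \ O' p.1)) (dl (p.2, b))‖ ^ 2| ∂μ ≤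
      dens μ (fun x => O' x \ O x) + dens μ (fun x => O x \ O' x) := by
  have hK : RandSub act fun x => Z x ⊓ Lz (R x \ (O x ∪ O' x)) :=
    hZ.inf (RandSub.Lz (hR.diff (hO.union hO')))
  have hA := hO.union hO'
  have hF1 := hO'.diff hO
  have hF2 := hO.diff hO'
  have hS : RandSub act fun x => compress (Lz (O x ∪ O' x)) (Z x ⊓ Lz (R x \ (O x ∪ O' x))) :=
    (RandSub.Lz hA).compress hK
  have hW := hZ.Wc hO (hR.diff hO)
  have hW' := hZ.Wc hO' (hR.diff hO')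
  have e1 : ∀ x, Wc (Z x) (O x) (R x \ O x) = compress (Lz (O x ∪ O' x))
      ((Z x ⊓ Lz (R x \ (O x ∪ O' x))) ⊓ Lz (O' x \ O x)) := fun x =>
    Wc_eq_of_subset (Z x) (hOR' x)
  have e2 : ∀ x, Wc (Z x) (O' x) (R x \ O' x) = compress (Lz (O x ∪ O' x))
      ((Z x ⊓ Lz (R x \ (O x ∪ O' x))) ⊓ Lz (O x \ O' x)) := by
    intro x
    rw [Set.union_comm (O x) (O' x)]
    exact Wc_eq_of_subset (Z x) (hOR x)
  have h1 := dimm_diff_le_dens hμ hK hA hF1
  have h2 := dimm_diff_le_dens hμ hK hA hF2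
  simp only [← e1] at h1
  simp only [← e2] at h2
  refine le_trans ?_ (add_le_add h1 h2)
  have hD1 := hS.inf hW.orth
  have hD2 := hS.inf hW'.orth
  unfold dimm hs
  have hmeas : Measurable fun p : X × V => ∑' b, ENNReal.ofReal
      (‖pj (compress (Lz (O p.1 ∪ O' p.1)) (Z p.1 ⊓ Lz (R p.1 \ (O p.1 ∪ O' p.1))) ⊓
        (Wc (Z p.1) (O p.1) (R p.1 \ O p.1))ᗮ) (dl (p.2, b))‖ ^ 2) := by
    apply Measurable.tsum
    intro b
    apply Measurable.ennreal_ofReal
    apply measurable_from_prod_countable_left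
    intro u
    exact hD1.meas.measurable_norm_sq (dl (u, b))
  rw [← lintegral_add_left hmeas]
  apply lintegral_mono
  intro p
  beta_reduce
  rw [← ENNReal.tsum_add]
  apply ENNReal.tsum_le_tsum
  intro b
  rw [← ENNReal.ofReal_add (by positivity) (by positivity)]
  apply ENNReal.ofReal_le_ofReal
  have hle1 : Wc (Z p.1) (O p.1) (R p.1 \ O p.1) ≤
      compress (Lz (O p.1 ∪ O' p.1)) (Z p.1 ⊓ Lz (R p.1 \ (O p.1 ∪ O' p.1))) := by
    rw [e1]; exact compress_mono _ inf_le_left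
  have hle2 : Wc (Z p.1) (O' p.1) (R p.1 \ O' p.1) ≤
      compress (Lz (O p.1 ∪ O' p.1)) (Z p.1 ⊓ Lz (R p.1 \ (O p.1 ∪ O' p.1))) := by
    rw [e2]; exact compress_mono _ inf_le_left
  rw [norm_sq_pj_inf_orth (hS.closed _) (hW.closed _) hle1,
    norm_sq_pj_inf_orth (hS.closed _) (hW'.closed _) hle2]
  have h3 := norm_pj_mono (hW.closed p.1) (hS.closed p.1) hle1 (dl (p.2, b))
  have h4 := norm_pj_mono (hW'.closed p.1) (hS.closed p.1) hle2 (dl (p.2, b))
  have h5 : ‖pj (Wc (Z p.1) (O p.1) (R p.1 \ O p.1)) (dl (p.2, b))‖ ^ 2 ≤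
    ‖pj (compress (Lz (O p.1 ∪ O' p.1)) (Z p.1 ⊓ Lz (R p.1 \ (O p.1 ∪ O' p.1))))
      (dl (p.2, b))‖ ^ 2 := by gcongr
  have h6 : ‖pj (Wc (Z p.1) (O' p.1) (R p.1 \ O' p.1)) (dl (p.2, b))‖ ^ 2 ≤
    ‖pj (compress (Lz (O p.1 ∪ O' p.1)) (Z p.1 ⊓ Lz (R p.1 \ (O p.1 ∪ O' p.1))))
      (dl (p.2, b))‖ ^ 2 := by gcongr
  rw [abs_le]
  constructor <;> linarith

end Cond

end Vale.Agent.P143
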