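import Vale.Agent.P143_h11.Recur

set_option linter.unusedSectionVars false
set_option linter.unusedVariables false

open Filter Topology MeasureTheory ProbabilityTheory
open scoped InnerProductSpace ENNReal

namespace Vale.Agent.P143

open Vale.Agent.P143C (vlab unif)

section Conv

variable {V : Type*} [Countable V] [MeasurableSpace V] [DiscreteMeasurableSpace V]
  {S : SimpleGraph V → (ℕ → ℝ) → Set (Sym2 V)}

/-- Mean disagreement. -/
noncomputable def del (ρ : Measure (Om V × V)) (k j : ℕ) : ℝ≥0∞ :=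
  EE ρ (fun ω e => ind (e ∈ DD k j ω))

/-- Discretisation error in a batch. -/
noncomputable def eps (ρ : Measure (Om V × V)) (k j : ℕ) : ℝ≥0∞ :=
  EE ρ (fun ω e => ind (bat k j ω.1 ω.2.1 e) *
        ENNReal.ofReal |qq ω.1 ω.2.1 ω.2.2.1 e - Mk k ω.1 ω.2.1 ω.2.2.1 e|)

/-- Discretisation error up to time `t`. -/
noncomputable def eta (ρ : Measure (Om V × V)) (k : ℕ) (t : ℝ) : ℝ≥0∞ :=
  EE ρ (fun ω e => ind (e ∈ Rt t ω.1 ω.2.1) *
        ENNReal.ofReal |qq ω.1 ω.2.1 ω.2.2.1 e - Mk k ω.1 ω.2.1 ω.2.2.1 e|)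

theorem del_zero (P : Measure (SimpleGraph V × V)) [IsProbabilityMeasure P]
    (hlf : ∀ᵐ p ∂P, ∀ v, (p.1.neighborSet v).Finite)
    (hS : Measurable fun p : SimpleGraph V × (ℕ → ℝ) => S p.1 p.2) (k : ℕ) :
    del (rho P S) k 0 = 0 := by
  rw [← nonpos_iff_eq_zero]
  have h := dens_Rt_le P hlf hS 0
  rw [ENNReal.ofReal_zero] at h
  refine le_trans ?_ h
  have e2 : dens (rho P S) (fun ω : Om V => dd (Rt 0 ω.1 ω.2.1)) =
    EE (rho P S) (fun ω e => ind (e ∈ Rt 0 ω.1 ω.2.1)) := rfl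
  rw [e2]
  apply EE_mono
  intro ω e
  apply ind_mono
  intro he
  unfold DD at he
  simp only [Nat.cast_zero, zero_mul] at he
  by_contra hcon
  apply he
  constructor
  · rintro ⟨_, h2⟩; exact absurd h2 hcon
  · intro h2; exact absurd h2 (Set.notMem_empty e)

theorem gronwall (P : Measure (SimpleGraph V × V)) [IsProbabilityMeasure P] (hP : IsUnimodular P)
    (hconn : ∀ᵐ p ∂P, p.1.Connected) (hlf : ∀ᵐ p ∂P, ∀ v, (p.1.neighborSet v).Finite)
    (hS : Measurable fun p : SimpleGraph V × (ℕ → ℝ) => S p.1 p.2)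
    (hF : ∀ G : SimpleGraph V, G.Connected → IsFUSF G (kap S G)) (k J : ℕ) :
    del (rho P S) k J ≤ (1 + ENNReal.ofReal (hh k) * 2) ^ J *
      ∑ j ∈ Finset.range J, eps (rho P S) k j := by
  set c : ℝ≥0∞ := 1 + ENNReal.ofReal (hh k) * 2 with hc
  have hc1 : 1 ≤ c := le_self_add
  induction J with
  | zero =>
    rw [del_zero P hlf hS]; exact zero_le
  | succ J ih =>
    have h1 : del (rho P S) k (J + 1) ≤ del (rho P S) k J + (eps (rho P S) k J +
      ENNReal.ofReal (hh k) * (2 * del (rho P S) k J)) := step k J P hP hconn hlf hS hF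
    have h2 : del (rho P S) k J + (eps (rho P S) k J +
      ENNReal.ofReal (hh k) * (2 * del (rho P S) k J)) = c * del (rho P S) k J +
        eps (rho P S) k J := by
      rw [hc]; ring
    rw [h2] at h1
    refine h1.trans ?_
    rw [Finset.sum_range_succ, mul_add]
    refine add_le_add ?_ ?_
    · calc c * del (rho P S) k J ≤ c * (c ^ J * ∑ j ∈ Finset.range J, eps (rho P S) k j) :=
          mul_le_mul_right ih _
        _ = c ^ (J + 1) * ∑ j ∈ Finset.range J, eps (rho P S) k j := by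
          rw [pow_succ]; ring
    · calc eps (rho P S) k J = 1 * eps (rho P S) k J := (one_mul _).symm
        _ ≤ c ^ (J + 1) * eps (rho P S) k J := mul_le_mul_left (one_le_pow₀ hc1) _

theorem sum_ind_bat (k J : ℕ) (G : SimpleGraph V) (x : Lab V) (e : Sym2 V) :
    ∑ j ∈ Finset.range J, ind (bat k j G x e) ≤ ind (e ∈ Rt (J * hh k) G x) := by
  induction J with
  | zero => simp
  | succ J ih =>
    rw [Finset.sum_range_succ]
    refine (add_le_add ih le_rfl).trans ?_
    have hcast : (((J + 1 : ℕ) : ℝ)) * hh k = (J + 1) * hh k := by push_cast; ring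
    rw [hcast]
    have hle : (J : ℝ) * hh k ≤ (J + 1) * hh k := by
      have := hh_pos k
      nlinarith
    by_cases h1 : e ∈ Rt (J * hh k) G x
    · rw [ind_pos h1, ind_neg, add_zero, ind_pos (Rt_mono hle _ _ h1)]
      intro h2
      exact absurd h1.2 (not_lt.2 h2.2.1)
    · rw [ind_neg h1, zero_add]
      exact ind_mono fun h2 => ⟨h2.1, h2.2.2⟩

theorem sum_eps_le (ρ : Measure (Om V × V)) (k J : ℕ) :
    ∑ j ∈ Finset.range J, eps ρ k j ≤ eta ρ k (J * hh k) := by
  have hmqq : ∀ e, Measurable fun ω : Om V => qq ω.1 ω.2.1 ω.2.2.1 e := fun e =>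
    measurable_qq measurable_fst measurable_snd.fst measurable_snd.snd.fst e
  have hmMk : ∀ e, Measurable fun ω : Om V => Mk k ω.1 ω.2.1 ω.2.2.1 e := fun e =>
    measurable_Mk measurable_fst measurable_snd.fst measurable_snd.snd.fst k e
  have hm3 : ∀ j e, Measurable fun ω : Om V => ind (bat k j ω.1 ω.2.1 e) *
        ENNReal.ofReal |qq ω.1 ω.2.1 ω.2.2.1 e - Mk k ω.1 ω.2.1 ω.2.2.1 e| := fun j e =>
    (measurable_ind (measurableSet_bat k j e)).mul
      (continuous_abs.measurable.comp ((hmqq e).sub (hmMk e))).ennreal_ofReal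
  unfold eps eta
  rw [← EE_finsum ρ hm3]
  apply EE_mono
  intro ω e
  rw [← Finset.sum_mul]
  exact mul_le_mul_left (sum_ind_bat k J _ _ e) _

theorem pow_le_exp (k J : ℕ) :
    (1 + ENNReal.ofReal (hh k) * 2) ^ J ≤ ENNReal.ofReal (Real.exp (2 * (J * hh k))) := by
  have h1 : 1 + ENNReal.ofReal (hh k) * 2 ≤ ENNReal.ofReal (Real.exp (2 * hh k)) := by
    have h2 : 1 + ENNReal.ofReal (hh k) * 2 = ENNReal.ofReal (2 * hh k + 1) := by
      rw [ENNReal.ofReal_add (by have := hh_pos k; positivity) zero_le_one, ENNReal.ofReal_one,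
        ENNReal.ofReal_mul (by norm_num), add_comm, mul_comm]
      norm_num
    rw [h2]
    exact ENNReal.ofReal_le_ofReal (Real.add_one_le_exp _)
  calc (1 + ENNReal.ofReal (hh k) * 2) ^ J ≤ ENNReal.ofReal (Real.exp (2 * hh k)) ^ J :=
        pow_le_pow_left' h1 J
    _ = ENNReal.ofReal (Real.exp (2 * (J * hh k))) := by
      rw [← ENNReal.ofReal_pow (Real.exp_pos _).le, ← Real.exp_nat_mul]
      congr 2; ring

theorem del_le (P : Measure (SimpleGraph V × V)) [IsProbabilityMeasure P] (hP : IsUnimodular P)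
    (hconn : ∀ᵐ p ∂P, p.1.Connected) (hlf : ∀ᵐ p ∂P, ∀ v, (p.1.neighborSet v).Finite)
    (hS : Measurable fun p : SimpleGraph V × (ℕ → ℝ) => S p.1 p.2)
    (hF : ∀ G : SimpleGraph V, G.Connected → IsFUSF G (kap S G)) (k i : ℕ) :
    del (rho P S) k (i * 2 ^ k) ≤ ENNReal.ofReal (Real.exp (2 * i)) * eta (rho P S) k i := by
  have h1 : (((i * 2 ^ k : ℕ) : ℝ)) * hh k = i := by
    push_cast
    rw [mul_assoc, two_pow_hh, mul_one]
  refine (gronwall P hP hconn hlf hS hF k (i * 2 ^ k)).trans ?_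
  refine mul_le_mul' ?_ ?_
  · refine (pow_le_exp k _).trans ?_
    rw [h1]
  · refine (sum_eps_le _ k _).trans ?_
    rw [h1]

/-- The discretisation error tends to zero. -/
theorem eta_tendsto (P : Measure (SimpleGraph V × V)) [IsProbabilityMeasure P]
    (hP : IsUnimodular P)
    (hconn : ∀ᵐ p ∂P, p.1.Connected) (hlf : ∀ᵐ p ∂P, ∀ v, (p.1.neighborSet v).Finite)
    (hS : Measurable fun p : SimpleGraph V × (ℕ → ℝ) => S p.1 p.2)
    (hF : ∀ G : SimpleGraph V, G.Connected → IsFUSF G (kap S G)) (t : ℝ) :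
    Tendsto (fun k => eta (rho P S) k t) atTop (𝓝 0) := by
  have hprob : ∀ G, IsProbabilityMeasure (kap S G) := kap_prob hS
  have := rho_prob P hS
  have hmqq : ∀ e, Measurable fun ω : Om V => qq ω.1 ω.2.1 ω.2.2.1 e := fun e =>
    measurable_qq measurable_fst measurable_snd.fst measurable_snd.snd.fst e
  have hmMk : ∀ k e, Measurable fun ω : Om V => Mk k ω.1 ω.2.1 ω.2.2.1 e := fun k e =>
    measurable_Mk measurable_fst measurable_snd.fst measurable_snd.snd.fst k e
  have hmR : ∀ e, MeasurableSet {ω : Om V | e ∈ Rt t ω.1 ω.2.1} := fun e =>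
    measurable_mem_iff' (measurable_Rt measurable_fst measurable_snd.fst t) e
  have hm : ∀ k e, Measurable fun ω : Om V => ind (e ∈ Rt t ω.1 ω.2.1) *
        ENNReal.ofReal |qq ω.1 ω.2.1 ω.2.2.1 e - Mk k ω.1 ω.2.1 ω.2.2.1 e| := fun k e =>
    (measurable_ind (hmR e)).mul
      (continuous_abs.measurable.comp ((hmqq e).sub (hmMk k e))).ennreal_ofReal
  set f : ℕ → (Om V × V) × V → ℝ≥0∞ := fun k q =>
    ind (s(q.1.2, q.2) ∈ Rt t q.1.1.1 q.1.1.2.1) *
        ENNReal.ofReal |qq q.1.1.1 q.1.1.2.1 q.1.1.2.2.1 s(q.1.2, q.2) -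
          Mk k q.1.1.1 q.1.1.2.1 q.1.1.2.2.1 s(q.1.2, q.2)| with hf
  set bd : (Om V × V) × V → ℝ≥0∞ := fun q =>
    ind (s(q.1.2, q.2) ∈ Rt t q.1.1.1 q.1.1.2.1) with hbd
  have hfm : ∀ k, Measurable (f k) := fun k => measurable_Km fun u v => hm k s(u, v)
  have hbm : Measurable bd := measurable_Km fun u v => measurable_ind (hmR s(u, v))
  have e1 : ∀ k, eta (rho P S) k t = ∫⁻ q, f k q ∂(Km (rho P S)) := by
    intro k
    rw [lintegral_Km _ (hfm k)]
    rfl
  have e2 : ∫⁻ q, bd q ∂(Km (rho P S)) ≤ ENNReal.ofReal t := by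
    rw [lintegral_Km _ hbm]
    exact dens_Rt_le P hlf hS t
  simp only [e1]
  have e3 : (0 : ℝ≥0∞) = ∫⁻ q, 0 ∂(Km (rho P S)) := by simp
  rw [e3]
  refine tendsto_lintegral_of_dominated_convergence bd hfm ?_ ?_ ?_
  · intro k
    refine Eventually.of_forall fun q => ?_
    calc f k q ≤ bd q * 1 := by
          refine mul_le_mul_right ?_ _
          rw [← ENNReal.ofReal_one]
          apply ENNReal.ofReal_le_ofReal
          have h1 := qq_mem q.1.1.1 q.1.1.2.1 q.1.1.2.2.1 s(q.1.2, q.2)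
          have h2 := Mk_nonneg k q.1.1.1 q.1.1.2.1 q.1.1.2.2.1 s(q.1.2, q.2)
          have h3 := Mk_le_one k q.1.1.1 q.1.1.2.1 q.1.1.2.2.1 s(q.1.2, q.2)
          rw [abs_le]
          constructor
          · linarith [h1.1]
          · linarith [h1.2]
      _ = bd q := mul_one _
  · exact ne_top_of_le_ne_top ENNReal.ofReal_ne_top e2
  · -- almost sure convergence
    have hset : ∀ b : V, MeasurableSet {w : Om V × V | Tendsto (fun k => ind (s(w.2, b) ∈
        Rt t w.1.1 w.1.2.1) * ENNReal.ofReal |qq w.1.1 w.1.2.1 w.1.2.2.1 s(w.2, b) -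
          Mk k w.1.1 w.1.2.1 w.1.2.2.1 s(w.2, b)|) atTop (𝓝 0)} := by
      intro b
      apply measurableSet_tendsto
      intro k
      apply measurable_from_prod_countable_left
      intro u
      exact hm k s(u, b)
    have h1 : ∀ b : V, ∀ᵐ w ∂(rho P S), Tendsto (fun k => ind (s(w.2, b) ∈
        Rt t w.1.1 w.1.2.1) * ENNReal.ofReal |qq w.1.1 w.1.2.1 w.1.2.2.1 s(w.2, b) -
          Mk k w.1.1 w.1.2.1 w.1.2.2.1 s(w.2, b)|) atTop (𝓝 0) := by
      intro b
      rw [ae_rho P hS (hset b)]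
      filter_upwards [good_ae P hP hconn hlf hS hF, hconn] with p hp hc
      filter_upwards [hp] with x hx
      by_cases he : s(p.2, b) ∈ p.1.edgeSet
      · have h2 := Mk_tendsto (FC_of_FUSF hc (hF p.1 hc)) hx he
        have h3 : ∀ᵐ z ∂((kap S p.1).prod (nuU V)), Tendsto (fun k => Mk k p.1 x z.1 s(p.2, b))
            atTop (𝓝 (qq p.1 x z.1 s(p.2, b))) :=
          Measure.quasiMeasurePreserving_fst.ae h2
        filter_upwards [h3] with z hz
        have h4 : Tendsto (fun k => qq p.1 x z.1 s(p.2, b) - Mk k p.1 x z.1 s(p.2, b)) atTop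
            (𝓝 0) := by
          have := hz.const_sub (qq p.1 x z.1 s(p.2, b))
          rwa [sub_self] at this
        have h5 : Tendsto (fun k => ENNReal.ofReal |qq p.1 x z.1 s(p.2, b) -
            Mk k p.1 x z.1 s(p.2, b)|) atTop (𝓝 0) := by
          have := (ENNReal.continuous_ofReal.tendsto |(0:ℝ)|).comp h4.abs
          rwa [abs_zero, ENNReal.ofReal_zero] at this
        have h6 := ENNReal.Tendsto.const_mul (a := ind (s(p.2, b) ∈ Rt t p.1 x)) h5
          (Or.inr (ne_top_of_le_ne_top ENNReal.one_ne_top (ind_le_one _)))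
        rwa [mul_zero] at h6
      · refine Eventually.of_forall fun z => ?_
        have h2 : ind (s(p.2, b) ∈ Rt t p.1 x) = 0 := ind_neg fun h => he h.1
        simp only [h2, zero_mul]
        exact tendsto_const_nhds
    have h2 : ∀ᵐ w ∂(rho P S), ∀ b : V, Tendsto (fun k => ind (s(w.2, b) ∈
        Rt t w.1.1 w.1.2.1) * ENNReal.ofReal |qq w.1.1 w.1.2.1 w.1.2.2.1 s(w.2, b) -
          Mk k w.1.1 w.1.2.1 w.1.2.2.1 s(w.2, b)|) atTop (𝓝 0) := ae_all_iff.2 h1
    have h3 : ∀ᵐ q ∂(Km (rho P S)), ∀ b : V, Tendsto (fun k => ind (s(q.1.2, b) ∈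
        Rt t q.1.1.1 q.1.1.2.1) * ENNReal.ofReal |qq q.1.1.1 q.1.1.2.1 q.1.1.2.2.1 s(q.1.2, b) -
          Mk k q.1.1.1 q.1.1.2.1 q.1.1.2.2.1 s(q.1.2, b)|) atTop (𝓝 0) := by
      unfold Km
      exact Measure.quasiMeasurePreserving_fst.ae h2
    filter_upwards [h3] with q hq
    exact hq q.2

end Conv

end Vale.Agent.P143
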