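import Vale.Agent.P143_h11.Hilb

set_option linter.unusedSectionVars false

open Filter Topology
open scoped InnerProductSpace ENNReal

namespace Vale.Agent.P143

/-- The real Hilbert space of square summable functions on `ι`. -/
abbrev L2 (ι : Type*) := lp (fun _ : ι => ℝ) 2

section Coord

variable {ι : Type*}

/-- Basis vector. -/
noncomputable def dl (i : ι) : L2 ι := by
  classical exact lp.single 2 i (1 : ℝ)

theorem dl_self (i : ι) : (dl i : L2 ι) i = 1 := by
  classical
  unfold dl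
  rw [lp.single_apply, Pi.single_eq_same]

theorem dl_ne {i j : ι} (h : j ≠ i) : (dl i : L2 ι) j = 0 := by
  classical
  unfold dl
  rw [lp.single_apply, Pi.single_eq_of_ne h]

theorem inner_dl_left (i : ι) (f : L2 ι) : ⟪dl i, f⟫_ℝ = f i := by
  classical
  unfold dl
  rw [lp.inner_single_left]
  simp

theorem inner_dl_right (i : ι) (f : L2 ι) : ⟪f, dl i⟫_ℝ = f i := by
  rw [real_inner_comm, inner_dl_left]

theorem norm_dl (i : ι) : ‖(dl i : L2 ι)‖ = 1 := by
  have h : ‖(dl i : L2 ι)‖ ^ 2 = 1 := by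
    rw [← real_inner_self_eq_norm_sq, inner_dl_left, dl_self]
  have h0 := norm_nonneg (dl i : L2 ι)
  nlinarith

theorem hasSum_inner_L2 (f g : L2 ι) : HasSum (fun i => f i * g i) ⟪f, g⟫_ℝ := by
  have h := lp.hasSum_inner (𝕜 := ℝ) f g
  simpa [mul_comm] using h

theorem hasSum_dl (f : L2 ι) : HasSum (fun i => f i • dl i) f := by
  classical
  have h := lp.hasSum_single (p := 2) (E := fun _ : ι => ℝ) (by norm_num) f
  refine h.congr_fun (fun i => ?_)
  ext j
  by_cases hij : j = i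
  · subst hij
    simp [dl_self]
  · simp [dl_ne hij, Pi.single_eq_of_ne hij]

theorem ext_L2 {f g : L2 ι} (h : ∀ i, f i = g i) : f = g := by
  ext i; exact h i

/-- Vectors vanishing on `A`. -/
def Lz (A : Set ι) : Submodule ℝ (L2 ι) where
  carrier := {f | ∀ i ∈ A, f i = 0}
  add_mem' := by
    intro f g hf hg i hi
    rw [lp.coeFn_add, Pi.add_apply, hf i hi, hg i hi, add_zero]
  zero_mem' := by intro i _; rfl
  smul_mem' := by
    intro c f hf i hi
    rw [lp.coeFn_smul, Pi.smul_apply, hf i hi, smul_zero]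

theorem mem_Lz {A : Set ι} {f : L2 ι} : f ∈ Lz A ↔ ∀ i ∈ A, f i = 0 := Iff.rfl

theorem continuous_apply_L2 (i : ι) : Continuous fun f : L2 ι => f i := by
  have : (fun f : L2 ι => f i) = fun f => ⟪dl i, f⟫_ℝ := by
    ext f; rw [inner_dl_left]
  rw [this]
  exact continuous_const.inner continuous_id

theorem isClosed_Lz (A : Set ι) : IsClosed ((Lz A : Submodule ℝ (L2 ι)) : Set (L2 ι)) := by
  have : ((Lz A : Submodule ℝ (L2 ι)) : Set (L2 ι)) = ⋂ i ∈ A, {f : L2 ι | f i = 0} := by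
    ext f
    simp [mem_Lz]
  rw [this]
  apply isClosed_biInter
  intro i _
  exact isClosed_eq (continuous_apply_L2 i) continuous_const

/-- Restriction of a vector to the set `A`. -/
noncomputable def rs (A : Set ι) (f : L2 ι) : L2 ι := by
  classical
  exact ⟨fun i => if i ∈ A then f i else 0, by
    have hf : Memℓp (fun i => f i) 2 := lp.memℓp f
    apply memℓp_gen
    have h := (memℓp_gen_iff (E := fun _ : ι => ℝ) (p := 2) (by norm_num)).1 hf
    refine Summable.of_nonneg_of_le (fun i => by positivity) (fun i => ?_) h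
    split_ifs
    · exact le_rfl
    · simp only [norm_zero]
      rw [Real.zero_rpow (by norm_num)]
      positivity⟩

theorem rs_mem {A : Set ι} {f : L2 ι} {i : ι} (hi : i ∈ A) : rs A f i = f i := by
  classical
  change (if i ∈ A then f i else 0) = f i
  rw [if_pos hi]

theorem rs_notMem {A : Set ι} {f : L2 ι} {i : ι} (hi : i ∉ A) : rs A f i = 0 := by
  classical
  change (if i ∈ A then f i else 0) = 0
  rw [if_neg hi]

theorem Lz_orth (A : Set ι) : (Lz A)ᗮ = Lz (Aᶜ) := by
  ext f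
  constructor
  · intro hf i hi
    rw [← inner_dl_left]
    apply (Submodule.mem_orthogonal _ _).1 hf
    intro j hj
    apply dl_ne
    rintro rfl
    exact hi hj
  · intro hf
    rw [Submodule.mem_orthogonal]
    intro g hg
    refine (hasSum_inner_L2 g f).unique ?_
    have : (fun i => g i * f i) = fun _ => 0 := by
      ext i
      by_cases hi : i ∈ A
      · rw [hg i hi, zero_mul]
      · rw [hf i hi, mul_zero]
    rw [this]
    exact hasSum_zero

theorem pj_Lz (A : Set ι) (f : L2 ι) : pj (Lz A) f = rs Aᶜ f := by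
  apply pj_eq_of (isClosed_Lz A)
  · intro i hi
    exact rs_notMem (by simpa using hi)
  · rw [Lz_orth]
    intro i hi
    rw [lp.coeFn_sub, Pi.sub_apply, rs_mem hi, sub_self]

theorem Lz_inf (A B : Set ι) : Lz A ⊓ Lz B = (Lz (A ∪ B) : Submodule ℝ (L2 ι)) := by
  ext f
  constructor
  · rintro ⟨h1, h2⟩ i (hi | hi)
    · exact h1 i hi
    · exact h2 i hi
  · intro h
    exact ⟨fun i hi => h i (Or.inl hi), fun i hi => h i (Or.inr hi)⟩

theorem Lz_anti {A B : Set ι} (h : A ⊆ B) : (Lz B : Submodule ℝ (L2 ι)) ≤ Lz A :=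
  fun _ hf i hi => hf i (h hi)

theorem dl_mem_Lz {A : Set ι} {i : ι} (h : i ∉ A) : (dl i : L2 ι) ∈ (Lz A : Submodule ℝ (L2 ι)) := by
  intro j hj
  apply dl_ne
  rintro rfl
  exact h hj

theorem tendsto_pj_Lz {A : ℕ → Set ι} (hA : Monotone A) (f : L2 ι)
    (hf : f ∈ (Lz (⋃ n, A n)ᶜ : Submodule ℝ (L2 ι))) :
    Tendsto (fun n => pj (Lz (A n)ᶜ) f) atTop (𝓝 f) := by
  have hcl : ∀ n, IsClosed ((Lz (A n)ᶜ : Submodule ℝ (L2 ι)) : Set (L2 ι)) :=
    fun n => isClosed_Lz _
  have hmono : Monotone fun n => (Lz (A n)ᶜ : Submodule ℝ (L2 ι)).topologicalClosure := by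
    intro m n hmn
    exact Submodule.topologicalClosure_mono (Lz_anti (Set.compl_subset_compl.2 (hA hmn)))
  have h := Submodule.starProjection_tendsto_closure_iSup
    (fun n => (Lz (A n)ᶜ : Submodule ℝ (L2 ι)).topologicalClosure) hmono f
  have h2 : f ∈ (⨆ n, (Lz (A n)ᶜ : Submodule ℝ (L2 ι)).topologicalClosure).topologicalClosure := by
    have h3 := hasSum_dl f
    refine mem_closure_of_tendsto h3 (Eventually.of_forall fun s => ?_)
    apply Submodule.sum_mem
    intro i _
    by_cases hi : i ∈ ⋃ n, A n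
    · obtain ⟨n, hn⟩ := Set.mem_iUnion.1 hi
      apply Submodule.smul_mem
      have h4 : (Lz (A n)ᶜ : Submodule ℝ (L2 ι)).topologicalClosure ≤
        ⨆ n, (Lz (A n)ᶜ : Submodule ℝ (L2 ι)).topologicalClosure := le_iSup
          (fun n => (Lz (A n)ᶜ : Submodule ℝ (L2 ι)).topologicalClosure) n
      apply h4
      apply Submodule.le_topologicalClosure
      exact dl_mem_Lz (by simpa using hn)
    · rw [hf i hi, zero_smul]
      exact Submodule.zero_mem _
  rw [Submodule.starProjection_eq_self_iff.2 h2] at h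
  exact h

end Coord

section Limits

variable {H : Type*} [NormedAddCommGroup H] [InnerProductSpace ℝ H] [CompleteSpace H]

theorem norm_sub_pj_le {S : Submodule ℝ H} (x y : H) (hy : y ∈ S) : ‖x - pj S x‖ ≤ ‖x - y‖ := by
  unfold pj
  rw [Submodule.starProjection_minimal]
  exact ciInf_le ⟨0, Set.forall_mem_range.mpr fun _ => norm_nonneg _⟩
    (⟨y, Submodule.le_topologicalClosure _ hy⟩ : S.topologicalClosure)

/-- Vectors that are asymptotically in `A n`. -/
def Li (A : ℕ → Submodule ℝ H) : Submodule ℝ H where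
  carrier := {x | Tendsto (fun n => pj (A n) x) atTop (𝓝 x)}
  add_mem' := by
    intro x y hx hy
    have := Filter.Tendsto.add hx hy
    simpa using this
  zero_mem' := by simp
  smul_mem' := by
    intro c x hx
    have := Filter.Tendsto.const_smul hx c
    simpa using this

theorem mem_Li {A : ℕ → Submodule ℝ H} {x : H} :
    x ∈ Li A ↔ Tendsto (fun n => pj (A n) x) atTop (𝓝 x) := Iff.rfl

theorem mem_Li_of {A : ℕ → Submodule ℝ H} {x : H} {y : ℕ → H} (hy : ∀ n, y n ∈ A n)
    (h : Tendsto y atTop (𝓝 x)) : x ∈ Li A := by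
  rw [mem_Li, tendsto_iff_norm_sub_tendsto_zero]
  have h2 := tendsto_iff_norm_sub_tendsto_zero.1 h
  refine squeeze_zero (fun _ => norm_nonneg _) (fun n => ?_) h2
  rw [norm_sub_rev, norm_sub_rev (y n)]
  exact norm_sub_pj_le x (y n) (hy n)

theorem isClosed_Li (A : ℕ → Submodule ℝ H) : IsClosed ((Li A : Submodule ℝ H) : Set H) := by
  rw [← isSeqClosed_iff_isClosed]
  intro x a hx ha
  change Tendsto (fun n => pj (A n) a) atTop (𝓝 a)
  rw [Metric.tendsto_atTop]
  intro ε hε
  obtain ⟨k, hk⟩ := (Metric.tendsto_atTop.1 ha) (ε / 3) (by positivity)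
  have hk' := hk k le_rfl
  obtain ⟨N, hN⟩ := (Metric.tendsto_atTop.1 (hx k)) (ε / 3) (by positivity)
  refine ⟨N, fun n hn => ?_⟩
  have h1 := hN n hn
  rw [dist_eq_norm] at hk' h1 ⊢
  have h2 : ‖pj (A n) a - pj (A n) (x k)‖ ≤ ‖x k - a‖ := by
    rw [← map_sub, norm_sub_rev (x k)]
    exact norm_pj_le _
  calc ‖pj (A n) a - a‖
      = ‖(pj (A n) a - pj (A n) (x k)) + (pj (A n) (x k) - x k) + (x k - a)‖ := by
        congr 1; abel
    _ ≤ ‖pj (A n) a - pj (A n) (x k)‖ + ‖pj (A n) (x k) - x k‖ + ‖x k - a‖ := norm_add₃_le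
    _ < ε := by linarith

theorem tendsto_pj_of_Li {A : ℕ → Submodule ℝ H} (hA : ∀ n, IsClosed (A n : Set H))
    {W : Submodule ℝ H} (hW : IsClosed (W : Set H)) (h1 : W ≤ Li A)
    (h2 : Wᗮ ≤ Li fun n => (A n)ᗮ) (x : H) :
    Tendsto (fun n => pj (A n) x) atTop (𝓝 (pj W x)) := by
  have h3 : Tendsto (fun n => pj (A n) (pj W x)) atTop (𝓝 (pj W x)) := h1 (pj_mem hW x)
  have h4 : Tendsto (fun n => pj (A n)ᗮ (x - pj W x)) atTop (𝓝 (x - pj W x)) :=
    h2 (sub_pj_mem x)
  have h5 : Tendsto (fun n => (x - pj W x) - pj (A n)ᗮ (x - pj W x)) atTop (𝓝 0) := by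
    have := h4.const_sub (x - pj W x)
    simpa using this
  have h6 := h3.add h5
  rw [add_zero] at h6
  refine h6.congr (fun n => ?_)
  rw [pj_orth (hA n), sub_sub_cancel, ← map_add]
  congr 1
  abel

end Limits

section Sandwich

variable {ι : Type*}

/-- The subspace describing the conditional law. -/
noncomputable def Wc (Z : Submodule ℝ (L2 ι)) (O C : Set ι) : Submodule ℝ (L2 ι) :=
  compress (Lz O) (Z ⊓ Lz C)

theorem isClosed_Wc (Z : Submodule ℝ (L2 ι)) (O C : Set ι) :
    IsClosed ((Wc Z O C : Submodule ℝ (L2 ι)) : Set (L2 ι)) :=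
  isClosed_compress (isClosed_Lz O) _

/-- Upper subspace. -/
noncomputable def Wup (Z : Submodule ℝ (L2 ι)) (O C : Set ι) : Submodule ℝ (L2 ι) :=
  compress (Lz O) Z ⊓ Lz C

theorem Wc_le_Wup (Z : Submodule ℝ (L2 ι)) {O C : Set ι} (hOC : Disjoint O C) :
    Wc Z O C ≤ Wup Z O C := by
  refine le_inf (compress_mono _ inf_le_left) ?_
  apply compress_le_closure (isClosed_Lz O) (isClosed_Lz C)
  intro s hs i hi
  rw [pj_Lz, rs_mem]
  · exact hs.2 i hi
  · intro h
    exact Set.disjoint_left.1 hOC h hi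

theorem tendsto_pj_Wc {Z : Submodule ℝ (L2 ι)} (hZ : IsClosed (Z : Set (L2 ι)))
    {O C : ℕ → Set ι} (hO : Monotone O) (hC : Monotone C)
    (hOC : Disjoint (⋃ n, O n) (⋃ n, C n))
    (heq : Wc Z (⋃ n, O n) (⋃ n, C n) = Wup Z (⋃ n, O n) (⋃ n, C n)) (x : L2 ι) :
    Tendsto (fun n => pj (Wc Z (O n) (C n)) x) atTop
      (𝓝 (pj (Wc Z (⋃ n, O n) (⋃ n, C n)) x)) := by
  set O' := ⋃ n, O n with hO'
  set C' := ⋃ n, C n with hC'
  have hOn : ∀ n, O n ⊆ O' := fun n => Set.subset_iUnion O n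
  have hCn : ∀ n, C n ⊆ C' := fun n => Set.subset_iUnion C n
  apply tendsto_pj_of_Li (fun n => isClosed_Wc _ _ _) (isClosed_Wc _ _ _)
  · -- lower bound
    apply compress_le_closure (isClosed_Lz O') (isClosed_Li _)
    intro s hs
    -- rs O'ᶜ s = lim rs (O n)ᶜ s
    have h1 : ∀ n, pj (Lz (O n)) s ∈ Wc Z (O n) (C n) := by
      intro n
      apply pj_mem_compress (isClosed_Lz _)
      exact ⟨hs.1, Lz_anti (hCn n) hs.2⟩
    refine mem_Li_of h1 ?_
    -- pj (Lz (O n)) s = s - pj (Lz (O n)ᶜ) s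
    have h2 : Tendsto (fun n => pj (Lz (O n)ᶜ) (rs O' s)) atTop (𝓝 (rs O' s)) := by
      apply tendsto_pj_Lz hO
      intro i hi
      exact rs_notMem hi
    have h3 : ∀ n, pj (Lz (O n)) s = s - pj (Lz (O n)ᶜ) (rs O' s) := by
      intro n
      apply ext_L2
      intro i
      rw [pj_Lz, pj_Lz, lp.coeFn_sub, Pi.sub_apply]
      by_cases hi : i ∈ O n
      · rw [rs_notMem (by simpa using hi), rs_mem (by simpa using hi), rs_mem (hOn n hi), sub_self]
      · rw [rs_mem (by simpa using hi), rs_notMem (by simpa using hi), sub_zero]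
    have h4 : pj (Lz O') s = s - rs O' s := by
      apply ext_L2
      intro i
      rw [pj_Lz, lp.coeFn_sub, Pi.sub_apply]
      by_cases hi : i ∈ O'
      · rw [rs_notMem (by simpa using hi), rs_mem hi, sub_self]
      · rw [rs_mem (by simpa using hi), rs_notMem hi, sub_zero]
    rw [h4]
    simp_rw [h3]
    exact h2.const_sub s
  · rw [heq]
    -- (M ⊓ Lz C')ᗮ is the closure of Mᗮ + (Lz C')ᗮ; we use: it is contained in any closed subspace
    -- containing both.
    have key : ∀ (X : Submodule ℝ (L2 ι)), IsClosed (X : Set (L2 ι)) →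
        (Lz O')ᗮ ≤ X → Lz O' ⊓ Zᗮ ≤ X → (Lz C')ᗮ ≤ X → (Wup Z O' C')ᗮ ≤ X := by
      intro X hX h1 h2 h3
      rw [← orth_orth hX]
      apply Submodule.orthogonal_le
      refine le_inf (le_inf ?_ ?_) ?_
      · rw [← orth_orth (isClosed_Lz O')]
        exact Submodule.orthogonal_le h1
      · exact Submodule.orthogonal_le h2
      · rw [← orth_orth (isClosed_Lz C')]
        exact Submodule.orthogonal_le h3
    apply key _ (isClosed_Li _)
    · intro y hy
      rw [Lz_orth] at hy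
      refine mem_Li_of (y := fun n => pj (Lz (O n)ᶜ) y) (fun n => ?_) (tendsto_pj_Lz hO y hy)
      have h1 : pj (Lz (O n)ᶜ) y ∈ (Lz (O n))ᗮ := by
        rw [Lz_orth]; exact pj_mem (isClosed_Lz _) y
      exact Submodule.orthogonal_le (compress_le _ _) h1
    · intro y hy
      refine mem_Li_of (y := fun _ => y) (fun n => ?_) tendsto_const_nhds
      rw [Wc, mem_compress_orth (isClosed_Lz _) (Lz_anti (hOn n) hy.1)]
      exact Submodule.orthogonal_le inf_le_left hy.2
    · intro y hy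
      rw [Lz_orth] at hy
      refine mem_Li_of (y := fun n => pj (Lz (C n)ᶜ) y) (fun n => ?_) (tendsto_pj_Lz hC y hy)
      have h1 : pj (Lz (C n)ᶜ) y ∈ (Lz (C n)ᶜ : Submodule ℝ (L2 ι)) := pj_mem (isClosed_Lz _) y
      have h2 : pj (Lz (C n)ᶜ) y ∈ (Lz (O n) : Submodule ℝ (L2 ι)) := by
        intro i hi
        apply h1 i
        intro hi2
        exact Set.disjoint_left.1 hOC (hOn n hi) (hCn n hi2)
      rw [Wc, mem_compress_orth (isClosed_Lz _) h2]
      have h3 : pj (Lz (C n)ᶜ) y ∈ (Lz (C n))ᗮ := by rw [Lz_orth]; exact h1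
      exact Submodule.orthogonal_le inf_le_right h3

end Sandwich

end Vale.Agent.P143
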