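import Vale.Agent.P143_h11.Past

set_option linter.unusedSectionVars false
set_option linter.unusedVariables false

open Filter Topology MeasureTheory
open scoped InnerProductSpace ENNReal

namespace Vale.Agent.P143

open Vale.Agent.P143C (vlab unif)

section Coupl

variable {V : Type*}

/-- Dyadic approximation from below of the reveal time of `e`. -/
noncomputable def sk (k : ℕ) (G : SimpleGraph V) (x : Lab V) (e : Sym2 V) : ℝ :=
  (⌊tau G x e * 2 ^ k⌋₊ : ℝ) * hh k

/-- Conditional probability of `e ∈ T` given the edges revealed before time `sk k G x e`. -/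
noncomputable def Mk (k : ℕ) (G : SimpleGraph V) (x : Lab V) (T : Set (Sym2 V)) (e : Sym2 V) : ℝ :=
  1 - pcS G (Rt (sk k G x e) G x) (T ∩ Rt (sk k G x e) G x) e

/-- Conditional probability of `e ∈ T` given the edges revealed before `e`. -/
noncomputable def qq (G : SimpleGraph V) (x : Lab V) (T : Set (Sym2 V)) (e : Sym2 V) : ℝ :=
  open Classical in if e ∈ G.edgeSet then limsup (fun k => Mk k G x T e) atTop else 0

/-- The second label. -/
noncomputable def VV (G : SimpleGraph V) (x : Lab V) (T : Set (Sym2 V)) (ξ : Lab V) : Lab V :=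
  fun e => vlab (qq G x T e) (ξ e) (e ∈ T)

theorem two_pow_hh (k : ℕ) : (2 : ℝ) ^ k * hh k = 1 := by
  unfold hh; exact mul_inv_cancel₀ (by positivity)

theorem sk_le {G : SimpleGraph V} {x : Lab V} {e : Sym2 V} (h : 0 ≤ tau G x e) (k : ℕ) :
    sk k G x e ≤ tau G x e := by
  unfold sk
  have h1 : (⌊tau G x e * 2 ^ k⌋₊ : ℝ) ≤ tau G x e * 2 ^ k := Nat.floor_le (by positivity)
  calc (⌊tau G x e * 2 ^ k⌋₊ : ℝ) * hh k ≤ tau G x e * 2 ^ k * hh k :=
        mul_le_mul_of_nonneg_right h1 (hh_pos k).le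
    _ = tau G x e := by rw [mul_assoc, two_pow_hh, mul_one]

theorem lt_sk (G : SimpleGraph V) (x : Lab V) (e : Sym2 V) (k : ℕ) :
    tau G x e < sk k G x e + hh k := by
  unfold sk
  have h1 : tau G x e * 2 ^ k < ⌊tau G x e * 2 ^ k⌋₊ + 1 := Nat.lt_floor_add_one _
  have h2 := mul_lt_mul_of_pos_right h1 (hh_pos k)
  rw [mul_assoc, two_pow_hh, mul_one] at h2
  linarith

theorem sk_mono {G : SimpleGraph V} {x : Lab V} {e : Sym2 V} (h : 0 ≤ tau G x e) :
    Monotone fun k => sk k G x e := by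
  apply monotone_nat_of_le_succ
  intro k
  unfold sk
  have h1 : (⌊tau G x e * 2 ^ k⌋₊ * 2 : ℕ) ≤ ⌊tau G x e * 2 ^ (k + 1)⌋₊ := by
    apply Nat.le_floor
    push_cast
    have : (⌊tau G x e * 2 ^ k⌋₊ : ℝ) ≤ tau G x e * 2 ^ k := Nat.floor_le (by positivity)
    rw [pow_succ]
    nlinarith
  have h2 : ((⌊tau G x e * 2 ^ k⌋₊ * 2 : ℕ) : ℝ) ≤ ⌊tau G x e * 2 ^ (k + 1)⌋₊ := by exact_mod_cast h1
  have h3 : hh k = 2 * hh (k + 1) := by
    unfold hh; rw [pow_succ]; field_simp
  rw [h3]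
  push_cast at h2
  have h4 := hh_pos (k + 1)
  nlinarith

theorem tendsto_hh : Tendsto hh atTop (𝓝 0) := by
  have h1 : hh = fun k => ((1 : ℝ) / 2) ^ k := by
    ext k; unfold hh; rw [one_div, inv_pow]
  rw [h1]
  exact tendsto_pow_atTop_nhds_zero_of_lt_one (by norm_num) (by norm_num)

theorem tendsto_sk {G : SimpleGraph V} {x : Lab V} {e : Sym2 V} (h : 0 ≤ tau G x e) :
    Tendsto (fun k => sk k G x e) atTop (𝓝 (tau G x e)) := by
  have h1 : Tendsto (fun k => tau G x e - hh k) atTop (𝓝 (tau G x e)) := by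
    have := tendsto_hh.const_sub (tau G x e)
    simpa using this
  refine tendsto_of_tendsto_of_tendsto_of_le_of_le h1 tendsto_const_nhds (fun k => ?_)
    (fun k => sk_le h k)
  have := lt_sk G x e k
  linarith

theorem iUnion_Rt_sk {G : SimpleGraph V} {x : Lab V} {e : Sym2 V} (h : 0 ≤ tau G x e) :
    ⋃ k, Rt (sk k G x e) G x = Rt (tau G x e) G x := by
  ext f
  simp only [Set.mem_iUnion]
  constructor
  · rintro ⟨k, hk⟩
    exact Rt_mono (sk_le h k) G x hk
  · rintro ⟨h1, h2⟩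
    have h3 := (tendsto_sk h).eventually (lt_mem_nhds h2)
    obtain ⟨k, hk⟩ := h3.exists
    exact ⟨k, h1, hk⟩

theorem Mk_nonneg (k : ℕ) (G : SimpleGraph V) (x : Lab V) (T : Set (Sym2 V)) (e : Sym2 V) :
    0 ≤ Mk k G x T e := by
  unfold Mk
  have := pcS_le_one G (Rt (sk k G x e) G x) (T ∩ Rt (sk k G x e) G x) e
  linarith

theorem Mk_le_one (k : ℕ) (G : SimpleGraph V) (x : Lab V) (T : Set (Sym2 V)) (e : Sym2 V) :
    Mk k G x T e ≤ 1 := by
  unfold Mk
  have := pcS_nonneg G (Rt (sk k G x e) G x) (T ∩ Rt (sk k G x e) G x) e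
  linarith

theorem qq_mem (G : SimpleGraph V) (x : Lab V) (T : Set (Sym2 V)) (e : Sym2 V) :
    qq G x T e ∈ Set.Icc (0:ℝ) 1 := by
  unfold qq
  split_ifs with h
  · constructor
    · refine le_limsup_of_frequently_le (Frequently.of_forall fun k => Mk_nonneg k G x T e) ?_
      exact isBoundedUnder_of ⟨1, fun k => Mk_le_one k G x T e⟩
    · refine limsup_le_of_le ?_ (Eventually.of_forall fun k => Mk_le_one k G x T e)
      exact isCoboundedUnder_le_of_le atTop (fun k => Mk_nonneg k G x T e)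
  · simp

theorem VV_mem (G : SimpleGraph V) (x : Lab V) (T : Set (Sym2 V)) (e : Sym2 V) :
    0 ≤ qq G x T e := (qq_mem G x T e).1

/-- `Mk` depends on `T` through the edges revealed before `e`. -/
theorem Mk_dep {G : SimpleGraph V} {x : Lab V} {e : Sym2 V} (h : 0 ≤ tau G x e) (k : ℕ)
    {T T' : Set (Sym2 V)} (hT : ∀ f, tau G x f < tau G x e → (f ∈ T ↔ f ∈ T')) :
    Mk k G x T e = Mk k G x T' e := by
  unfold Mk
  congr 2
  ext f
  simp only [Set.mem_inter_iff]
  constructor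
  · rintro ⟨h1, h2⟩
    exact ⟨(hT f (h2.2.trans_le (sk_le h k))).1 h1, h2⟩
  · rintro ⟨h1, h2⟩
    exact ⟨(hT f (h2.2.trans_le (sk_le h k))).2 h1, h2⟩

theorem qq_dep {G : SimpleGraph V} {x : Lab V} {e : Sym2 V} (h : 0 ≤ tau G x e)
    {T T' : Set (Sym2 V)} (hT : ∀ f, tau G x f < tau G x e → (f ∈ T ↔ f ∈ T')) :
    qq G x T e = qq G x T' e := by
  unfold qq
  simp only [Mk_dep h _ hT]

/-- Changing one label after time `t` does not change what happens before time `t`. -/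
theorem Rt_congr {G : SimpleGraph V} {x x' : Lab V} {t : ℝ}
    (hx : ∀ f ∈ G.edgeSet, tau G x f < t ∨ tau G x' f < t → x f = x' f) {s : ℝ} (hs : s ≤ t) :
    Rt s G x = Rt s G x' := by
  ext f
  constructor
  · rintro ⟨h1, h2⟩
    refine ⟨h1, ?_⟩
    have := hx f h1 (Or.inl (h2.trans_le hs))
    unfold tau at h2 ⊢
    rwa [← this]
  · rintro ⟨h1, h2⟩
    refine ⟨h1, ?_⟩
    have := hx f h1 (Or.inr (h2.trans_le hs))
    unfold tau at h2 ⊢
    rwa [this]

theorem sk_le_of_lt {G : SimpleGraph V} {x : Lab V} {f : Sym2 V} {t : ℝ} (hft : tau G x f < t)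
    (ht : 0 ≤ t) (k : ℕ) : sk k G x f ≤ t := by
  by_cases h0 : 0 ≤ tau G x f
  · exact (sk_le h0 k).trans hft.le
  · push Not at h0
    have : tau G x f * 2 ^ k ≤ 0 := mul_nonpos_of_nonpos_of_nonneg h0.le (by positivity)
    unfold sk
    rw [Nat.floor_of_nonpos this, Nat.cast_zero, zero_mul]
    exact ht

theorem qq_congr {G : SimpleGraph V} {x x' : Lab V} {t : ℝ} (ht : 0 ≤ t)
    (hx : ∀ f ∈ G.edgeSet, tau G x f < t ∨ tau G x' f < t → x f = x' f)
    (T : Set (Sym2 V)) {f : Sym2 V} (hf : f ∈ G.edgeSet) (hft : tau G x f < t) :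
    qq G x T f = qq G x' T f := by
  have h1 : x f = x' f := hx f hf (Or.inl hft)
  have h2 : tau G x f = tau G x' f := by unfold tau; rw [h1]
  have h3 : ∀ k, sk k G x f = sk k G x' f := by intro k; unfold sk; rw [h2]
  have h4 : ∀ k, Mk k G x T f = Mk k G x' T f := by
    intro k
    unfold Mk
    have h5 : Rt (sk k G x f) G x = Rt (sk k G x f) G x' :=
      Rt_congr hx (sk_le_of_lt hft ht k)
    rw [← h3, h5]
  unfold qq
  simp only [h4]

theorem VV_congr {G : SimpleGraph V} {x x' : Lab V} {t : ℝ} (ht : 0 ≤ t)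
    (hx : ∀ f ∈ G.edgeSet, tau G x f < t ∨ tau G x' f < t → x f = x' f)
    (T : Set (Sym2 V)) (ξ : Lab V) {f : Sym2 V} (hf : f ∈ G.edgeSet) (hft : tau G x f < t) :
    VV G x T ξ f = VV G x' T ξ f := by
  unfold VV
  rw [qq_congr ht hx T hf hft]

end Coupl

section CouplMeas

variable {V : Type*} [Countable V] [MeasurableSpace V] [DiscreteMeasurableSpace V]
  {X : Type*} [MeasurableSpace X] {act : Equiv.Perm V → X → X}

theorem measurable_Mk {G : X → SimpleGraph V} {x : X → Lab V} {T : X → Set (Sym2 V)}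
    (hG : Measurable G) (hx : Measurable x) (hT : Measurable T) (k : ℕ) (e : Sym2 V) :
    Measurable fun ω => Mk k (G ω) (x ω) (T ω) e := by
  obtain ⟨F, hF⟩ : ∃ F : X × ℕ → ℝ, F = fun p => 1 - pcS (G p.1)
      (Rt ((p.2 : ℝ) * hh k) (G p.1) (x p.1))
      (T p.1 ∩ Rt ((p.2 : ℝ) * hh k) (G p.1) (x p.1)) e := ⟨_, rfl⟩
  have h0 : ∀ j : ℕ, Measurable fun ω => pcS (G ω)
      (Rt ((j : ℝ) * hh k) (G ω) (x ω))
      (T ω ∩ Rt ((j : ℝ) * hh k) (G ω) (x ω)) e := fun j =>
    measurable_pcS (R := fun ω => Rt ((j : ℝ) * hh k) (G ω) (x ω))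
      (O := fun ω => T ω ∩ Rt ((j : ℝ) * hh k) (G ω) (x ω)) hG (measurable_Rt hG hx _)
      (measurable_inter hT (measurable_Rt hG hx _)) e
  have h1 : Measurable F := by
    apply measurable_from_prod_countable_left
    intro j
    rw [hF]
    exact (measurable_const (a := (1 : ℝ))).sub (h0 j)
  have h2 : Measurable fun ω => (ω, (⌊tau (G ω) (x ω) e * 2 ^ k⌋₊ : ℕ)) :=
    measurable_id.prodMk ((measurable_tau hG hx e).mul_const _).nat_floor
  have h3 : (fun ω => Mk k (G ω) (x ω) (T ω) e) =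
      F ∘ (fun ω => (ω, (⌊tau (G ω) (x ω) e * 2 ^ k⌋₊ : ℕ))) := by
    rw [hF]; rfl
  rw [h3]
  exact h1.comp h2

theorem measurable_qq {G : X → SimpleGraph V} {x : X → Lab V} {T : X → Set (Sym2 V)}
    (hG : Measurable G) (hx : Measurable x) (hT : Measurable T) (e : Sym2 V) :
    Measurable fun ω => qq (G ω) (x ω) (T ω) e := by
  unfold qq
  refine Measurable.ite (measurable_mem_iff' (measurable_edgeSet hG) e) ?_ measurable_const
  exact Measurable.limsup fun k => measurable_Mk hG hx hT k e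

theorem measurable_VV {G : X → SimpleGraph V} {x ξ : X → Lab V} {T : X → Set (Sym2 V)}
    (hG : Measurable G) (hx : Measurable x) (hT : Measurable T) (hξ : Measurable ξ) :
    Measurable fun ω => VV (G ω) (x ω) (T ω) (ξ ω) := by
  apply measurable_pi_lambda
  intro e
  unfold VV vlab
  have h1 := measurable_qq hG hx hT e
  have h2 : Measurable fun ω => ξ ω e := (measurable_pi_apply e).comp hξ
  exact Measurable.ite (measurable_mem_iff' hT e) (h1.mul h2)
    (h1.add ((measurable_const.sub h1).mul h2))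

theorem Mk_act {G : X → SimpleGraph V} {x : X → Lab V} {T : X → Set (Sym2 V)}
    (hG : Measurable G) (hx : Measurable x)
    (hGe : ∀ g ω, G (act g ω) = actG g (G ω)) (hxe : EqLab act x) (hTe : RandEdge act T)
    (k : ℕ) (g : Equiv.Perm V) (ω : X) (e : Sym2 V) :
    Mk k (G (act g ω)) (x (act g ω)) (T (act g ω)) (e.map g) = Mk k (G ω) (x ω) (T ω) e := by
  have ht : tau (G (act g ω)) (x (act g ω)) (e.map g) = tau (G ω) (x ω) e := by
    unfold tau
    rw [hGe, mm_act, hxe]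
  have hs : sk k (G (act g ω)) (x (act g ω)) (e.map g) = sk k (G ω) (x ω) e := by
    unfold sk; rw [ht]
  unfold Mk
  rw [hs]
  have hR := randEdge_Rt hG hx hGe hxe (sk k (G ω) (x ω) e)
  have := pcS_act (randEdge_edgeSet hG hGe) hR (hTe.inter hR) g ω e
  rw [this]

theorem qq_act {G : X → SimpleGraph V} {x : X → Lab V} {T : X → Set (Sym2 V)}
    (hG : Measurable G) (hx : Measurable x)
    (hGe : ∀ g ω, G (act g ω) = actG g (G ω)) (hxe : EqLab act x) (hTe : RandEdge act T)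
    (g : Equiv.Perm V) (ω : X) (e : Sym2 V) :
    qq (G (act g ω)) (x (act g ω)) (T (act g ω)) (e.map g) = qq (G ω) (x ω) (T ω) e := by
  have : (e.map g ∈ (G (act g ω)).edgeSet) ↔ (e ∈ (G ω).edgeSet) := by
    rw [hGe, mem_actG_edgeSet]
  unfold qq
  simp only [Mk_act hG hx hGe hxe hTe]
  by_cases h : e ∈ (G ω).edgeSet
  · rw [if_pos h, if_pos (this.2 h)]
  · rw [if_neg h, if_neg (fun h2 => h (this.1 h2))]

theorem VV_act {G : X → SimpleGraph V} {x ξ : X → Lab V} {T : X → Set (Sym2 V)}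
    (hG : Measurable G) (hx : Measurable x)
    (hGe : ∀ g ω, G (act g ω) = actG g (G ω)) (hxe : EqLab act x) (hTe : RandEdge act T)
    (hξe : EqLab act ξ) : EqLab act fun ω => VV (G ω) (x ω) (T ω) (ξ ω) := by
  intro g ω e
  change vlab (qq (G (act g ω)) (x (act g ω)) (T (act g ω)) (e.map g)) (ξ (act g ω) (e.map g))
    (e.map g ∈ T (act g ω)) = vlab (qq (G ω) (x ω) (T ω) e) (ξ ω e) (e ∈ T ω)
  rw [qq_act hG hx hGe hxe hTe, hξe]
  congr 1
  exact propext (hTe.eqv g ω e)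

end CouplMeas

section Hqc

variable {V : Type*} [Countable V] [MeasurableSpace V] [DiscreteMeasurableSpace V]
  {G : SimpleGraph V} {μ : Measure (Set (Sym2 V))} [IsProbabilityMeasure μ]

/-- The properties of the clocks `x` that hold almost surely. -/
structure Good (G : SimpleGraph V) (μ : Measure (Set (Sym2 V))) (x : Lab V) : Prop where
  nonneg : ∀ e, 0 ≤ tau G x e
  inj : Function.Injective (tau G x)
  cond : ∀ k j : ℕ, ∀ᵐ T ∂μ, Wc (Zb G.edgeSet) (dd (T ∩ Rt (j * hh k) G x))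
      (dd (Rt (j * hh k) G x \ T)) =
    Wup (Zb G.edgeSet) (dd (T ∩ Rt (j * hh k) G x)) (dd (Rt (j * hh k) G x \ T))

theorem cond_present (hFC : FC G μ) {x : Lab V} (hx : Good G μ x) (k : ℕ) {e : Sym2 V}
    (he : e ∈ G.edgeSet) (A B : Finset (Sym2 V)) (hA : (A : Set (Sym2 V)) ⊆ Rt (sk k G x e) G x)
    (hB : (B : Set (Sym2 V)) ⊆ Rt (sk k G x e) G x) :
    μ.real {T | ↑A ⊆ T ∧ Disjoint (B : Set (Sym2 V)) T ∧ e ∈ T} =
      ∫ T in {T | ↑A ⊆ T ∧ Disjoint (B : Set (Sym2 V)) T}, Mk k G x T e ∂μ := by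
  set D : Set (Set (Sym2 V)) := {T | ↑A ⊆ T ∧ Disjoint (B : Set (Sym2 V)) T} with hD
  have heR : e ∉ Rt (sk k G x e) G x := fun h => absurd (h.2.trans_le (sk_le (hx.nonneg e) k))
    (lt_irrefl _)
  have h1 := cond_infinite hFC (Rt (sk k G x e) G x) he heR (hx.cond k _) A B hA hB
  have h2 : ∫ T in D, Mk k G x T e ∂μ =
      μ.real D - ∫ T in D, pcS G (Rt (sk k G x e) G x) (T ∩ Rt (sk k G x e) G x) e ∂μ := by
    unfold Mk
    have hint : Integrable (fun T => pcS G (Rt (sk k G x e) G x)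
        (T ∩ Rt (sk k G x e) G x) e) (μ.restrict D) := by
      refine Integrable.of_bound (C := 1) ?_ ?_
      · exact (measurable_pcS (X := Set (Sym2 V)) (G := fun _ => G)
          (R := fun _ => Rt (sk k G x e) G x)
          (O := fun T => T ∩ Rt (sk k G x e) G x) measurable_const measurable_const
          (measurable_inter measurable_id measurable_const) e).aestronglyMeasurable
      · refine Eventually.of_forall fun T => ?_
        rw [Real.norm_of_nonneg (pcS_nonneg _ _ _ _)]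
        exact pcS_le_one _ _ _ _
    rw [integral_sub (integrable_const _) hint, setIntegral_const, smul_eq_mul, mul_one]
  have h3 : μ.real D = μ.real {T | ↑A ⊆ T ∧ Disjoint (B : Set (Sym2 V)) T ∧ e ∈ T} +
      μ.real {T | (↑A ⊆ T ∧ Disjoint (B : Set (Sym2 V)) T) ∧ e ∉ T} := by
    rw [← measureReal_inter_add_sdiff (s := D) (measurableSet_mem e)]
    congr 2
    · ext T; simp only [hD, Set.mem_inter_iff, Set.mem_ofPred_eq]; tauto
  rw [h2, h3, h1]
  ring

/-- Convergence of the conditional probabilities. -/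
theorem Mk_tendsto (hFC : FC G μ) {x : Lab V} (hx : Good G μ x) {e : Sym2 V}
    (he : e ∈ G.edgeSet) :
    ∀ᵐ T ∂μ, Tendsto (fun k => Mk k G x T e) atTop (𝓝 (qq G x T e)) := by
  have h := levy_cond μ e (fun k => Rt (sk k G x e) G x)
    (fun a b hab => Rt_mono (sk_mono (hx.nonneg e) hab) G x) (fun k T => Mk k G x T e)
    (fun k => measurable_Mk (X := Set (Sym2 V)) (G := fun _ => G) (x := fun _ => x)
      measurable_const measurable_const measurable_id k e)
    (fun k T => ⟨Mk_nonneg k G x T e, Mk_le_one k G x T e⟩)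
    (fun k T T' hT => by
      unfold Mk
      congr 2
      ext f
      simp only [Set.mem_inter_iff]
      constructor
      · rintro ⟨h1, h2⟩; exact ⟨(hT f h2).1 h1, h2⟩
      · rintro ⟨h1, h2⟩; exact ⟨(hT f h2).2 h1, h2⟩)
    (fun k A B hA hB => cond_present hFC hx k he A B hA hB)
  filter_upwards [h.1] with T hT
  unfold qq
  rw [if_pos he]
  exact hT

/-- The hypothesis of the Rosenblatt lemma. -/
theorem hqc (hFC : FC G μ) (hsub : ∀ᵐ T ∂μ, T ⊆ G.edgeSet) {x : Lab V} (hx : Good G μ x)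
    (e : Sym2 V) (A B : Finset (Sym2 V)) (hA : ∀ f ∈ A, tau G x f < tau G x e)
    (hB : ∀ f ∈ B, tau G x f < tau G x e) :
    μ {T | e ∈ T ∧ ↑A ⊆ T ∧ Disjoint (B : Set (Sym2 V)) T} =
      ∫⁻ T in {T | ↑A ⊆ T ∧ Disjoint (B : Set (Sym2 V)) T}, ENNReal.ofReal (qq G x T e) ∂μ := by
  classical
  by_cases he : e ∈ G.edgeSet
  swap
  · have h1 : μ {T | e ∈ T ∧ ↑A ⊆ T ∧ Disjoint (B : Set (Sym2 V)) T} = 0 := by
      rw [← nonpos_iff_eq_zero]
      have h2 : μ {T | ¬ T ⊆ G.edgeSet} = 0 := hsub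
      rw [← h2]
      apply measure_mono
      rintro T ⟨h3, _⟩ h4
      exact he (h4 h3)
    rw [h1]
    unfold qq
    simp [if_neg he]
  by_cases hAE : (A : Set (Sym2 V)) ⊆ G.edgeSet
  swap
  · have h2 : μ {T | ¬ T ⊆ G.edgeSet} = 0 := hsub
    have h1 : μ {T | ↑A ⊆ T ∧ Disjoint (B : Set (Sym2 V)) T} = 0 := by
      rw [← nonpos_iff_eq_zero, ← h2]
      apply measure_mono
      rintro T ⟨h3, _⟩ h4
      exact hAE (h3.trans h4)
    have h3 : μ {T | e ∈ T ∧ ↑A ⊆ T ∧ Disjoint (B : Set (Sym2 V)) T} = 0 := by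
      rw [← nonpos_iff_eq_zero, ← h1]
      exact measure_mono fun T hT => hT.2
    rw [h3, Measure.restrict_eq_zero.2 h1, lintegral_zero_measure]
  set B' := B.filter (· ∈ G.edgeSet) with hB'
  have hA' : (A : Set (Sym2 V)) ⊆ ⋃ k, Rt (sk k G x e) G x := by
    rw [iUnion_Rt_sk (hx.nonneg e)]
    intro f hf
    exact ⟨hAE hf, hA f hf⟩
  have hB'' : (B' : Set (Sym2 V)) ⊆ ⋃ k, Rt (sk k G x e) G x := by
    rw [iUnion_Rt_sk (hx.nonneg e)]
    intro f hf
    have := Finset.mem_filter.1 (Finset.mem_coe.1 hf)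
    exact ⟨this.2, hB f this.1⟩
  have h := levy_cond μ e (fun k => Rt (sk k G x e) G x)
    (fun a b hab => Rt_mono (sk_mono (hx.nonneg e) hab) G x) (fun k T => Mk k G x T e)
    (fun k => measurable_Mk (X := Set (Sym2 V)) (G := fun _ => G) (x := fun _ => x)
      measurable_const measurable_const measurable_id k e)
    (fun k T => ⟨Mk_nonneg k G x T e, Mk_le_one k G x T e⟩)
    (fun k T T' hT => by
      unfold Mk
      congr 2
      ext f
      simp only [Set.mem_inter_iff]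
      constructor
      · rintro ⟨h1, h2⟩; exact ⟨(hT f h2).1 h1, h2⟩
      · rintro ⟨h1, h2⟩; exact ⟨(hT f h2).2 h1, h2⟩)
    (fun k A B hA hB => cond_present hFC hx k he A B hA hB)
  have h2 := h.2 A B' hA' hB''
  have hqe : ∀ T, limsup (fun k => Mk k G x T e) atTop = qq G x T e := by
    intro T; unfold qq; rw [if_pos he]
  simp only [hqe] at h2
  have hqm : Measurable fun T => qq G x T e :=
    measurable_qq (X := Set (Sym2 V)) (G := fun _ => G) (x := fun _ => x)
      measurable_const measurable_const measurable_id e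
  have h3 : ∫⁻ T in {T | ↑A ⊆ T ∧ Disjoint (B' : Set (Sym2 V)) T}, ENNReal.ofReal (qq G x T e) ∂μ =
      μ {T | ↑A ⊆ T ∧ Disjoint (B' : Set (Sym2 V)) T ∧ e ∈ T} := by
    rw [← ofReal_integral_eq_lintegral_ofReal]
    · rw [← h2, ofReal_measureReal]
    · refine Integrable.of_bound (C := 1) hqm.aestronglyMeasurable ?_
      refine Eventually.of_forall fun T => ?_
      rw [Real.norm_of_nonneg (qq_mem G x T e).1]
      exact (qq_mem G x T e).2
    · exact Eventually.of_forall fun T => (qq_mem G x T e).1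
  have hBeq : ∀ᵐ T ∂μ, (Disjoint (B' : Set (Sym2 V)) T ↔ Disjoint (B : Set (Sym2 V)) T) := by
    filter_upwards [hsub] with T hT
    constructor
    · intro h4
      rw [Set.disjoint_left] at h4 ⊢
      intro f hf hfT
      exact h4 (Finset.mem_coe.2 (Finset.mem_filter.2 ⟨Finset.mem_coe.1 hf, hT hfT⟩)) hfT
    · intro h4
      rw [Set.disjoint_left] at h4 ⊢
      intro f hf hfT
      exact h4 (Finset.mem_coe.2 (Finset.mem_filter.1 (Finset.mem_coe.1 hf)).1) hfT
  have h4 : μ {T | e ∈ T ∧ ↑A ⊆ T ∧ Disjoint (B : Set (Sym2 V)) T} =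
      μ {T | ↑A ⊆ T ∧ Disjoint (B' : Set (Sym2 V)) T ∧ e ∈ T} := by
    apply measure_congr
    filter_upwards [hBeq] with T hT
    apply propext
    change (e ∈ T ∧ ↑A ⊆ T ∧ Disjoint (B : Set (Sym2 V)) T) ↔
      (↑A ⊆ T ∧ Disjoint (B' : Set (Sym2 V)) T ∧ e ∈ T)
    rw [hT]; tauto
  have h5 : ({T | ↑A ⊆ T ∧ Disjoint (B' : Set (Sym2 V)) T} : Set (Set (Sym2 V))) =ᵐ[μ]
      {T | ↑A ⊆ T ∧ Disjoint (B : Set (Sym2 V)) T} := by
    filter_upwards [hBeq] with T hT
    apply propext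
    change (↑A ⊆ T ∧ Disjoint (B' : Set (Sym2 V)) T) ↔ (↑A ⊆ T ∧ Disjoint (B : Set (Sym2 V)) T)
    rw [hT]
  rw [h4, ← h3, setLIntegral_congr h5]

end Hqc

end Vale.Agent.P143
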