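import Vale.Agent.P143_h11.Cond

set_option linter.unusedSectionVars false
set_option linter.unusedVariables false

open Filter Topology MeasureTheory ContinuousLinearMap
open scoped InnerProductSpace ENNReal

namespace Vale.Agent.P143

/-! ### The cycle space -/

section Cycle

variable {V : Type*}

/-- Ordered pairs representing a set of unordered pairs. -/
def dd (A : Set (Sym2 V)) : Set (V × V) := {i | s(i.1, i.2) ∈ A}

theorem mem_dd {A : Set (Sym2 V)} {x y : V} : (x, y) ∈ dd A ↔ s(x, y) ∈ A := Iff.rfl

/-- Finitely supported antisymmetric divergence free functions supported on `E`. -/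
def cyc (E : Set (Sym2 V)) : Submodule ℝ (L2 (V × V)) where
  carrier := {f | (Function.support fun i => f i).Finite ∧ (∀ x y, f (x, y) = - f (y, x)) ∧
    (∀ x y, s(x, y) ∉ E → f (x, y) = 0) ∧ ∀ x, ∑ᶠ y, f (x, y) = 0}
  add_mem' := by
    rintro f h ⟨f1, f2, f3, f4⟩ ⟨h1, h2, h3, h4⟩
    refine ⟨?_, ?_, ?_, ?_⟩
    · refine (f1.union h1).subset ?_
      intro i hi
      simp only [Function.mem_support, lp.coeFn_add, Pi.add_apply, Set.mem_union] at hi ⊢
      by_contra hcon
      push Not at hcon
      exact hi (by rw [hcon.1, hcon.2, add_zero])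
    · intro x y
      simp only [lp.coeFn_add, Pi.add_apply]
      rw [f2 x y, h2 x y]; ring
    · intro x y hxy
      simp only [lp.coeFn_add, Pi.add_apply]
      rw [f3 x y hxy, h3 x y hxy, add_zero]
    · intro x
      simp only [lp.coeFn_add, Pi.add_apply]
      rw [finsum_add_distrib, f4, h4, add_zero]
      · exact (f1.preimage (f := fun y => (x, y)) (by intro a _ b _ hab; exact (Prod.mk.inj hab).2))
      · exact (h1.preimage (f := fun y => (x, y)) (by intro a _ b _ hab; exact (Prod.mk.inj hab).2))
  zero_mem' := by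
    refine ⟨?_, ?_, ?_, ?_⟩
    · simp
    · intro x y; simp
    · intro x y _; rfl
    · intro x; simp
  smul_mem' := by
    rintro c f ⟨f1, f2, f3, f4⟩
    refine ⟨?_, ?_, ?_, ?_⟩
    · refine f1.subset ?_
      intro i hi
      simp only [Function.mem_support, lp.coeFn_smul, Pi.smul_apply, smul_eq_mul] at hi ⊢
      intro h
      exact hi (by rw [h, mul_zero])
    · intro x y
      simp only [lp.coeFn_smul, Pi.smul_apply, smul_eq_mul]
      rw [f2 x y]; ring
    · intro x y hxy
      simp only [lp.coeFn_smul, Pi.smul_apply, smul_eq_mul]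
      rw [f3 x y hxy, mul_zero]
    · intro x
      simp only [lp.coeFn_smul, Pi.smul_apply]
      rw [← smul_finsum, f4, smul_zero]

theorem mem_cyc {E : Set (Sym2 V)} {f : L2 (V × V)} : f ∈ cyc E ↔
    (Function.support fun i => f i).Finite ∧ (∀ x y, f (x, y) = - f (y, x)) ∧
    (∀ x y, s(x, y) ∉ E → f (x, y) = 0) ∧ ∀ x, ∑ᶠ y, f (x, y) = 0 := Iff.rfl

theorem cyc_mono {E E' : Set (Sym2 V)} (h : E ⊆ E') : cyc E ≤ cyc E' := by
  rintro f ⟨f1, f2, f3, f4⟩
  exact ⟨f1, f2, fun x y hxy => f3 x y (fun h2 => hxy (h h2)), f4⟩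

/-- An increasing union of edge sets. -/
theorem cyc_iUnion {E : ℕ → Set (Sym2 V)} (hE : Monotone E) {f : L2 (V × V)}
    (hf : f ∈ cyc (⋃ n, E n)) : ∃ n, f ∈ cyc (E n) := by
  obtain ⟨f1, f2, f3, f4⟩ := hf
  have h1 : ∀ i ∈ Function.support (fun i => f i), ∃ n, s(i.1, i.2) ∈ E n := by
    rintro ⟨x, y⟩ hi
    by_contra hcon
    push Not at hcon
    apply hi
    apply f3
    rw [Set.mem_iUnion]
    push Not
    exact hcon
  choose! N hN using h1
  obtain ⟨n, hn⟩ : ∃ n, ∀ i ∈ Function.support (fun i => f i), N i ≤ n := by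
    obtain ⟨n, hn⟩ := (f1.image N).bddAbove
    exact ⟨n, fun i hi => hn ⟨i, hi, rfl⟩⟩
  refine ⟨n, f1, f2, fun x y hxy => ?_, f4⟩
  by_contra hcon
  exact hxy (hE (hn (x, y) hcon) (hN (x, y) hcon))

/-- The closed cycle space. -/
noncomputable def Zb (E : Set (Sym2 V)) : Submodule ℝ (L2 (V × V)) := (cyc E).topologicalClosure

theorem isClosed_Zb (E : Set (Sym2 V)) : IsClosed ((Zb E : Submodule ℝ (L2 (V × V))) :
    Set (L2 (V × V))) := Submodule.isClosed_topologicalClosure _

/-- The closed subspace of antisymmetric functions. -/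
def Anti : Submodule ℝ (L2 (V × V)) where
  carrier := {f | ∀ x y, f (x, y) = - f (y, x)}
  add_mem' := by
    intro f h hf hh x y
    simp only [lp.coeFn_add, Pi.add_apply]
    rw [hf x y, hh x y]; ring
  zero_mem' := by intro x y; simp
  smul_mem' := by
    intro c f hf x y
    simp only [lp.coeFn_smul, Pi.smul_apply, smul_eq_mul]
    rw [hf x y]; ring

theorem isClosed_Anti : IsClosed ((Anti : Submodule ℝ (L2 (V × V))) : Set (L2 (V × V))) := by
  have : ((Anti : Submodule ℝ (L2 (V × V))) : Set (L2 (V × V))) =
      ⋂ x : V, ⋂ y : V, {f : L2 (V × V) | f (x, y) = - f (y, x)} := by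
    ext f
    simp only [Set.mem_iInter]
    exact Iff.rfl
  rw [this]
  exact isClosed_iInter fun x => isClosed_iInter fun y =>
    isClosed_eq (continuous_apply_L2 _) (continuous_apply_L2 _).neg

theorem Zb_le_Anti (E : Set (Sym2 V)) : Zb E ≤ Anti :=
  Submodule.topologicalClosure_minimal _ (fun f hf => hf.2.1) isClosed_Anti

theorem Wc_le_Anti (E O C : Set (Sym2 V)) : Wc (Zb E) (dd O) (dd C) ≤ Anti := by
  apply compress_le_closure (isClosed_Lz _) isClosed_Anti
  intro f hf x y
  have h := Zb_le_Anti E hf.1 x y
  rw [pj_Lz]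
  by_cases hxy : s(x, y) ∈ O
  · have hyx : s(y, x) ∈ O := by rwa [Sym2.eq_swap]
    rw [rs_notMem (Set.notMem_compl_iff.2 (show (x, y) ∈ dd O from hxy)),
      rs_notMem (Set.notMem_compl_iff.2 (show (y, x) ∈ dd O from hyx)), neg_zero]
  · have hyx : s(y, x) ∉ O := by rwa [Sym2.eq_swap]
    rw [rs_mem (Set.mem_compl (show (x, y) ∉ dd O from hxy)),
      rs_mem (Set.mem_compl (show (y, x) ∉ dd O from hyx)), h]

/-- For antisymmetric closed subspaces, the norms of the projections of `dl (x,y)` and
`dl (y,x)` agree, and twice its square is at most 1. -/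
theorem pj_dl_swap {S : Submodule ℝ (L2 (V × V))} (hS : IsClosed (S : Set (L2 (V × V))))
    (hA : S ≤ Anti) (x y : V) : pj S (dl (y, x)) = - pj S (dl (x, y)) := by
  have h1 : pj S (dl (x, y) + dl (y, x)) = 0 := by
    rw [pj_eq_zero_iff hS, Submodule.mem_orthogonal]
    intro f hf
    rw [inner_add_right, inner_dl_right, inner_dl_right, hA hf x y]
    ring
  rw [map_add] at h1
  exact eq_neg_of_add_eq_zero_right h1

theorem two_norm_pj_le {S : Submodule ℝ (L2 (V × V))} (hS : IsClosed (S : Set (L2 (V × V))))
    (hA : S ≤ Anti) (x y : V) : 2 * ‖pj S (dl (x, y))‖ ^ 2 ≤ 1 := by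
  have h1 : pj S (dl (x, y) - dl (y, x)) = (2 : ℝ) • pj S (dl (x, y)) := by
    rw [map_sub, pj_dl_swap hS hA x y, sub_neg_eq_add, two_smul]
  have h2 : ‖pj S (dl (x, y) - dl (y, x))‖ ^ 2 ≤ ‖(dl (x, y) - dl (y, x) : L2 (V × V))‖ ^ 2 := by
    have := norm_pj_le (S := S) (dl (x, y) - dl (y, x))
    gcongr
  rw [h1, norm_smul, mul_pow] at h2
  have h3 : ‖(dl (x, y) - dl (y, x) : L2 (V × V))‖ ^ 2 ≤ 2 := by
    rw [norm_sub_sq_real, norm_dl, norm_dl, inner_dl_left]
    by_cases h : (x, y) = (y, x)
    · rw [← h, dl_self]; norm_num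
    · rw [dl_ne h]; norm_num
  rw [Real.norm_ofNat] at h2
  linarith

theorem starProjection_congr {H : Type*} [NormedAddCommGroup H] [InnerProductSpace ℝ H]
    {A B : Submodule ℝ H} [A.HasOrthogonalProjection] [B.HasOrthogonalProjection] (h : A = B)
    (v : H) : A.starProjection v = B.starProjection v := by
  subst h; rfl

/-- Density of the vectors vanishing on a finite set. -/
theorem closure_inf_Lz {ι : Type*} {S : Submodule ℝ (L2 ι)} {A : Set ι} (hA : A.Finite) :
    S.topologicalClosure ⊓ Lz A ≤ (S ⊓ Lz A).topologicalClosure := by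
  induction A, hA using Set.Finite.induction_on with
  | empty =>
    have : (Lz ∅ : Submodule ℝ (L2 ι)) = ⊤ := by
      rw [eq_top_iff]; intro f _ i hi; exact absurd hi (Set.notMem_empty i)
    rw [this, inf_top_eq, inf_top_eq]
  | @insert a A ha hA ih =>
    have h1 : (Lz (insert a A) : Submodule ℝ (L2 ι)) = Lz A ⊓ Lz {a} := by
      rw [Lz_inf, Set.union_singleton]
    rw [h1, ← inf_assoc, ← inf_assoc]
    refine (inf_le_inf_right _ ih).trans ?_
    set T := S ⊓ Lz A with hT
    -- one functional
    rintro x ⟨hx1, hx2⟩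
    by_cases h0 : ∀ z ∈ T, z a = 0
    · have : T ⊓ Lz {a} = T := by
        apply le_antisymm inf_le_left
        intro z hz
        refine ⟨hz, fun i hi => ?_⟩
        rw [Set.mem_singleton_iff.1 hi]
        exact h0 z hz
      rw [this]; exact hx1
    · push Not at h0
      obtain ⟨z0, hz0, hz1⟩ := h0
      have hc : Continuous fun y : L2 ι => y - (y a / z0 a) • z0 :=
        continuous_id.sub (((continuous_apply_L2 a).div_const _).smul continuous_const)
      have h2 : x = x - (x a / z0 a) • z0 := by
        rw [hx2 a (Set.mem_singleton a), zero_div, zero_smul, sub_zero]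
      rw [h2]
      have h3 : Set.MapsTo (fun y : L2 ι => y - (y a / z0 a) • z0) (T : Set (L2 ι))
          ((T ⊓ Lz {a} : Submodule ℝ (L2 ι)) : Set (L2 ι)) := by
        intro y hy
        refine ⟨T.sub_mem hy (T.smul_mem _ hz0), fun i hi => ?_⟩
        rw [Set.mem_singleton_iff.1 hi]
        simp only [lp.coeFn_sub, Pi.sub_apply, lp.coeFn_smul, Pi.smul_apply, smul_eq_mul]
        rw [div_mul_cancel₀ _ hz1, sub_self]
      exact map_mem_closure (f := fun y : L2 ι => y - (y a / z0 a) • z0) hc hx1 h3

end Cycle

section CycleMeas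

variable {V : Type*} [Countable V] [MeasurableSpace V] [DiscreteMeasurableSpace V]
  {X : Type*} [MeasurableSpace X] {act : Equiv.Perm V → X → X}

/-- Random set of unordered pairs. -/
structure RandEdge (act : Equiv.Perm V → X → X) (A : X → Set (Sym2 V)) : Prop where
  meas : Measurable A
  eqv : ∀ g x e, e.map g ∈ A (act g x) ↔ e ∈ A x

theorem measurable_mem_iff' {E : Type*} {A : X → Set E} (hA : Measurable A) (i : E) :
    MeasurableSet {x | i ∈ A x} :=
  measurableSet_setOfPred.2 (measurable_set_iff.1 hA i)

theorem measurable_set_of' {E : Type*} {A : X → Set E} (h : ∀ i, MeasurableSet {x | i ∈ A x}) :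
    Measurable A :=
  measurable_set_iff.2 fun i => measurableSet_setOfPred.1 (h i)

theorem RandEdge.dd {A : X → Set (Sym2 V)} (hA : RandEdge act A) :
    RandSet act fun x => dd (A x) := by
  refine ⟨measurable_set_of fun i => ?_, fun g x u v => ?_⟩
  · exact measurable_mem_iff' hA.meas _
  · have := hA.eqv g x s(u, v)
    rwa [Sym2.map_mk] at this

theorem RandEdge.inter {A B : X → Set (Sym2 V)} (hA : RandEdge act A) (hB : RandEdge act B) :
    RandEdge act fun x => A x ∩ B x := by
  refine ⟨measurable_set_of' fun i => ?_, fun g x e => ?_⟩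
  · exact (measurable_mem_iff' hA.meas i).inter (measurable_mem_iff' hB.meas i)
  · rw [Set.mem_inter_iff, Set.mem_inter_iff, hA.eqv, hB.eqv]

theorem RandEdge.diff {A B : X → Set (Sym2 V)} (hA : RandEdge act A) (hB : RandEdge act B) :
    RandEdge act fun x => A x \ B x := by
  refine ⟨measurable_set_of' fun i => ?_, fun g x e => ?_⟩
  · exact (measurable_mem_iff' hA.meas i).diff (measurable_mem_iff' hB.meas i)
  · rw [Set.mem_sdiff, Set.mem_sdiff, hA.eqv, hB.eqv]

/-- Measurability of the projection on the cycle space. -/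
theorem measOp_Zb {E : X → Set (Sym2 V)} (hE : Measurable E) : MeasOp fun x => pj (Zb (E x)) := by
  classical
  obtain ⟨K, hK1, hK2⟩ : ∃ K : ℕ → Finset (Sym2 V), Monotone K ∧ ∀ e, ∃ n, e ∈ K n := by
    cases isEmpty_or_nonempty (Sym2 V) with
    | inl h => exact ⟨fun _ => ∅, fun _ _ _ => le_rfl, fun e => (h.false e).elim⟩
    | inr h =>
      obtain ⟨f, hf⟩ := exists_surjective_nat (Sym2 V)
      refine ⟨fun n => (Finset.range n).image f, ?_, ?_⟩
      · intro m n hmn
        exact Finset.image_subset_image (Finset.range_mono hmn)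
      · intro e
        obtain ⟨k, rfl⟩ := hf e
        exact ⟨k + 1, Finset.mem_image_of_mem f (Finset.mem_range.2 (Nat.lt_succ_self k))⟩
  refine MeasOp.of_tendsto (A := fun n x => pj (Zb (E x ∩ K n))) (fun n => ?_) ?_
  · intro u v
    -- factor through a finite type
    set φ : X → (K n → Prop) := fun x e => (e : Sym2 V) ∈ E x with hφ
    have hφm : Measurable φ := by
      apply measurable_pi_lambda
      intro e
      exact measurable_set_iff.1 hE e
    have hfac : (fun x => ⟪u, pj (Zb (E x ∩ K n)) v⟫_ℝ) =
        (fun ψ : K n → Prop => ⟪u, pj (Zb {e | ∃ h : e ∈ K n, ψ ⟨e, h⟩}) v⟫_ℝ) ∘ φ := by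
      ext x
      simp only [Function.comp, hφ]
      congr 4
      ext e
      simp only [Set.mem_inter_iff, Finset.mem_coe, Set.mem_ofPred_eq]
      constructor
      · rintro ⟨h1, h2⟩; exact ⟨h2, h1⟩
      · rintro ⟨h1, h2⟩; exact ⟨h2, h1⟩
    rw [hfac]
    exact (measurable_of_countable _).comp hφm
  · intro x v
    have hmono : Monotone fun n => Zb (E x ∩ K n) := by
      intro m n hmn
      apply Submodule.topologicalClosure_mono
      exact cyc_mono (Set.inter_subset_inter_right _ (Finset.coe_subset.2 (hK1 hmn)))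
    have h := Submodule.starProjection_tendsto_closure_iSup
      (fun n => (Zb (E x ∩ K n)).topologicalClosure)
      (fun m n hmn => Submodule.topologicalClosure_mono (hmono hmn)) v
    have h2 : (⨆ n, (Zb (E x ∩ K n)).topologicalClosure).topologicalClosure =
        (Zb (E x)).topologicalClosure := by
      apply le_antisymm
      · apply Submodule.topologicalClosure_minimal _ _ (Submodule.isClosed_topologicalClosure _)
        apply iSup_le
        intro n
        apply Submodule.topologicalClosure_mono
        apply Submodule.topologicalClosure_mono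
        exact cyc_mono Set.inter_subset_left
      · rw [closure_eq_of_closed (isClosed_Zb _)]
        apply Submodule.topologicalClosure_mono
        intro f hf
        have h3 : (⋃ n, E x ∩ K n) = E x := by
          rw [← Set.inter_iUnion]
          apply Set.inter_eq_left.2
          intro e _
          obtain ⟨n, hn⟩ := hK2 e
          exact Set.mem_iUnion.2 ⟨n, hn⟩
        rw [← h3] at hf
        obtain ⟨n, hn⟩ := cyc_iUnion (E := fun n => E x ∩ K n) (by
          intro m n hmn
          exact Set.inter_subset_inter_right _ (Finset.coe_subset.2 (hK1 hmn))) hf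
        have h4 : (Zb (E x ∩ K n)).topologicalClosure ≤
          ⨆ n, (Zb (E x ∩ K n)).topologicalClosure := le_iSup
            (fun n => (Zb (E x ∩ K n)).topologicalClosure) n
        apply h4
        apply Submodule.le_topologicalClosure
        apply Submodule.le_topologicalClosure
        exact hn
    unfold pj
    rw [← starProjection_congr h2 v]
    exact h

theorem eqSub_Zb {E : X → Set (Sym2 V)} (hE : RandEdge act E) : EqSub act fun x => Zb (E x) := by
  have key : ∀ g x f, f ∈ cyc (E x) → Ug g f ∈ cyc (E (act g x)) := by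
    rintro g x f ⟨f1, f2, f3, f4⟩
    have hval : ∀ i, Ug g f i = f ((g2 g).symm i) := fun i => rfl
    have hval2 : ∀ a b, Ug g f (a, b) = f (g.symm a, g.symm b) := fun a b => rfl
    refine ⟨?_, ?_, ?_, ?_⟩
    · have : (Function.support fun i => Ug g f i) =
          (g2 g).symm ⁻¹' (Function.support fun i => f i) := rfl
      rw [this]
      exact f1.preimage ((g2 g).symm.injective.injOn)
    · intro a b; rw [hval2, hval2, f2]
    · intro a b hab
      rw [hval2]
      apply f3
      intro h
      apply hab
      have := (hE.eqv g x _).2 h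
      rwa [Sym2.map_mk, Equiv.apply_symm_apply, Equiv.apply_symm_apply] at this
    · intro a
      have := f4 (g.symm a)
      rw [← finsum_comp_equiv g.symm] at this
      simpa only [hval2] using this
  have keyb : ∀ g x f, f ∈ Zb (E x) → Ug g f ∈ Zb (E (act g x)) := by
    intro g x f hf
    have hc : Continuous (Ug g) := by
      have : LipschitzWith 1 (Ug g) := by
        apply LipschitzWith.of_dist_le_mul
        intro a b
        rw [dist_eq_norm, dist_eq_norm, ← Ug_sub, Ug_norm]
        simp
      exact this.continuous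
    exact map_mem_closure hc hf (fun y hy => key g x y hy)
  intro g x f
  constructor
  · intro h
    -- use orthogonality: f ∈ Zb iff ...
    have hinv : ∀ f', f' ∈ cyc (E (act g x)) → permL (g2 g).symm f' ∈ cyc (E x) := by
      rintro f' ⟨f1, f2, f3, f4⟩
      have hval2 : ∀ a b, permL (g2 g).symm f' (a, b) = f' (g a, g b) := fun a b => rfl
      refine ⟨?_, ?_, ?_, ?_⟩
      · have : (Function.support fun i => permL (g2 g).symm f' i) =
            (g2 g) ⁻¹' (Function.support fun i => f' i) := rfl
        rw [this]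
        exact f1.preimage ((g2 g).injective.injOn)
      · intro a b; rw [hval2, hval2, f2]
      · intro a b hab
        rw [hval2]
        apply f3
        intro h'
        apply hab
        have h'' : (s(a, b)).map g ∈ E (act g x) := by rwa [Sym2.map_mk]
        exact (hE.eqv g x _).1 h''
      · intro a
        have := f4 (g a)
        rw [← finsum_comp_equiv g] at this
        simpa only [hval2] using this
    have hc : Continuous (permL (g2 g).symm : L2 (V × V) → L2 (V × V)) := by
      have : LipschitzWith 1 (permL (g2 g).symm : L2 (V × V) → L2 (V × V)) := by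
        apply LipschitzWith.of_dist_le_mul
        intro a b
        rw [dist_eq_norm, dist_eq_norm, ← permL_sub, permL_norm]
        simp
      exact this.continuous
    have h2 : permL (g2 g).symm (Ug g f) ∈ Zb (E x) :=
      map_mem_closure hc h (fun y hy => hinv y hy)
    have h3 : permL (g2 g).symm (Ug g f) = f := by
      apply ext_L2; intro i
      rw [permL_apply, Equiv.symm_symm]
      change f ((g2 g).symm (g2 g i)) = f i
      rw [Equiv.symm_apply_apply]
    rwa [h3] at h2
  · intro h
    exact keyb g x f h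

theorem RandEdge.Zb {E : X → Set (Sym2 V)} (hE : RandEdge act E) :
    RandSub act fun x => Zb (E x) :=
  ⟨fun x => isClosed_Zb _, measOp_Zb hE.meas, eqSub_Zb hE⟩

end CycleMeas

end Vale.Agent.P143
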