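import Mathlib

open MeasureTheory Filter Topology ProbabilityTheory
open scoped ENNReal unitInterval

namespace Vale.Agent.P143

variable {V : Type*}

/-- `T` is the edge set of a spanning tree of the subgraph `H` of `G`: a set of edges of `H`
without cycles that connects any two vertices of `H`. -/
def IsSpanningTree {G : SimpleGraph V} (H : G.Subgraph) (T : Set (Sym2 V)) : Prop :=
  T ⊆ H.edgeSet ∧ (SimpleGraph.fromEdgeSet T).IsAcyclic ∧
    ∀ u ∈ H.verts, ∀ v ∈ H.verts, (SimpleGraph.fromEdgeSet T).Reachable u v

/-- The probability that the uniform spanning tree of the (finite, connected) subgraph `H` has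
the property `p`: the proportion of spanning trees of `H` that have the property `p`. -/
noncomputable def ustProb {G : SimpleGraph V} (H : G.Subgraph) (p : Set (Sym2 V) → Prop) : ℝ :=
  ({T | IsSpanningTree H T ∧ p T}.ncard : ℝ) / ({T | IsSpanningTree H T}.ncard : ℝ)

/-- `H` is an exhaustion of `G` by finite connected subgraphs `H 0 ⊆ H 1 ⊆ ...` with
union `G`. -/
structure IsExhaustion {G : SimpleGraph V} (H : ℕ → G.Subgraph) : Prop where
  mono : Monotone H
  connected : ∀ n, (H n).Connected
  finite : ∀ n, (H n).verts.Finite
  iSup_eq_top : ⨆ n, H n = ⊤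

/-- `μ` is the law of the free uniform spanning forest of `G`: for every exhaustion of `G` by
finite connected subgraphs, the uniform spanning trees of these subgraphs converge weakly to `μ`,
that is, all their finite dimensional distributions converge to those of `μ`. -/
def IsFUSF (G : SimpleGraph V) (μ : Measure (Set (Sym2 V))) : Prop :=
  IsProbabilityMeasure μ ∧
    ∀ H : ℕ → G.Subgraph, IsExhaustion H → ∀ F A : Finset (Sym2 V),
      Tendsto (fun n => ustProb (H n) (fun T => T ∩ F = A)) atTop
        (𝓝 (μ.real {T | T ∩ F = A}))

/-- The law `P` of a random rooted graph `(G, o)` (with vertex set `V`) is unimodular: it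
satisfies the mass transport principle for all nonnegative measurable functions `f (G, u, v)` of
graphs with two distinguished vertices that are invariant under isomorphisms. -/
def IsUnimodular [MeasurableSpace V] (P : Measure (SimpleGraph V × V)) : Prop :=
  ∀ f : SimpleGraph V → V → V → ℝ≥0∞, (∀ u v, Measurable fun G => f G u v) →
    (∀ (g : Equiv.Perm V) (G : SimpleGraph V) (u v : V),
      f (G.map g.toEmbedding) (g u) (g v) = f G u v) →
    ∫⁻ x, ∑' v, f x.1 x.2 v ∂P = ∫⁻ x, ∑' v, f x.1 v x.2 ∂P

/-- The i.i.d. Uniform[0,1] labelling of the vertices. -/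
noncomputable def iidUniform (V : Type*) : Measure (V → I) :=
  Measure.infinitePi (fun _ : V => (volume : Measure I))

end Vale.Agent.P143
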