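import Vale.Agent.P143_h11.Rank

set_option linter.unusedSectionVars false
set_option linter.unusedVariables false

open Filter Topology MeasureTheory ContinuousLinearMap
open scoped InnerProductSpace ENNReal

namespace Vale.Agent.P143

section Dim

variable {V : Type*} [Countable V] [MeasurableSpace V] [DiscreteMeasurableSpace V]
  {X : Type*} [MeasurableSpace X]

/-- A random closed subspace: closed, equivariant, measurable. -/
structure RandSub (act : Equiv.Perm V → X → X) (S : X → Submodule ℝ (L2 (V × V))) : Prop where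
  closed : ∀ x, IsClosed (S x : Set (L2 (V × V)))
  meas : MeasOp fun x => pj (S x)
  eqv : EqSub act S

variable {act : Equiv.Perm V → X → X}

theorem RandSub.inf {S T : X → Submodule ℝ (L2 (V × V))} (hS : RandSub act S)
    (hT : RandSub act T) : RandSub act fun x => S x ⊓ T x :=
  ⟨fun x => isClosed_inf (hS.closed x) (hT.closed x),
    MeasOp.pj_inf hS.closed hT.closed hS.meas hT.meas, hS.eqv.inf hT.eqv⟩

theorem RandSub.orth {S : X → Submodule ℝ (L2 (V × V))} (hS : RandSub act S) :
    RandSub act fun x => (S x)ᗮ :=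
  ⟨fun x => Submodule.isClosed_orthogonal _, MeasOp.pj_orth hS.closed hS.meas, hS.eqv.orth⟩

theorem RandSub.compress {L S : X → Submodule ℝ (L2 (V × V))} (hL : RandSub act L)
    (hS : RandSub act S) : RandSub act fun x => compress (L x) (S x) :=
  hL.inf (hL.inf hS.orth).orth

/-- Random set of ordered pairs. -/
structure RandSet (act : Equiv.Perm V → X → X) (A : X → Set (V × V)) : Prop where
  meas : Measurable A
  eqv : ∀ g x u v, (g u, g v) ∈ A (act g x) ↔ (u, v) ∈ A x

theorem measurable_mem_iff {A : X → Set (V × V)} (hA : Measurable A) (i : V × V) :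
    MeasurableSet {x | i ∈ A x} :=
  measurableSet_setOfPred.2 (measurable_set_iff.1 hA i)

theorem measurable_set_of {A : X → Set (V × V)} (h : ∀ i, MeasurableSet {x | i ∈ A x}) :
    Measurable A :=
  measurable_set_iff.2 fun i => measurableSet_setOfPred.1 (h i)

theorem RandSet.union {A B : X → Set (V × V)} (hA : RandSet act A) (hB : RandSet act B) :
    RandSet act fun x => A x ∪ B x := by
  refine ⟨measurable_set_of fun i => ?_, fun g x u v => ?_⟩
  · exact (measurable_mem_iff hA.meas i).union (measurable_mem_iff hB.meas i)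
  · rw [Set.mem_union, Set.mem_union, hA.eqv, hB.eqv]

theorem RandSet.diff {A B : X → Set (V × V)} (hA : RandSet act A) (hB : RandSet act B) :
    RandSet act fun x => A x \ B x := by
  refine ⟨measurable_set_of fun i => ?_, fun g x u v => ?_⟩
  · exact (measurable_mem_iff hA.meas i).diff (measurable_mem_iff hB.meas i)
  · rw [Set.mem_sdiff, Set.mem_sdiff, hA.eqv, hB.eqv]

theorem RandSub.Lz {A : X → Set (V × V)} (hA : RandSet act A) :
    RandSub act fun x => (Lz (A x) : Submodule ℝ (L2 (V × V))) := by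
  refine ⟨fun x => isClosed_Lz _, MeasOp.pj_Lz hA.meas, ?_⟩
  intro g x f
  constructor
  · rintro h ⟨u, v⟩ huv
    have h1 := h (g u, g v) ((hA.eqv g x u v).2 huv)
    have h2 : Ug g f (g u, g v) = f (u, v) := by
      change f ((g2 g).symm (g u, g v)) = f (u, v)
      rw [← g2_apply, Equiv.symm_apply_apply]
    rw [← h2]
    exact h1
  · rintro h ⟨u, v⟩ huv
    obtain ⟨u', rfl⟩ := g.surjective u
    obtain ⟨v', rfl⟩ := g.surjective v
    have h2 : Ug g f (g u', g v') = f (u', v') := by
      change f ((g2 g).symm (g u', g v')) = f (u', v')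
      rw [← g2_apply, Equiv.symm_apply_apply]
    rw [h2]
    exact h _ ((hA.eqv g x u' v').1 huv)

/-- The dimension of a random subspace. -/
noncomputable def dimm (μ : Measure (X × V)) (S : X → Submodule ℝ (L2 (V × V))) : ℝ≥0∞ :=
  hs μ fun x => pj (S x)

theorem dimm_mono (μ : Measure (X × V)) {S T : X → Submodule ℝ (L2 (V × V))}
    (hS : ∀ x, IsClosed (S x : Set (L2 (V × V)))) (hT : ∀ x, IsClosed (T x : Set (L2 (V × V))))
    (h : ∀ x, S x ≤ T x) : dimm μ S ≤ dimm μ T :=
  hs_mono μ fun x f => norm_pj_mono (hS x) (hT x) (h x) f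

theorem ker_pj_pj {A B : Submodule ℝ (L2 (V × V))} (hA : IsClosed (A : Set (L2 (V × V))))
    (hB : IsClosed (B : Set (L2 (V × V)))) :
    LinearMap.ker (pj A * pj B).toLinearMap = (Vale.Agent.P143.compress B A)ᗮ := by
  ext x
  rw [LinearMap.mem_ker]
  change pj A (pj B x) = 0 ↔ _
  rw [pj_eq_zero_iff hA, ← mem_compress_orth hB (pj_mem hB x), Submodule.mem_orthogonal,
    Submodule.mem_orthogonal]
  apply forall₂_congr
  intro u hu
  rw [← inner_pj, (pj_eq_self hB).2 (compress_le _ _ hu)]

/-- Symmetry of the dimension of the compression. -/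
theorem dimm_compress {μ : Measure (X × V)} (hμ : MTP act μ)
    {A B : X → Submodule ℝ (L2 (V × V))} (hA : RandSub act A) (hB : RandSub act B)
    (hfin : dimm μ B ≠ ∞ ∨ dimm μ A ≠ ∞) :
    dimm μ (fun x => Vale.Agent.P143.compress (B x) (A x)) =
      dimm μ (fun x => Vale.Agent.P143.compress (A x) (B x)) := by
  set Y : X → L2 (V × V) →L[ℝ] L2 (V × V) := fun x => pj (A x) * pj (B x) with hY
  have hYm : MeasOp Y := hA.meas.comp hB.meas
  have hYe : EqOp act Y := (hA.eqv.pj hA.closed).comp (hB.eqv.pj hB.closed)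
  have hadj : ∀ x, adjoint (Y x) = pj (B x) * pj (A x) := by
    intro x
    ext1 f
    apply ext_inner_left ℝ
    intro u
    rw [adjoint_inner_right, hY]
    simp only
    rw [mul_apply_eq_comp, mul_apply_eq_comp, inner_pj, inner_pj]
  have hYn : ∀ x, ‖Y x‖ ≤ 1 := by
    intro x
    refine ContinuousLinearMap.opNorm_le_bound _ zero_le_one (fun y => ?_)
    rw [one_mul, hY]
    exact (norm_pj_le _).trans (norm_pj_le _)
  have hYfin : hs μ Y ≠ ∞ := by
    rcases hfin with h | h
    · exact ne_top_of_le_ne_top h (hs_mono μ fun x f => norm_pj_le _)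
    · rw [hs_adj hμ hYm hYe]
      refine ne_top_of_le_ne_top h (hs_mono μ fun x f => ?_)
      rw [hadj]
      exact norm_pj_le _
  have h := rank_eq hμ hYm hYe hYn hYfin
  simp only [hadj] at h
  have e1 : ∀ x, (LinearMap.ker (Y x).toLinearMap)ᗮ = Vale.Agent.P143.compress (B x) (A x) := by
    intro x
    rw [hY]
    simp only
    rw [ker_pj_pj (hA.closed x) (hB.closed x), orth_orth (isClosed_compress (hB.closed x) _)]
  have e2 : ∀ x, (LinearMap.ker (pj (B x) * pj (A x)).toLinearMap)ᗮ =
      Vale.Agent.P143.compress (A x) (B x) := by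
    intro x
    rw [ker_pj_pj (hB.closed x) (hA.closed x), orth_orth (isClosed_compress (hA.closed x) _)]
  simp only [e1, e2] at h
  exact h

/-- Density of a random set of ordered pairs. -/
noncomputable def dens (μ : Measure (X × V)) (F : X → Set (V × V)) : ℝ≥0∞ :=
  open Classical in ∫⁻ p, ∑' b, (if (p.2, b) ∈ F p.1 then 1 else 0) ∂μ

theorem norm_sq_pj_Lz_compl (A : Set (V × V)) (i : V × V) [Decidable (i ∈ A)] :
    ‖pj (Vale.Agent.P143.Lz Aᶜ) (dl i : L2 (V × V))‖ ^ 2 = if i ∈ A then 1 else 0 := by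
  split_ifs with h
  · rw [(pj_eq_self (isClosed_Lz _)).2 (dl_mem_Lz (by simpa using h)), norm_dl, one_pow]
  · have : pj (Vale.Agent.P143.Lz Aᶜ) (dl i : L2 (V × V)) = 0 := by
      rw [pj_eq_zero_iff (isClosed_Lz _), Lz_orth, compl_compl]
      exact dl_mem_Lz h
    rw [this, norm_zero]
    norm_num

theorem dimm_Lz_orth (μ : Measure (X × V)) (F : X → Set (V × V)) :
    dimm μ (fun x => (Vale.Agent.P143.Lz (F x) : Submodule ℝ (L2 (V × V)))ᗮ) = dens μ F := by
  classical
  unfold dimm dens hs
  apply lintegral_congr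
  intro p
  apply tsum_congr
  intro b
  beta_reduce
  rw [Lz_orth, norm_sq_pj_Lz_compl]
  split_ifs <;> simp

/-- Lemma D. -/
theorem dimm_diff_le {μ : Measure (X × V)} (hμ : MTP act μ)
    {K : X → Submodule ℝ (L2 (V × V))} (hK : RandSub act K) {A F : X → Set (V × V)}
    (hA : RandSet act A) (hF : RandSet act F) :
    dimm μ (fun x => Vale.Agent.P143.compress (Vale.Agent.P143.Lz (A x)) (K x) ⊓
        (Vale.Agent.P143.compress (Vale.Agent.P143.Lz (A x)) (K x ⊓ Vale.Agent.P143.Lz (F x)))ᗮ) ≤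
      dimm μ (fun x => Vale.Agent.P143.compress (K x) (Vale.Agent.P143.Lz (F x))ᗮ) := by
  have hLA := RandSub.Lz hA
  have hLF := RandSub.Lz hF
  have hK1 := hK.inf hLF
  have hW0 := hLA.compress hK
  have hW1 := hLA.compress hK1
  have hD := hW0.inf hW1.orth
  have hE := hK.compress hLF.orth
  set D : X → Submodule ℝ (L2 (V × V)) := fun x =>
    Vale.Agent.P143.compress (Vale.Agent.P143.Lz (A x)) (K x) ⊓
      (Vale.Agent.P143.compress (Vale.Agent.P143.Lz (A x)) (K x ⊓ Vale.Agent.P143.Lz (F x)))ᗮ with hDdef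
  set E : X → Submodule ℝ (L2 (V × V)) := fun x =>
    Vale.Agent.P143.compress (K x) (Vale.Agent.P143.Lz (F x))ᗮ with hEdef
  by_cases hfin : dimm μ E = ∞
  · rw [hfin]; exact le_top
  have hEeq : ∀ x, E x = K x ⊓ (K x ⊓ Vale.Agent.P143.Lz (F x))ᗮ := by
    intro x
    simp only [hEdef, Vale.Agent.P143.compress]
    rw [orth_orth (isClosed_Lz _)]
  have hbot : ∀ x, D x ⊓ (E x)ᗮ = ⊥ := by
    intro x
    rw [eq_bot_iff]
    rintro w ⟨⟨hw0, hw1⟩, hwE⟩
    have hwL : w ∈ (Vale.Agent.P143.Lz (A x) : Submodule ℝ (L2 (V × V))) := compress_le _ _ hw0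
    have hw2 : w ∈ (K x ⊓ Vale.Agent.P143.Lz (F x))ᗮ :=
      (mem_compress_orth (isClosed_Lz _) hwL).1 hw1
    have hw3 : w ∈ (K x)ᗮ := by
      rw [Submodule.mem_orthogonal]
      intro k hk
      have hcl : IsClosed ((K x ⊓ Vale.Agent.P143.Lz (F x) : Submodule ℝ (L2 (V × V))) :
        Set (L2 (V × V))) := isClosed_inf (hK.closed x) (isClosed_Lz _)
      have h1 : pj (K x ⊓ Vale.Agent.P143.Lz (F x)) k ∈ K x ⊓ Vale.Agent.P143.Lz (F x) :=
        pj_mem hcl k
      have h2 : k - pj (K x ⊓ Vale.Agent.P143.Lz (F x)) k ∈ E x := by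
        rw [hEeq]
        exact ⟨(K x).sub_mem hk h1.1, sub_pj_mem k⟩
      have h3 := (Submodule.mem_orthogonal _ _).1 hw2 _ h1
      have h4 := (Submodule.mem_orthogonal _ _).1 hwE _ h2
      have h5 : k = (k - pj (K x ⊓ Vale.Agent.P143.Lz (F x)) k) +
          pj (K x ⊓ Vale.Agent.P143.Lz (F x)) k := by abel
      rw [h5, inner_add_left, h3, h4, add_zero]
    have hw4 := (mem_compress_orth (isClosed_Lz _) hwL).2 hw3
    have h6 := (Submodule.mem_orthogonal _ _).1 hw4 w hw0
    rw [Submodule.mem_bot]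
    exact inner_self_eq_zero.1 h6
  have hDc : ∀ x, Vale.Agent.P143.compress (D x) (E x) = D x := by
    intro x
    simp only [Vale.Agent.P143.compress]
    rw [hbot x, Submodule.bot_orthogonal_eq_top, inf_top_eq]
  have h1 := dimm_compress hμ hE hD (Or.inr hfin)
  simp only [hDc] at h1
  rw [h1]
  exact dimm_mono μ (fun x => isClosed_compress (hE.closed x) _) hE.closed
    (fun x => compress_le _ _)

theorem dimm_diff_le_dens {μ : Measure (X × V)} (hμ : MTP act μ)
    {K : X → Submodule ℝ (L2 (V × V))} (hK : RandSub act K) {A F : X → Set (V × V)}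
    (hA : RandSet act A) (hF : RandSet act F) :
    dimm μ (fun x => Vale.Agent.P143.compress (Vale.Agent.P143.Lz (A x)) (K x) ⊓
        (Vale.Agent.P143.compress (Vale.Agent.P143.Lz (A x)) (K x ⊓ Vale.Agent.P143.Lz (F x)))ᗮ) ≤
      dens μ F := by
  by_cases hfin : dens μ F = ∞
  · rw [hfin]; exact le_top
  refine (dimm_diff_le hμ hK hA hF).trans ?_
  have hLF := RandSub.Lz hF
  have h1 := dimm_compress hμ hLF.orth hK (Or.inr (by rw [dimm_Lz_orth]; exact hfin))
  rw [h1, ← dimm_Lz_orth]
  exact dimm_mono μ (fun x => isClosed_compress (Submodule.isClosed_orthogonal _) _)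
    (fun x => Submodule.isClosed_orthogonal _) (fun x => compress_le _ _)

end Dim

end Vale.Agent.P143
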