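import Vale.Agent.P143_h11.Clock

set_option linter.unusedSectionVars false
set_option linter.unusedVariables false

open Filter Topology MeasureTheory ProbabilityTheory
open scoped InnerProductSpace ENNReal

namespace Vale.Agent.P143

open Vale.Agent.P143C (vlab unif)

section Euler

variable {V : Type*} [Countable V] [MeasurableSpace V] [DiscreteMeasurableSpace V]
  {S : SimpleGraph V → (ℕ → ℝ) → Set (Sym2 V)}

/-- Expected total over the pairs at the root. -/
noncomputable def EE (ρ : Measure (Om V × V)) (f : Om V → Sym2 V → ℝ≥0∞) : ℝ≥0∞ :=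
  ∫⁻ w, ∑' b, f w.1 s(w.2, b) ∂ρ

theorem measurable_EE {f : Om V → Sym2 V → ℝ≥0∞} (hf : ∀ e, Measurable fun ω => f ω e) :
    Measurable fun w : Om V × V => ∑' b, f w.1 s(w.2, b) := by
  apply Measurable.tsum
  intro b
  apply measurable_from_prod_countable_left
  intro u
  exact hf s(u, b)

theorem EE_mono (ρ : Measure (Om V × V)) {f g : Om V → Sym2 V → ℝ≥0∞} (h : ∀ ω e, f ω e ≤ g ω e) :
    EE ρ f ≤ EE ρ g :=
  lintegral_mono fun w => ENNReal.tsum_le_tsum fun b => h _ _

theorem EE_add (ρ : Measure (Om V × V)) {f g : Om V → Sym2 V → ℝ≥0∞}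
    (hf : ∀ e, Measurable fun ω => f ω e) :
    EE ρ (fun ω e => f ω e + g ω e) = EE ρ f + EE ρ g := by
  unfold EE
  rw [← lintegral_add_left (measurable_EE hf)]
  apply lintegral_congr
  intro w
  rw [ENNReal.tsum_add]

theorem EE_const_mul (ρ : Measure (Om V × V)) {f : Om V → Sym2 V → ℝ≥0∞}
    (hf : ∀ e, Measurable fun ω => f ω e) (c : ℝ≥0∞) :
    EE ρ (fun ω e => c * f ω e) = c * EE ρ f := by
  unfold EE
  rw [← lintegral_const_mul _ (measurable_EE hf)]
  apply lintegral_congr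
  intro w
  rw [ENNReal.tsum_mul_left]

theorem EE_finsum (ρ : Measure (Om V × V)) {f : ℕ → Om V → Sym2 V → ℝ≥0∞}
    (hf : ∀ n e, Measurable fun ω => f n ω e) (J : ℕ) :
    EE ρ (fun ω e => ∑ j ∈ Finset.range J, f j ω e) = ∑ j ∈ Finset.range J, EE ρ (f j) := by
  induction J with
  | zero => simp [EE]
  | succ J ih =>
    simp only [Finset.sum_range_succ]
    rw [EE_add ρ, ih]
    intro e
    exact Finset.measurable_sum _ fun j _ => hf j e

theorem EE_eq (P : Measure (SimpleGraph V × V)) [IsProbabilityMeasure P]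
    (hS : Measurable fun p : SimpleGraph V × (ℕ → ℝ) => S p.1 p.2)
    {f : Om V → Sym2 V → ℝ≥0∞} (hf : ∀ e, Measurable fun ω => f ω e) :
    EE (rho P S) f = ∫⁻ p, ∑' b, ∫⁻ x, ∫⁻ z, f (p.1, x, z.1, z.2) s(p.2, b)
      ∂((kap S p.1).prod (nuU V)) ∂(nuX V) ∂P := by
  have hprob : ∀ G, IsProbabilityMeasure (kap S G) := kap_prob hS
  unfold EE
  rw [lintegral_rho P hS (measurable_EE hf)]
  apply lintegral_congr
  intro p
  have hm : ∀ b, Measurable fun y : Lab V × (Set (Sym2 V) × Lab V) =>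
      f (p.1, y.1, y.2.1, y.2.2) s(p.2, b) := fun b =>
    (hf s(p.2, b)).comp (measurable_const.prodMk (measurable_fst.prodMk
      (measurable_snd.fst.prodMk measurable_snd.snd)))
  rw [← lintegral_tsum (fun b => (Measurable.lintegral_prod_right' (hm b)).aemeasurable)]
  apply lintegral_congr
  intro x
  rw [lintegral_tsum]
  intro b
  exact ((hm b).comp (measurable_const.prodMk measurable_id)).aemeasurable

theorem EE_eq' (P : Measure (SimpleGraph V × V)) [IsProbabilityMeasure P]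
    (hS : Measurable fun p : SimpleGraph V × (ℕ → ℝ) => S p.1 p.2)
    {f : Om V → Sym2 V → ℝ≥0∞} (hf : ∀ e, Measurable fun ω => f ω e) :
    EE (rho P S) f = ∫⁻ p, ∑' b, ∫⁻ z, ∫⁻ x, f (p.1, x, z.1, z.2) s(p.2, b)
      ∂(nuX V) ∂((kap S p.1).prod (nuU V)) ∂P := by
  have hprob : ∀ G, IsProbabilityMeasure (kap S G) := kap_prob hS
  rw [EE_eq P hS hf]
  apply lintegral_congr
  intro p
  apply tsum_congr
  intro b
  have hm : Measurable fun y : Lab V × (Set (Sym2 V) × Lab V) =>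
      f (p.1, y.1, y.2.1, y.2.2) s(p.2, b) :=
    (hf s(p.2, b)).comp (measurable_const.prodMk (measurable_fst.prodMk
      (measurable_snd.fst.prodMk measurable_snd.snd)))
  exact lintegral_lintegral_swap hm.aemeasurable

/-- Threshold used by the scheme. -/
noncomputable def aa (k j : ℕ) (G : SimpleGraph V) (x : Lab V) (T : Set (Sym2 V)) (ξ : Lab V)
    (e : Sym2 V) : ℝ :=
  1 - pcS G (Rt (j * hh k) G x) (sch k G x (VV G x T ξ) j) e

/-- `e` is revealed in the `j`-th batch. -/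
def bat (k j : ℕ) (G : SimpleGraph V) (x : Lab V) (e : Sym2 V) : Prop :=
  e ∈ G.edgeSet ∧ j * hh k ≤ tau G x e ∧ tau G x e < (j + 1) * hh k

/-- Disagreement set. -/
def DD (k j : ℕ) (ω : Om V) : Set (Sym2 V) :=
  {e | ¬ (e ∈ ω.2.2.1 ∩ Rt (j * hh k) ω.1 ω.2.1 ↔
    e ∈ sch k ω.1 ω.2.1 (VV ω.1 ω.2.1 ω.2.2.1 ω.2.2.2) j)}

theorem DD_succ (k j : ℕ) (ω : Om V) {e : Sym2 V} (he : e ∈ DD k (j + 1) ω) : e ∈ DD k j ω ∨
    (bat k j ω.1 ω.2.1 e ∧ ¬ (e ∈ ω.2.2.1 ↔ VV ω.1 ω.2.1 ω.2.2.1 ω.2.2.2 e <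
      aa k j ω.1 ω.2.1 ω.2.2.1 ω.2.2.2 e)) := by
  by_contra hcon
  push Not at hcon
  obtain ⟨h1, h2⟩ := hcon
  apply he
  have h1' : (e ∈ ω.2.2.1 ∩ Rt (j * hh k) ω.1 ω.2.1 ↔
    e ∈ sch k ω.1 ω.2.1 (VV ω.1 ω.2.1 ω.2.2.1 ω.2.2.2) j) := by
    by_contra h; exact h1 h
  have hcast : (((j + 1 : ℕ) : ℝ)) * hh k = (j + 1) * hh k := by push_cast; ring
  rw [hcast]
  have hle : (j : ℝ) * hh k ≤ (j + 1) * hh k := by
    have := hh_pos k
    nlinarith
  constructor
  · rintro ⟨h3, h4⟩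
    by_cases h5 : tau ω.1 ω.2.1 e < j * hh k
    · left
      exact h1'.1 ⟨h3, h4.1, h5⟩
    · push Not at h5
      right
      have hb : bat k j ω.1 ω.2.1 e := ⟨h4.1, h5, h4.2⟩
      exact ⟨h4.1, h5, h4.2, (h2 hb).1 h3⟩
  · rintro (h3 | h3)
    · have h4 := h1'.2 h3
      exact ⟨h4.1, Rt_mono hle _ _ h4.2⟩
    · have hb : bat k j ω.1 ω.2.1 e := ⟨h3.1, h3.2.1, h3.2.2.1⟩
      exact ⟨(h2 hb).2 h3.2.2.2, h3.1, h3.2.2.1⟩

theorem Mk_bat {k j : ℕ} {G : SimpleGraph V} {x : Lab V} {e : Sym2 V} (h : bat k j G x e)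
    (T : Set (Sym2 V)) :
    Mk k G x T e = 1 - pcS G (Rt (j * hh k) G x) (T ∩ Rt (j * hh k) G x) e := by
  have h1 : ⌊tau G x e * 2 ^ k⌋₊ = j := by
    have h2 : (j : ℝ) ≤ tau G x e * 2 ^ k := by
      have := mul_le_mul_of_nonneg_right h.2.1 (show (0:ℝ) ≤ 2 ^ k by positivity)
      rwa [mul_assoc, mul_comm (hh k), two_pow_hh, mul_one] at this
    have h3 : tau G x e * 2 ^ k < j + 1 := by
      have := mul_lt_mul_of_pos_right h.2.2 (show (0:ℝ) < 2 ^ k by positivity)
      rwa [mul_assoc, mul_comm (hh k), two_pow_hh, mul_one] at this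
    exact (Nat.floor_eq_iff ((Nat.cast_nonneg j).trans h2)).2 ⟨h2, h3⟩
  have h4 : sk k G x e = j * hh k := by unfold sk; rw [h1]
  unfold Mk
  rw [h4]

variable (k j : ℕ)

theorem measurable_aa (e : Sym2 V) : Measurable fun ω : Om V =>
    aa k j ω.1 ω.2.1 ω.2.2.1 ω.2.2.2 e := by
  unfold aa
  exact measurable_const.sub (measurable_pcS measurable_fst (measurable_Rt measurable_fst
    measurable_snd.fst _) (measurable_sch measurable_fst measurable_snd.fst
    (measurable_VV measurable_fst measurable_snd.fst measurable_snd.snd.fst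
      measurable_snd.snd.snd) k j) e)

theorem measurableSet_bat (e : Sym2 V) : MeasurableSet {ω : Om V | bat k j ω.1 ω.2.1 e} :=
  (measurable_mem_iff' (measurable_edgeSet measurable_fst) e).inter
    ((measurableSet_le measurable_const (measurable_tau measurable_fst measurable_snd.fst e)).inter
      (measurableSet_lt (measurable_tau measurable_fst measurable_snd.fst e) measurable_const))

theorem measurable_VVo : Measurable fun ω : Om V => VV ω.1 ω.2.1 ω.2.2.1 ω.2.2.2 :=
  measurable_VV measurable_fst measurable_snd.fst measurable_snd.snd.fst measurable_snd.snd.snd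

theorem measurable_DD : Measurable fun ω : Om V => DD k j ω := by
  apply measurable_set_of'
  intro e
  have h1 : MeasurableSet {ω : Om V | e ∈ ω.2.2.1 ∩ Rt (j * hh k) ω.1 ω.2.1} :=
    measurable_mem_iff' (measurable_inter measurable_snd.snd.fst
      (measurable_Rt measurable_fst measurable_snd.fst _)) e
  have h2 : MeasurableSet {ω : Om V | e ∈ sch k ω.1 ω.2.1 (VV ω.1 ω.2.1 ω.2.2.1 ω.2.2.2) j} :=
    measurable_mem_iff' (measurable_sch measurable_fst measurable_snd.fst measurable_VVo k j) e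
  have h3 : {ω : Om V | e ∈ DD k j ω} = ({ω : Om V | e ∈ ω.2.2.1 ∩ Rt (j * hh k) ω.1 ω.2.1} \
      {ω : Om V | e ∈ sch k ω.1 ω.2.1 (VV ω.1 ω.2.1 ω.2.2.1 ω.2.2.2) j}) ∪
      ({ω : Om V | e ∈ sch k ω.1 ω.2.1 (VV ω.1 ω.2.1 ω.2.2.1 ω.2.2.2) j} \
      {ω : Om V | e ∈ ω.2.2.1 ∩ Rt (j * hh k) ω.1 ω.2.1}) := by
    ext ω
    simp only [DD, Set.mem_ofPred_eq, Set.mem_union, Set.mem_sdiff]
    tauto
  rw [h3]
  exact (h1.diff h2).union (h2.diff h1)

theorem measurable_aa_z (G : SimpleGraph V) (x : Lab V) (e : Sym2 V) :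
    Measurable fun z : Set (Sym2 V) × Lab V => aa k j G x z.1 z.2 e := by
  unfold aa
  have h := measurable_VV (X := Set (Sym2 V) × Lab V) (G := fun _ => G) (x := fun _ => x)
    (T := fun z => z.1) (ξ := fun z => z.2) measurable_const measurable_const measurable_fst
    measurable_snd
  have h2 := measurable_sch (X := Set (Sym2 V) × Lab V) (G := fun _ => G) (x := fun _ => x)
    measurable_const measurable_const h k j
  have h3 := measurable_pcS (X := Set (Sym2 V) × Lab V) (G := fun _ => G)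
    (R := fun _ => Rt (j * hh k) G x) measurable_const measurable_const h2 e
  exact measurable_const.sub h3

/-- The probability of a wrong decision for the edge `e` (fixed graph and clocks). -/
theorem xor_eq {G : SimpleGraph V} (hS : Measurable fun p : SimpleGraph V × (ℕ → ℝ) => S p.1 p.2)
    (hFC : FC G (kap S G)) (hsub : ∀ᵐ T ∂(kap S G), T ⊆ G.edgeSet) {x : Lab V}
    (hx : Good G (kap S G) x) {e : Sym2 V} (he : bat k j G x e) :
    ((kap S G).prod (nuU V)) {z | ¬ (e ∈ z.1 ↔ VV G x z.1 z.2 e < aa k j G x z.1 z.2 e)} =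
      ∫⁻ z, ENNReal.ofReal |qq G x z.1 e - aa k j G x z.1 z.2 e| ∂((kap S G).prod (nuU V)) := by
  have := kap_prob hS G
  have ha := measurable_aa_z k j G x e
  have hqm : ∀ e : Sym2 V, Measurable fun T : Set (Sym2 V) => qq G x T e := fun e =>
    measurable_qq (X := Set (Sym2 V)) (G := fun _ => G) (x := fun _ => x) (T := fun T => T)
      measurable_const measurable_const measurable_id e
  have ha0 : ∀ z : Set (Sym2 V) × Lab V, aa k j G x z.1 z.2 e ∈ Set.Icc (0:ℝ) 1 := by
    intro z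
    unfold aa
    have h1 := pcS_nonneg G (Rt (j * hh k) G x) (sch k G x (VV G x z.1 z.2) j) e
    have h2 := pcS_le_one G (Rt (j * hh k) G x) (sch k G x (VV G x z.1 z.2) j) e
    constructor <;> linarith
  have hdep : ∀ (T T' : Set (Sym2 V)) (ξ ξ' : Lab V),
      (∀ f, tau G x f < tau G x e → (f ∈ T ↔ f ∈ T')) →
      (∀ f, tau G x f < tau G x e → ξ f = ξ' f) → aa k j G x T ξ e = aa k j G x T' ξ' e := by
    intro T T' ξ ξ' hT hξ
    unfold aa
    have : sch k G x (VV G x T ξ) j = sch k G x (VV G x T' ξ') j := by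
      apply sch_congr
      · intro f _ _; rfl
      · intro f hf hft
        have hlt : tau G x f < tau G x e := hft.trans_le he.2.1
        unfold VV
        rw [qq_dep (hx.nonneg f) (fun f' hf' => hT f' (hf'.trans hlt)), hξ f hlt]
        congr 1
        exact propext (hT f hlt)
    rw [this]
  have h := Vale.Agent.P143C.rosenblatt_xor (tau G x) hx.inj (kap S G)
    (fun (e : Sym2 V) (T : Set (Sym2 V)) => qq G x T e) hqm (fun e T => qq_mem G x T e)
    (fun e T T' hT => qq_dep (hx.nonneg e) hT)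
    (fun e A B hA hB => hqc hFC hsub hx e A B hA hB) e
    (fun z : Set (Sym2 V) × Lab V => aa k j G x z.1 z.2 e) ha ha0 hdep
  exact h

end Euler

end Vale.Agent.P143
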