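import Vale.Agent.P143_h11.Psi
import Vale.Agent.P143_B.EdgeLabels

set_option linter.unusedSectionVars false
set_option linter.unusedVariables false

open Filter Topology MeasureTheory ProbabilityTheory
open scoped InnerProductSpace ENNReal unitInterval

namespace Vale.Agent.P143

open Vale.Agent.P143C (vlab unif)

/-- Two independent families of i.i.d. labels form one family of pairs. -/
theorem zip_law (V : Type*) : ((nuX V).prod (nuU V)).map (fun z (e : Sym2 V) => (z.1 e, z.2 e)) =
    Measure.infinitePi fun _ : Sym2 V => (expMeasure 1).prod unif := by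
  classical
  have hm : Measurable fun (z : Lab V × Lab V) (e : Sym2 V) => (z.1 e, z.2 e) := by
    apply measurable_pi_lambda
    intro e
    exact ((measurable_pi_apply e).comp measurable_fst).prodMk
      ((measurable_pi_apply e).comp measurable_snd)
  apply Measure.eq_infinitePi
  intro s t ht
  rw [Measure.map_apply hm (MeasurableSet.pi s.countable_toSet fun i _ => ht i)]
  have hr : Measurable (Prod.map s.restrict s.restrict :
      Lab V × Lab V → (s → ℝ) × (s → ℝ)) :=
    (Finset.measurable_restrict s).prodMap (Finset.measurable_restrict s)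
  have h1 : ((nuX V).prod (nuU V)).map (Prod.map s.restrict s.restrict :
      Lab V × Lab V → (s → ℝ) × (s → ℝ)) =
      (Measure.pi fun _ : s => expMeasure 1).prod (Measure.pi fun _ : s => unif) := by
    rw [← Measure.map_prod_map _ _ (Finset.measurable_restrict s) (Finset.measurable_restrict s)]
    unfold nuX nuU
    rw [Measure.infinitePi_map_restrict, Measure.infinitePi_map_restrict]
  have h2 := (measurePreserving_arrowProdEquivProdArrow ℝ ℝ s (fun _ => expMeasure 1)
    (fun _ => unif)).symm
  set B : Set ((s → ℝ) × (s → ℝ)) := {y | ∀ e : s, (y.1 e, y.2 e) ∈ t e} with hB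
  have h3 : B = (MeasurableEquiv.arrowProdEquivProdArrow ℝ ℝ s).symm ⁻¹'
      (Set.pi Set.univ fun e : s => t e) := by
    ext y
    simp only [hB, Set.mem_ofPred_eq, Set.mem_preimage, Set.mem_pi, Set.mem_univ, true_implies]
    rfl
  have hpi : MeasurableSet (Set.pi Set.univ fun e : s => t e) := MeasurableSet.univ_pi fun e => ht e
  have hBm : MeasurableSet B := by
    rw [h3]; exact hpi.preimage (MeasurableEquiv.measurable _)
  have h4 : (fun (z : Lab V × Lab V) (e : Sym2 V) => (z.1 e, z.2 e)) ⁻¹' (Set.pi (s : Set (Sym2 V)) t) =
      (Prod.map s.restrict s.restrict : Lab V × Lab V → (s → ℝ) × (s → ℝ)) ⁻¹' B := by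
    ext z
    simp only [hB, Set.mem_preimage, Set.mem_pi, Set.mem_ofPred_eq, Finset.mem_coe]
    constructor
    · intro h e; exact h e e.2
    · intro h e he; exact h ⟨e, he⟩
  rw [h4, ← Measure.map_apply hr hBm, h1, h3, h2.measure_preimage hpi.nullMeasurableSet,
    Measure.pi_pi]
  exact Finset.prod_coe_sort s (fun e => ((expMeasure 1).prod unif) (t e))

section Factor

variable {V : Type*} [Countable V] [MeasurableSpace V] [DiscreteMeasurableSpace V]

/-- **Main theorem**: for a unimodular random rooted graph the free uniform spanning forest is a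
factor of i.i.d. vertex labels. -/
theorem exists_factor [Infinite V] (P : Measure (SimpleGraph V × V)) [IsProbabilityMeasure P]
    (hP : IsUnimodular P)
    (hconn : ∀ᵐ p ∂P, p.1.Connected) (hlf : ∀ᵐ p ∂P, ∀ v, (p.1.neighborSet v).Finite) :
    ∃ Φ : SimpleGraph V → (V → I) → Set (Sym2 V),
      (Measurable fun p : SimpleGraph V × (V → I) => Φ p.1 p.2) ∧
      (∀ (g : Equiv.Perm V) (G : SimpleGraph V) (U : V → I),
        Φ (G.map g.toEmbedding) (fun v => U (g.symm v)) = Sym2.map g '' Φ G U) ∧
      ∀ᵐ p ∂P, IsFUSF p.1 ((iidUniform V).map (Φ p.1)) := by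
  classical
  obtain ⟨S, hS, hF'⟩ := exists_sampling (V := V) pcS
    (fun e => measurable_pcS (X := SimpleGraph V × Set (Sym2 V) × Set (Sym2 V))
      (G := fun p => p.1) measurable_fst measurable_snd.fst measurable_snd.snd e)
    (fun G R O e => ⟨pcS_nonneg G R O e, pcS_le_one G R O e⟩)
    (fun G H hH O C e heG heO heC hOC => ust_lim G H hH O C e heG heO heC hOC)
  have hF : ∀ G : SimpleGraph V, G.Connected → IsFUSF G (kap S G) := hF'
  obtain ⟨kk, hkk⟩ := exists_subseq P hP hconn hlf hS hF
  obtain ⟨L, hLm, hLe, hLlaw⟩ := Vale.Agent.P143B.exists_edge_labels (V := V)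
    ((expMeasure 1).prod unif)
  have hx : ∀ e, Measurable fun p : SimpleGraph V × (V → I) => (L p.1 p.2 e).1 := fun e =>
    (hLm e).fst
  have hv : ∀ e, Measurable fun p : SimpleGraph V × (V → I) => (L p.1 p.2 e).2 := fun e =>
    (hLm e).snd
  have hxm : Measurable fun p : SimpleGraph V × (V → I) => (fun e => (L p.1 p.2 e).1 : Lab V) :=
    measurable_pi_lambda _ hx
  have hvm : Measurable fun p : SimpleGraph V × (V → I) => (fun e => (L p.1 p.2 e).2 : Lab V) :=
    measurable_pi_lambda _ hv
  set Φ : SimpleGraph V → (V → I) → Set (Sym2 V) := fun G U =>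
    Psi kk G (fun e => (L G U e).1) (fun e => (L G U e).2) with hΦ
  have hΦm : Measurable fun p : SimpleGraph V × (V → I) => Φ p.1 p.2 :=
    measurable_Psi measurable_fst hxm hvm kk
  refine ⟨Φ, hΦm, ?_, ?_⟩
  · intro g G U
    set act : Equiv.Perm V → (SimpleGraph V × (V → I)) → (SimpleGraph V × (V → I)) :=
      fun g p => (actG g p.1, fun v => p.2 (g.symm v)) with hact
    have hR := randEdge_Psi (X := SimpleGraph V × (V → I)) (act := act)
      (G := fun p => p.1) (x := fun p => (fun e => (L p.1 p.2 e).1 : Lab V))
      (v := fun p => (fun e => (L p.1 p.2 e).2 : Lab V)) measurable_fst hxm hvm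
      (fun g ω => rfl) (fun g ω e => congrArg Prod.fst (hLe g ω.1 ω.2 e))
      (fun g ω e => congrArg Prod.snd (hLe g ω.1 ω.2 e)) kk
    have h1 : ∀ e, e.map g ∈ Φ (G.map g.toEmbedding) (fun v => U (g.symm v)) ↔ e ∈ Φ G U :=
      fun e => hR.eqv g (G, U) e
    ext e
    constructor
    · intro he
      refine ⟨e.map g.symm, ?_, map_map_symm g e⟩
      rw [← h1, map_map_symm]
      exact he
    · rintro ⟨f, hf, rfl⟩
      exact (h1 f).2 hf
  · filter_upwards [Psi_law P hP hconn hlf hS hF hkk, hconn, hlf] with p hp hc hl
    have hmain : (iidUniform V).map (Φ p.1) = kap S p.1 := by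
      set G := p.1 with hG
      set ν : Measure (ℝ × ℝ) := (expMeasure 1).prod unif with hν
      set ext : (G.edgeSet → ℝ × ℝ) → (Sym2 V → ℝ × ℝ) := fun y e =>
        if h : e ∈ G.edgeSet then y ⟨e, h⟩ else (0, 0) with hext
      have hextm : Measurable ext := by
        apply measurable_pi_lambda
        intro e
        by_cases h : e ∈ G.edgeSet
        · simp only [hext, dif_pos h]
          exact measurable_pi_apply _
        · simp only [hext, dif_neg h]
          exact measurable_const
      set W : (Sym2 V → ℝ × ℝ) → Set (Sym2 V) := fun y =>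
        Psi kk G (fun e => (y e).1) (fun e => (y e).2) with hW
      have hWm : Measurable W :=
        measurable_Psi (X := Sym2 V → ℝ × ℝ) (G := fun _ => G)
          (x := fun y => (fun e => (y e).1 : Lab V)) (v := fun y => (fun e => (y e).2 : Lab V))
          measurable_const
          (measurable_pi_lambda _ fun e => (measurable_pi_apply e).fst)
          (measurable_pi_lambda _ fun e => (measurable_pi_apply e).snd) kk
      have hrm : Measurable fun (U : V → I) (e : G.edgeSet) => L G U e := by
        apply measurable_pi_lambda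
        intro e
        exact (hLm e).comp (measurable_const.prodMk measurable_id)
      have e1 : Φ G = (W ∘ ext) ∘ fun (U : V → I) (e : G.edgeSet) => L G U e := by
        funext U
        apply Psi_congr
        · intro e he
          simp only [hext, dif_pos he]
        · intro e he
          simp only [hext, dif_pos he]
      have hresm : Measurable (G.edgeSet.domRestrict : (Sym2 V → ℝ × ℝ) → (G.edgeSet → ℝ × ℝ)) := by
        fun_prop
      have e2 : (W ∘ ext) ∘ (G.edgeSet.domRestrict : (Sym2 V → ℝ × ℝ) → (G.edgeSet → ℝ × ℝ)) = W := by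
        funext y
        apply Psi_congr
        · intro e he
          simp only [hext, dif_pos he]
          rfl
        · intro e he
          simp only [hext, dif_pos he]
          rfl
      have hzm : Measurable fun (z : Lab V × Lab V) (e : Sym2 V) => (z.1 e, z.2 e) := by
        apply measurable_pi_lambda
        intro e
        exact ((measurable_pi_apply e).comp measurable_fst).prodMk
          ((measurable_pi_apply e).comp measurable_snd)
      rw [e1, ← Measure.map_map (hWm.comp hextm) hrm, hLlaw G hl,
        ← Measure.infinitePi_map_restrict' (μ := fun _ : Sym2 V => ν),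
        Measure.map_map (hWm.comp hextm) hresm, e2, ← zip_law, Measure.map_map hWm hzm]
      exact hp
    rw [hmain]
    exact hF p.1 hc

end Factor

end Vale.Agent.P143
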