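import Mathlib

set_option linter.unusedSectionVars false
set_option linter.unusedVariables false

open Filter Topology MeasureTheory ProbabilityTheory
open scoped ENNReal

namespace Vale.Agent.P143

instance instProbExp : IsProbabilityMeasure (expMeasure 1) :=
  isProbabilityMeasure_expMeasure zero_lt_one

instance instNullSingExp : NullSingletonClass (expMeasure 1) := by
  constructor
  intro x
  have h : expMeasure 1 ≪ volume := withDensity_absolutelyContinuous _ _
  exact h (measure_singleton x)

/-- Refreshing one coordinate of an infinite product measure. -/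
theorem map_update_pi {E X : Type*} [DecidableEq E] [MeasurableSpace X] (ν : Measure X)
    [IsProbabilityMeasure ν] (e : E) :
    ((Measure.infinitePi fun _ : E => ν).prod ν).map
        (fun p => Function.update p.1 e p.2) =
      Measure.infinitePi fun _ : E => ν := by
  have hmeas : Measurable fun p : (E → X) × X => Function.update p.1 e p.2 := by
    refine measurable_pi_iff.2 fun i => ?_
    by_cases h : i = e
    · subst h
      simpa using measurable_snd
    · simp only [Function.update_of_ne h]
      exact (measurable_pi_apply i).comp measurable_fst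
  apply Measure.eq_infinitePi
  intro s t ht
  rw [Measure.map_apply hmeas (MeasurableSet.pi s.countable_toSet fun i _ => ht i)]
  have hpre : (fun p : (E → X) × X => Function.update p.1 e p.2) ⁻¹' ((s : Set E).pi t) =
      ((↑(s.erase e) : Set E).pi t) ×ˢ (if e ∈ s then t e else Set.univ) := by
    ext ⟨x, y⟩
    simp only [Set.mem_preimage, Set.mem_pi, Set.mem_prod, Finset.mem_coe, Finset.mem_erase]
    constructor
    · intro h
      refine ⟨fun i hi => ?_, ?_⟩
      · have := h i hi.2
        rwa [Function.update_of_ne hi.1] at this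
      · split_ifs with hs
        · have := h e hs
          simpa using this
        · trivial
    · rintro ⟨h1, h2⟩ i hi
      by_cases hie : i = e
      · subst hie
        rw [if_pos hi] at h2
        simpa using h2
      · rw [Function.update_of_ne hie]
        exact h1 i ⟨hie, hi⟩
  rw [hpre, Measure.prod_prod, Measure.infinitePi_pi _ (fun i _ => ht i)]
  by_cases hs : e ∈ s
  · rw [if_pos hs, Finset.prod_erase_mul _ _ hs]
  · rw [if_neg hs, measure_univ, mul_one, Finset.erase_eq_of_notMem hs]

theorem exp_Iic {x : ℝ} (hx : 0 ≤ x) : (expMeasure 1) (Set.Iic x) =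
    ENNReal.ofReal (1 - Real.exp (-x)) := by
  rw [← ofReal_cdf, cdf_expMeasure_eq zero_lt_one, if_pos hx, one_mul]

theorem exp_Ici {x : ℝ} (hx : 0 ≤ x) : (expMeasure 1) (Set.Ici x) =
    ENNReal.ofReal (Real.exp (-x)) := by
  have h1 : (expMeasure 1) (Set.Iio x) = ENNReal.ofReal (1 - Real.exp (-x)) := by
    rw [← exp_Iic hx]
    exact measure_congr Iio_ae_eq_Iic
  have h2 : Set.Ici x = (Set.Iio x)ᶜ := by ext y; simp
  rw [h2, prob_compl_eq_one_sub measurableSet_Iio, h1, ← ENNReal.ofReal_one,
    ← ENNReal.ofReal_sub]
  · congr 1; ring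
  · have := Real.exp_le_one_iff.2 (neg_nonpos.2 hx)
    linarith

theorem exp_Ico_le {a b : ℝ} (ha : 0 ≤ a) (hab : a ≤ b) : (expMeasure 1) (Set.Ico a b) ≤
    ENNReal.ofReal (b - a) * (expMeasure 1) (Set.Ici a) := by
  have hb : 0 ≤ b := ha.trans hab
  have h1 : (expMeasure 1) (Set.Ico a b) = (expMeasure 1) (Set.Ici a) - (expMeasure 1) (Set.Ici b) := by
    rw [← Set.Ici_sdiff_Ici, measure_sdiff (Set.Ici_subset_Ici.2 hab)
      measurableSet_Ici.nullMeasurableSet (measure_ne_top _ _)]
  rw [h1, exp_Ici ha, exp_Ici hb, ← ENNReal.ofReal_sub _ (Real.exp_pos _).le,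
    ← ENNReal.ofReal_mul (sub_nonneg.2 hab)]
  apply ENNReal.ofReal_le_ofReal
  have h2 : Real.exp (-b) = Real.exp (-a) * Real.exp (-(b - a)) := by
    rw [← Real.exp_add]; congr 1; ring
  have h3 := Real.add_one_le_exp (-(b - a))
  have h4 := Real.exp_pos (-a)
  rw [h2]
  nlinarith

/-- Hazard bound for exponential clocks. -/
theorem hazard {E : Type*} (e : E) (a b : ℝ) (ha : 0 ≤ a) (hab : a ≤ b)
    (f : (E → ℝ) → ℝ≥0∞) (hf : Measurable f)
    (hdep : ∀ x x' : E → ℝ, (∀ i, i ≠ e → x i = x' i) → a ≤ x e → a ≤ x' e → f x = f x') :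
    ∫⁻ x in {x : E → ℝ | a ≤ x e ∧ x e < b}, f x ∂(Measure.infinitePi fun _ : E => expMeasure 1) ≤
      ENNReal.ofReal (b - a) *
        ∫⁻ x in {x : E → ℝ | a ≤ x e}, f x ∂(Measure.infinitePi fun _ : E => expMeasure 1) := by
  classical
  set μ := Measure.infinitePi fun _ : E => expMeasure 1 with hμ
  have hupd : Measurable fun p : (E → ℝ) × ℝ => Function.update p.1 e p.2 := by
    refine measurable_pi_iff.2 fun i => ?_
    by_cases h : i = e
    · subst h
      simpa using measurable_snd
    · simp only [Function.update_of_ne h]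
      exact (measurable_pi_apply i).comp measurable_fst
  have key : ∀ B : Set ℝ, MeasurableSet B → B ⊆ Set.Ici a →
      ∫⁻ x in {x : E → ℝ | x e ∈ B}, f x ∂μ =
        ∫⁻ x, f (Function.update x e a) * (expMeasure 1) B ∂μ := by
    intro B hB hBa
    have hBm : MeasurableSet {x : E → ℝ | x e ∈ B} := hB.preimage (measurable_pi_apply e)
    rw [← lintegral_indicator hBm]
    conv_lhs => rw [hμ, ← map_update_pi (expMeasure 1) e]
    rw [lintegral_map (hf.indicator hBm) hupd]
    have hmm : Measurable fun p : (E → ℝ) × ℝ =>
        {x : E → ℝ | x e ∈ B}.indicator f (Function.update p.1 e p.2) :=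
      (hf.indicator hBm).comp hupd
    rw [lintegral_prod _ hmm.aemeasurable]
    apply lintegral_congr
    intro x
    have h1 : ∀ y : ℝ, {x : E → ℝ | x e ∈ B}.indicator f (Function.update x e y) =
        B.indicator (fun _ => f (Function.update x e a)) y := by
      intro y
      by_cases hy : y ∈ B
      · rw [Set.indicator_of_mem hy, Set.indicator_of_mem]
        · apply hdep
          · intro i hi
            rw [Function.update_of_ne hi, Function.update_of_ne hi]
          · rw [Function.update_self]; exact hBa hy
          · rw [Function.update_self]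
        · change Function.update x e y e ∈ B
          rwa [Function.update_self]
      · rw [Set.indicator_of_notMem hy, Set.indicator_of_notMem]
        change Function.update x e y e ∉ B
        rwa [Function.update_self]
    simp only [h1]
    rw [lintegral_indicator_const hB]
  have h1 := key (Set.Ico a b) measurableSet_Ico (fun y hy => hy.1)
  have h2 := key (Set.Ici a) measurableSet_Ici le_rfl
  have e1 : {x : E → ℝ | a ≤ x e ∧ x e < b} = {x : E → ℝ | x e ∈ Set.Ico a b} := rfl
  have e2 : {x : E → ℝ | a ≤ x e} = {x : E → ℝ | x e ∈ Set.Ici a} := rfl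
  rw [e1, e2, h1, h2]
  have hm : Measurable fun x : E → ℝ => f (Function.update x e a) :=
    hf.comp (hupd.comp (measurable_id.prodMk measurable_const))
  rw [lintegral_mul_const _ hm, lintegral_mul_const _ hm, mul_left_comm]
  exact mul_le_mul_right (exp_Ico_le ha hab) _

end Vale.Agent.P143
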