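import Vale.Agent.P143_h11.Space
import Vale.Agent.P143_h11.Hazard

set_option linter.unusedSectionVars false
set_option linter.unusedVariables false

open MeasureTheory Filter Topology ProbabilityTheory
open scoped ENNReal unitInterval

namespace Vale.Agent.P143

variable {V : Type*}

/-! ### Exhaustions -/

theorem exists_exhaustion [Countable V] (G : SimpleGraph V) (hG : G.Connected) :
    ∃ H : ℕ → G.Subgraph, IsExhaustion H := by
  classical
  obtain ⟨o⟩ := hG.nonempty
  have p : ∀ u, G.Walk o u := fun u => (hG.preconnected o u).some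
  set K : V × V → G.Subgraph := fun i => if h : G.Adj i.1 i.2 then ((p i.1).concat h).toSubgraph
    else (p i.1).toSubgraph with hK
  have hKc : ∀ i, (K i).Connected := by
    intro i
    simp only [hK]
    split_ifs
    · exact SimpleGraph.Walk.toSubgraph_connected _
    · exact SimpleGraph.Walk.toSubgraph_connected _
  have hKo : ∀ i, o ∈ (K i).verts := by
    intro i
    simp only [hK]
    split_ifs
    · exact SimpleGraph.Walk.start_mem_verts_toSubgraph _
    · exact SimpleGraph.Walk.start_mem_verts_toSubgraph _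
  have hKf : ∀ i, (K i).verts.Finite := by
    intro i
    simp only [hK]
    split_ifs
    · rw [SimpleGraph.Walk.verts_toSubgraph]; exact List.finite_toSet _
    · rw [SimpleGraph.Walk.verts_toSubgraph]; exact List.finite_toSet _
  have hKa : ∀ u v, G.Adj u v → (K (u, v)).Adj u v := by
    intro u v h
    simp only [hK, dif_pos h]
    rw [← SimpleGraph.Subgraph.mem_edgeSet, SimpleGraph.Walk.mem_edges_toSubgraph,
      SimpleGraph.Walk.edges_concat]
    simp
  have hKv : ∀ v, v ∈ (K (v, v)).verts := by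
    intro v
    simp only [hK]
    rw [dif_neg (G.loopless.irrefl v)]
    exact SimpleGraph.Walk.end_mem_verts_toSubgraph _
  have : Nonempty (V × V) := ⟨(o, o)⟩
  obtain ⟨f, hf⟩ := exists_surjective_nat (V × V)
  refine ⟨fun n => partialSups (fun k => K (f k)) n, ?_, ?_, ?_, ?_⟩
  · exact (partialSups fun k => K (f k)).monotone
  · intro n
    have key : ∀ n, (partialSups (fun k => K (f k)) n).Connected ∧
        o ∈ (partialSups (fun k => K (f k)) n).verts := by
      intro n
      induction n with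
      | zero => rw [partialSups_zero]; exact ⟨hKc _, hKo _⟩
      | succ n ih =>
        rw [partialSups_add_one]
        refine ⟨SimpleGraph.Subgraph.connected_sup ih.1.preconnected (hKc _).preconnected
          ⟨o, ih.2, hKo _⟩, Or.inl ih.2⟩
    exact (key n).1
  · intro n
    induction n with
    | zero => rw [partialSups_zero]; exact hKf _
    | succ n ih =>
      rw [partialSups_add_one, SimpleGraph.Subgraph.verts_sup]
      exact ih.union (hKf _)
  · rw [iSup_partialSups_eq]
    apply le_antisymm le_top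
    constructor
    · intro v _
      rw [SimpleGraph.Subgraph.verts_iSup]
      obtain ⟨k, hk⟩ := hf (v, v)
      exact Set.mem_iUnion.2 ⟨k, by rw [hk]; exact hKv v⟩
    · intro u v huv
      rw [SimpleGraph.Subgraph.iSup_adj]
      obtain ⟨k, hk⟩ := hf (u, v)
      exact ⟨k, by rw [hk]; exact hKa u v huv⟩

/-- Existence of spanning trees of connected subgraphs. -/
theorem exists_spanningTree {G : SimpleGraph V} (H : G.Subgraph) (hH : H.Connected) :
    ∃ T, IsSpanningTree H T := by
  obtain ⟨F, hF1, hF2, hF3⟩ := H.spanningCoe.exists_isAcyclic_reachable_eq_le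
  refine ⟨F.edgeSet, ?_, ?_, ?_⟩
  · rw [← SimpleGraph.Subgraph.edgeSet_spanningCoe]
    exact SimpleGraph.edgeSet_mono hF1
  · rw [SimpleGraph.fromEdgeSet_edgeSet]; exact hF2
  · intro u hu v hv
    rw [SimpleGraph.fromEdgeSet_edgeSet, hF3]
    have h := hH.preconnected.coe ⟨u, hu⟩ ⟨v, hv⟩
    exact h.map (⟨Subtype.val, fun h => h⟩ : H.coe →g H.spanningCoe)

theorem ustProb_true {G : SimpleGraph V} (H : G.Subgraph) (hH : H.Connected)
    (hfin : H.verts.Finite) {p : Set (Sym2 V) → Prop} (hp : ∀ T, p T) : ustProb H p = 1 := by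
  unfold ustProb
  have h1 : {T | IsSpanningTree H T ∧ p T} = {T | IsSpanningTree H T} := by
    ext T; simp [hp]
  rw [h1]
  apply div_self
  have h2 : {T | IsSpanningTree H T}.ncard ≠ 0 := by
    rw [Ne, Set.ncard_eq_zero (finite_spanningTrees H hfin)]
    obtain ⟨T, hT⟩ := exists_spanningTree H hH
    exact Set.Nonempty.ne_empty ⟨T, hT⟩
  exact_mod_cast h2

theorem ustProb_congr {G : SimpleGraph V} (H : G.Subgraph) {p q : Set (Sym2 V) → Prop}
    (h : ∀ T, IsSpanningTree H T → (p T ↔ q T)) : ustProb H p = ustProb H q := by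
  unfold ustProb
  have : {T | IsSpanningTree H T ∧ p T} = {T | IsSpanningTree H T ∧ q T} := by
    ext T
    exact and_congr_right (h T)
  rw [this]

theorem ustProb_false {G : SimpleGraph V} (H : G.Subgraph) {p : Set (Sym2 V) → Prop}
    (h : ∀ T, IsSpanningTree H T → ¬ p T) : ustProb H p = 0 := by
  unfold ustProb
  have : {T | IsSpanningTree H T ∧ p T} = ∅ := by
    ext T
    simp only [Set.mem_ofPred_eq, Set.mem_empty_iff_false, iff_false]
    rintro ⟨h1, h2⟩
    exact h T h1 h2
  rw [this]; simp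

theorem ustProb_sum {G : SimpleGraph V} (H : G.Subgraph) (hfin : H.verts.Finite) {ι : Type*}
    (s : Finset ι) (p : ι → Set (Sym2 V) → Prop) (q : Set (Sym2 V) → Prop)
    (hd : ∀ i ∈ s, ∀ j ∈ s, ∀ T, p i T → p j T → i = j)
    (hq : ∀ T, IsSpanningTree H T → (q T ↔ ∃ i ∈ s, p i T)) :
    ustProb H q = ∑ i ∈ s, ustProb H (p i) := by
  classical
  unfold ustProb
  rw [← Finset.sum_div]
  congr 1
  have h1 : {T | IsSpanningTree H T ∧ q T} = ⋃ i ∈ s, {T | IsSpanningTree H T ∧ p i T} := by
    ext T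
    simp only [Set.mem_ofPred_eq, Set.mem_iUnion, exists_prop]
    constructor
    · rintro ⟨h1, h2⟩
      obtain ⟨i, hi, h3⟩ := (hq T h1).1 h2
      exact ⟨i, hi, h1, h3⟩
    · rintro ⟨i, hi, h1, h3⟩
      exact ⟨h1, (hq T h1).2 ⟨i, hi, h3⟩⟩
  have hf : ∀ i, {T | IsSpanningTree H T ∧ p i T}.Finite := fun i =>
    (finite_spanningTrees H hfin).subset fun T hT => hT.1
  rw [h1]
  clear hq h1
  induction s using Finset.induction_on with
  | empty => simp
  | insert a s ha ih =>
    have hdis : Disjoint {T | IsSpanningTree H T ∧ p a T}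
        (⋃ x ∈ s, {T | IsSpanningTree H T ∧ p x T}) := by
      rw [Set.disjoint_left]
      rintro T ⟨_, h1⟩ h2
      simp only [Set.mem_iUnion, exists_prop] at h2
      obtain ⟨j, hj, _, h3⟩ := h2
      have := hd a (Finset.mem_insert_self _ _) j (Finset.mem_insert_of_mem hj) T h1 h3
      exact ha (this ▸ hj)
    rw [Finset.set_biUnion_insert, Set.ncard_union_eq hdis (hf a)
      (Set.Finite.biUnion s.finite_toSet fun i _ => hf i), Finset.sum_insert ha, Nat.cast_add,
      ih (fun i hi j hj => hd i (Finset.mem_insert_of_mem hi) j (Finset.mem_insert_of_mem hj))]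

/-! ### Cylinders -/

theorem inter_eq_iff (O C : Finset (Sym2 V)) (h : Disjoint O C) (T : Set (Sym2 V)) [DecidableEq V] :
    T ∩ ↑(O ∪ C) = ↑O ↔ (↑O ⊆ T ∧ Disjoint (C : Set (Sym2 V)) T) := by
  rw [Finset.coe_union]
  constructor
  · intro h1
    refine ⟨?_, ?_⟩
    · rw [← h1]; exact Set.inter_subset_left
    · rw [Set.disjoint_left]
      intro f hf hfT
      have : f ∈ T ∩ (↑O ∪ ↑C) := ⟨hfT, Or.inr hf⟩
      rw [h1] at this
      exact Finset.disjoint_left.1 h this hf
  · rintro ⟨h1, h2⟩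
    ext f
    constructor
    · rintro ⟨h3, h4 | h4⟩
      · exact h4
      · exact absurd h3 (Set.disjoint_left.1 h2 h4)
    · intro h3
      exact ⟨h1 h3, Or.inl h3⟩

theorem IsFUSF.tendsto_cyl {G : SimpleGraph V} {μ : Measure (Set (Sym2 V))} (hμ : IsFUSF G μ)
    {H : ℕ → G.Subgraph} (hH : IsExhaustion H) (O C : Finset (Sym2 V)) :
    Tendsto (fun n => ustProb (H n) (fun T => ↑O ⊆ T ∧ Disjoint (C : Set (Sym2 V)) T)) atTop
      (𝓝 (μ.real {T | ↑O ⊆ T ∧ Disjoint (C : Set (Sym2 V)) T})) := by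
  classical
  by_cases hd : Disjoint O C
  · have h := hμ.2 H hH (O ∪ C) O
    simp only [inter_eq_iff O C hd] at h
    exact h
  · have h1 : ∀ T : Set (Sym2 V), ¬ (↑O ⊆ T ∧ Disjoint (C : Set (Sym2 V)) T) := by
      rintro T ⟨h1, h2⟩
      apply hd
      rw [Finset.disjoint_left]
      intro f hf hfC
      exact Set.disjoint_left.1 h2 hfC (h1 hf)
    have h2 : {T : Set (Sym2 V) | ↑O ⊆ T ∧ Disjoint (C : Set (Sym2 V)) T} = ∅ := by
      ext T; simp only [Set.mem_ofPred_eq, Set.mem_empty_iff_false, iff_false]; exact h1 T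
    rw [h2]
    simp only [measureReal_empty]
    have h3 : ∀ n, ustProb (H n) (fun T => ↑O ⊆ T ∧ Disjoint (C : Set (Sym2 V)) T) = 0 := fun n =>
      ustProb_false _ fun T _ => h1 T
    simp only [h3]
    exact tendsto_const_nhds

theorem disj_insert (C : Finset (Sym2 V)) (e : Sym2 V) (T : Set (Sym2 V)) [DecidableEq V] :
    Disjoint ((insert e C : Finset (Sym2 V)) : Set (Sym2 V)) T ↔
      (Disjoint (C : Set (Sym2 V)) T ∧ e ∉ T) := by
  rw [Finset.coe_insert, Set.disjoint_insert_left]
  tauto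

theorem IsFUSF.cond [Countable V] {G : SimpleGraph V} (hG : ∃ H : ℕ → G.Subgraph, IsExhaustion H)
    {μ : Measure (Set (Sym2 V))} (hμ : IsFUSF G μ) (O C : Finset (Sym2 V)) (e : Sym2 V) (c : ℝ)
    (hlim : ∀ (H : ℕ → G.Subgraph), IsExhaustion H →
      Tendsto (fun n => ustProb (H n) (fun T => ↑O ⊆ T ∧ Disjoint (C : Set (Sym2 V)) T ∧ e ∉ T) -
        c * ustProb (H n) (fun T => ↑O ⊆ T ∧ Disjoint (C : Set (Sym2 V)) T))
        atTop (𝓝 0)) :
    μ.real {T | ↑O ⊆ T ∧ Disjoint (C : Set (Sym2 V)) T ∧ e ∉ T} =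
      c * μ.real {T | ↑O ⊆ T ∧ Disjoint (C : Set (Sym2 V)) T} := by
  classical
  obtain ⟨H, hH⟩ := hG
  have h1 := hμ.tendsto_cyl hH O (insert e C)
  simp only [disj_insert] at h1
  have h2 := hμ.tendsto_cyl hH O C
  have h3 := h1.sub (h2.const_mul c)
  have h4 := tendsto_nhds_unique h3 (hlim H hH)
  linarith

theorem IsFUSF.subset_ae [Countable V] {G : SimpleGraph V}
    (hG : ∃ H : ℕ → G.Subgraph, IsExhaustion H) {μ : Measure (Set (Sym2 V))} (hμ : IsFUSF G μ) :
    ∀ᵐ T ∂μ, T ⊆ G.edgeSet := by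
  classical
  obtain ⟨H, hH⟩ := hG
  have := hμ.1
  have h1 : ∀ e : Sym2 V, e ∉ G.edgeSet → ∀ᵐ T ∂μ, e ∉ T := by
    intro e he
    have h2 := hμ.2 H hH {e} {e}
    have h3 : ∀ n, ustProb (H n) (fun T => T ∩ ↑({e} : Finset (Sym2 V)) = ↑({e} : Finset (Sym2 V)))
        = 0 := by
      intro n
      apply ustProb_false
      intro T hT hTe
      have h4 : e ∈ T ∩ ↑({e} : Finset (Sym2 V)) := by rw [hTe]; simp
      exact he ((H n).edgeSet_subset (hT.1 h4.1))
    simp only [h3] at h2
    have h4 := tendsto_nhds_unique h2 tendsto_const_nhds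
    have h5 : μ {T | T ∩ ↑({e} : Finset (Sym2 V)) = ↑({e} : Finset (Sym2 V))} = 0 := by
      have := (measureReal_eq_zero_iff (μ := μ)).1 h4
      exact this
    rw [ae_iff]
    refine (congrArg _ ?_).trans h5
    ext T
    simp only [Set.mem_ofPred_eq, not_not, Finset.coe_singleton]
    constructor
    · intro h; ext f; simp only [Set.mem_inter_iff, Set.mem_singleton_iff]
      constructor
      · rintro ⟨_, h⟩; exact h
      · rintro rfl; exact ⟨h, rfl⟩
    · intro h
      have : e ∈ T ∩ {e} := by rw [h]; rfl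
      exact this.1
  have h2 : ∀ᵐ T ∂μ, ∀ e : Sym2 V, e ∉ G.edgeSet → e ∉ T := by
    rw [ae_all_iff]
    intro e
    by_cases he : e ∈ G.edgeSet
    · exact ae_of_all _ fun T h => absurd he h
    · filter_upwards [h1 e he] with T hT _ using hT
  filter_upwards [h2] with T hT e he
  by_contra h
  exact hT e h he

end Vale.Agent.P143
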