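import Mathlib

set_option linter.unusedSectionVars false

open Filter Topology
open scoped InnerProductSpace

namespace Vale.Agent.P143

section Hilb

variable {H : Type*} [NormedAddCommGroup H] [InnerProductSpace ℝ H] [CompleteSpace H]

/-- Orthogonal projection onto (the closure of) the subspace `S`. -/
noncomputable def pj (S : Submodule ℝ H) : H →L[ℝ] H := S.topologicalClosure.starProjection

variable {S T : Submodule ℝ H}

omit [CompleteSpace H] in
theorem closure_eq_of_closed (hS : IsClosed (S : Set H)) : S.topologicalClosure = S :=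
  IsClosed.submodule_topologicalClosure_eq hS

theorem pj_mem (hS : IsClosed (S : Set H)) (x : H) : pj S x ∈ S := by
  have h := Submodule.starProjection_apply_mem S.topologicalClosure x
  have h2 := closure_eq_of_closed hS
  unfold pj
  exact h2.le h

theorem inner_pj (x y : H) : ⟪pj S x, y⟫_ℝ = ⟪x, pj S y⟫_ℝ :=
  Submodule.inner_starProjection_left_eq_right _ x y

theorem pj_eq_self (hS : IsClosed (S : Set H)) {x : H} : pj S x = x ↔ x ∈ S := by
  unfold pj
  rw [Submodule.starProjection_eq_self_iff, closure_eq_of_closed hS]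

theorem pj_pj (x : H) : pj S (pj S x) = pj S x := by
  unfold pj
  rw [Submodule.starProjection_eq_self_iff]
  exact Submodule.starProjection_apply_mem _ _

theorem norm_pj_le (x : H) : ‖pj S x‖ ≤ ‖x‖ :=
  Submodule.norm_starProjection_apply_le _ x

theorem sub_pj_mem (x : H) : x - pj S x ∈ Sᗮ := by
  have h := Submodule.sub_starProjection_mem_orthogonal (K := S.topologicalClosure) x
  exact Submodule.orthogonal_le S.le_topologicalClosure h

theorem inner_pj_self (x : H) : ⟪x, pj S x⟫_ℝ = ‖pj S x‖ ^ 2 := by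
  rw [← real_inner_self_eq_norm_sq, inner_pj, pj_pj]

theorem inner_sub_pj_pj (x : H) : ⟪x - pj S x, pj S x⟫_ℝ = 0 := by
  rw [inner_sub_left, inner_pj_self, real_inner_self_eq_norm_sq, sub_self]

theorem pj_eq_of (hS : IsClosed (S : Set H)) {u v : H} (hv : v ∈ S) (h : u - v ∈ Sᗮ) :
    pj S u = v := by
  unfold pj
  apply Submodule.eq_starProjection_of_mem_orthogonal
  · rw [closure_eq_of_closed hS]; exact hv
  · rw [closure_eq_of_closed hS]; exact h

theorem pj_orth (hS : IsClosed (S : Set H)) (x : H) : pj Sᗮ x = x - pj S x := by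
  apply pj_eq_of (Submodule.isClosed_orthogonal S) (sub_pj_mem x)
  rw [sub_sub_cancel]
  exact Submodule.le_orthogonal_orthogonal S (pj_mem hS x)

theorem pj_of_orth {x : H} (hx : x ∈ Sᗮ) (hS : IsClosed (S : Set H)) : pj S x = 0 :=
  pj_eq_of hS S.zero_mem (by simpa using hx)

theorem pj_eq_zero_iff (hS : IsClosed (S : Set H)) {x : H} : pj S x = 0 ↔ x ∈ Sᗮ := by
  constructor
  · intro h
    have := sub_pj_mem (S := S) x
    rwa [h, sub_zero] at this
  · intro h; exact pj_of_orth h hS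

theorem orth_orth (hS : IsClosed (S : Set H)) : Sᗮᗮ = S := by
  rw [Submodule.orthogonal_orthogonal_eq_closure, closure_eq_of_closed hS]

theorem pj_pj_of_le (hS : IsClosed (S : Set H)) (_hT : IsClosed (T : Set H)) (h : S ≤ T) (x : H) :
    pj S (pj T x) = pj S x := by
  apply pj_eq_of hS (pj_mem hS x)
  have h1 : x - pj S x ∈ Sᗮ := sub_pj_mem x
  have h2 : x - pj T x ∈ Sᗮ := Submodule.orthogonal_le h (sub_pj_mem x)
  have : pj T x - pj S x = (x - pj S x) - (x - pj T x) := by abel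
  rw [this]
  exact Submodule.sub_mem _ h1 h2

theorem pj_pj_of_le' (hS : IsClosed (S : Set H)) (hT : IsClosed (T : Set H)) (h : S ≤ T) (x : H) :
    pj T (pj S x) = pj S x :=
  (pj_eq_self hT).2 (h (pj_mem hS x))

theorem norm_pj_mono (hS : IsClosed (S : Set H)) (hT : IsClosed (T : Set H)) (h : S ≤ T) (x : H) :
    ‖pj S x‖ ≤ ‖pj T x‖ := by
  rw [← pj_pj_of_le hS hT h]
  exact norm_pj_le _

omit [CompleteSpace H] in
theorem isClosed_inf (hS : IsClosed (S : Set H)) (hT : IsClosed (T : Set H)) :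
    IsClosed ((S ⊓ T : Submodule ℝ H) : Set H) := by
  rw [Submodule.coe_inf]
  exact hS.inter hT

theorem pj_inf_orth (hS : IsClosed (S : Set H)) (hT : IsClosed (T : Set H)) (h : T ≤ S) (x : H) :
    pj (S ⊓ Tᗮ) x = pj S x - pj T x := by
  apply pj_eq_of (isClosed_inf hS T.isClosed_orthogonal)
  · refine ⟨S.sub_mem (pj_mem hS x) (h (pj_mem hT x)), ?_⟩
    have h1 : x - pj T x ∈ Tᗮ := sub_pj_mem x
    have h2 : x - pj S x ∈ Tᗮ := Submodule.orthogonal_le h (sub_pj_mem x)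
    have : pj S x - pj T x = (x - pj T x) - (x - pj S x) := by abel
    rw [this]
    exact Submodule.sub_mem _ h1 h2
  · have : x - (pj S x - pj T x) = (x - pj S x) + pj T x := by abel
    rw [this]
    apply Submodule.add_mem
    · exact Submodule.orthogonal_le inf_le_left (sub_pj_mem x)
    · have h3 : T ≤ (S ⊓ Tᗮ)ᗮ :=
        le_trans (Submodule.le_orthogonal_orthogonal T) (Submodule.orthogonal_le inf_le_right)
      exact h3 (pj_mem hT x)

theorem norm_sq_pj_inf_orth (hS : IsClosed (S : Set H)) (hT : IsClosed (T : Set H)) (h : T ≤ S)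
    (x : H) : ‖pj (S ⊓ Tᗮ) x‖ ^ 2 = ‖pj S x‖ ^ 2 - ‖pj T x‖ ^ 2 := by
  rw [← inner_pj_self, ← inner_pj_self, ← inner_pj_self, pj_inf_orth hS hT h, inner_sub_right]

/-- `compress L S` is the closure of the projection of `S` to `L`. -/
noncomputable def compress (L S : Submodule ℝ H) : Submodule ℝ H := L ⊓ (L ⊓ Sᗮ)ᗮ

theorem isClosed_compress {L : Submodule ℝ H} (hL : IsClosed (L : Set H)) (S : Submodule ℝ H) :
    IsClosed ((compress L S : Submodule ℝ H) : Set H) :=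
  isClosed_inf hL (Submodule.isClosed_orthogonal _)

omit [CompleteSpace H] in
theorem compress_le (L S : Submodule ℝ H) : compress L S ≤ L := inf_le_left

omit [CompleteSpace H] in
theorem compress_mono (L : Submodule ℝ H) {S T : Submodule ℝ H} (h : S ≤ T) :
    compress L S ≤ compress L T :=
  inf_le_inf le_rfl (Submodule.orthogonal_le (inf_le_inf le_rfl (Submodule.orthogonal_le h)))

/-- For `w` in the closed subspace `L`: `w ⊥ compress L S` iff `w ⊥ S`. -/
theorem mem_compress_orth {L : Submodule ℝ H} (hL : IsClosed (L : Set H)) {w : H} (hw : w ∈ L) :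
    w ∈ (compress L S)ᗮ ↔ w ∈ Sᗮ := by
  have hK : IsClosed ((L ⊓ Sᗮ : Submodule ℝ H) : Set H) := isClosed_inf hL S.isClosed_orthogonal
  constructor
  · intro h
    -- w - P_K w ∈ compress L S
    set K := L ⊓ Sᗮ with hKdef
    have h1 : w - pj K w ∈ compress L S :=
      ⟨L.sub_mem hw (pj_mem hK w).1, sub_pj_mem w⟩
    have h2 : ⟪w - pj K w, w⟫_ℝ = 0 := (Submodule.mem_orthogonal _ _).1 h _ h1
    have h3 : ⟪w - pj K w, pj K w⟫_ℝ = 0 := inner_sub_pj_pj w
    have h4 : ⟪w - pj K w, w - pj K w⟫_ℝ = 0 := by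
      rw [inner_sub_right, h2, h3, sub_zero]
    have h5 : w - pj K w = 0 := inner_self_eq_zero.1 h4
    have h6 : w = pj K w := sub_eq_zero.1 h5
    rw [h6]
    exact (pj_mem hK w).2
  · intro h
    rw [Submodule.mem_orthogonal]
    intro u hu
    have := (Submodule.mem_orthogonal _ _).1 hu.2 w ⟨hw, h⟩
    rwa [real_inner_comm]

theorem pj_mem_compress {L : Submodule ℝ H} (hL : IsClosed (L : Set H)) {s : H} (hs : s ∈ S) :
    pj L s ∈ compress L S := by
  refine ⟨pj_mem hL s, (Submodule.mem_orthogonal _ _).2 ?_⟩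
  intro u hu
  rw [← inner_pj, (pj_eq_self hL).2 hu.1, real_inner_comm]
  exact (Submodule.mem_orthogonal _ _).1 hu.2 s hs

theorem compress_le_closure {L : Submodule ℝ H} (hL : IsClosed (L : Set H))
    {M : Submodule ℝ H} (hM : IsClosed (M : Set H)) (h : ∀ s ∈ S, pj L s ∈ M) :
    compress L S ≤ M := by
  intro w hw
  have hML : IsClosed ((M ⊓ L : Submodule ℝ H) : Set H) := isClosed_inf hM hL
  -- v := w - P_{M ⊓ L} w is in L and is orthogonal to `S`
  have h1 : w - pj (M ⊓ L) w ∈ L := L.sub_mem hw.1 (pj_mem hML w).2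
  have h2 : w - pj (M ⊓ L) w ∈ Sᗮ := by
    rw [Submodule.mem_orthogonal]
    intro s hs
    have h3 : ⟪pj L s, w - pj (M ⊓ L) w⟫_ℝ = 0 :=
      (Submodule.mem_orthogonal _ _).1 (sub_pj_mem (S := M ⊓ L) w) _ ⟨h s hs, pj_mem hL s⟩
    rwa [inner_pj, (pj_eq_self hL).2 h1] at h3
  have h3 : w ∈ M ⊓ L := by
    have h4 : ⟪w - pj (M ⊓ L) w, w⟫_ℝ = 0 := (Submodule.mem_orthogonal _ _).1 hw.2 _ ⟨h1, h2⟩
    have h5 : ⟪w - pj (M ⊓ L) w, pj (M ⊓ L) w⟫_ℝ = 0 := inner_sub_pj_pj w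
    have h6 : ⟪w - pj (M ⊓ L) w, w - pj (M ⊓ L) w⟫_ℝ = 0 := by
      rw [inner_sub_right, h4, h5, sub_zero]
    have h7 : w - pj (M ⊓ L) w = 0 := inner_self_eq_zero.1 h6
    have h8 : w = pj (M ⊓ L) w := sub_eq_zero.1 h7
    rw [h8]
    exact pj_mem hML w
  exact h3.1


/-! ### Powers of `1 - Y†Y` -/

open ContinuousLinearMap in
/-- `1 - Y†Y`. -/
noncomputable def defect (Y : H →L[ℝ] H) : H →L[ℝ] H := 1 - (adjoint Y) * Y

open ContinuousLinearMap

theorem defect_apply (Y : H →L[ℝ] H) (x : H) : defect Y x = x - (adjoint Y) (Y x) := rfl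

theorem inner_defect (Y : H →L[ℝ] H) (x y : H) : ⟪defect Y x, y⟫_ℝ = ⟪x, defect Y y⟫_ℝ := by
  rw [defect_apply, defect_apply, inner_sub_left, inner_sub_right, adjoint_inner_left,
    adjoint_inner_right]

theorem inner_defect_pow (Y : H →L[ℝ] H) (k : ℕ) (x y : H) :
    ⟪(defect Y ^ k) x, y⟫_ℝ = ⟪x, (defect Y ^ k) y⟫_ℝ := by
  induction k generalizing x y with
  | zero => simp
  | succ k ih =>
    rw [pow_succ, mul_apply_eq_comp, ih, inner_defect, ← mul_apply_eq_comp,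
      ← pow_succ', pow_succ]

theorem Y_defect (Y : H →L[ℝ] H) (x : H) : Y (defect Y x) = defect (adjoint Y) (Y x) := by
  rw [defect_apply, defect_apply, map_sub, adjoint_adjoint]

theorem Y_defect_pow (Y : H →L[ℝ] H) (k : ℕ) (x : H) :
    Y ((defect Y ^ k) x) = (defect (adjoint Y) ^ k) (Y x) := by
  induction k generalizing x with
  | zero => simp
  | succ k ih =>
    rw [pow_succ, mul_apply_eq_comp, ih, Y_defect, ← mul_apply_eq_comp,
      ← pow_succ]

theorem norm_adjoint_apply_le {Y : H →L[ℝ] H} (hY : ‖Y‖ ≤ 1) (x : H) : ‖adjoint Y x‖ ≤ ‖x‖ := by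
  have h : ‖adjoint Y‖ ≤ 1 := by rwa [LinearIsometryEquiv.norm_map]
  calc ‖adjoint Y x‖ ≤ ‖adjoint Y‖ * ‖x‖ := (adjoint Y).le_opNorm x
    _ ≤ 1 * ‖x‖ := by gcongr
    _ = ‖x‖ := one_mul _

theorem norm_apply_le_of {Y : H →L[ℝ] H} (hY : ‖Y‖ ≤ 1) (x : H) : ‖Y x‖ ≤ ‖x‖ := by
  calc ‖Y x‖ ≤ ‖Y‖ * ‖x‖ := Y.le_opNorm x
    _ ≤ 1 * ‖x‖ := by gcongr
    _ = ‖x‖ := one_mul _

theorem norm_sq_defect (Y : H →L[ℝ] H) (x : H) :
    ‖defect Y x‖ ^ 2 = ‖x‖ ^ 2 - 2 * ‖Y x‖ ^ 2 + ‖adjoint Y (Y x)‖ ^ 2 := by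
  rw [defect_apply, norm_sub_sq_real, adjoint_inner_right, real_inner_self_eq_norm_sq]

theorem norm_defect_le {Y : H →L[ℝ] H} (hY : ‖Y‖ ≤ 1) (x : H) : ‖defect Y x‖ ≤ ‖x‖ := by
  have h1 := norm_sq_defect Y x
  have h2 := norm_adjoint_apply_le hY (Y x)
  have h3 : ‖adjoint Y (Y x)‖ ^ 2 ≤ ‖Y x‖ ^ 2 := by gcongr
  have h4 : ‖defect Y x‖ ^ 2 ≤ ‖x‖ ^ 2 := by
    have := sq_nonneg ‖Y x‖
    linarith
  exact le_of_sq_le_sq h4 (norm_nonneg x)

theorem inner_defect_self (Y : H →L[ℝ] H) (x : H) : ⟪x, defect Y x⟫_ℝ = ‖x‖ ^ 2 - ‖Y x‖ ^ 2 := by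
  rw [defect_apply, inner_sub_right, adjoint_inner_right, real_inner_self_eq_norm_sq,
    real_inner_self_eq_norm_sq]

theorem inner_defect_pow_nonneg {Y : H →L[ℝ] H} (hY : ‖Y‖ ≤ 1) (k : ℕ) (x : H) :
    0 ≤ ⟪x, (defect Y ^ k) x⟫_ℝ := by
  rcases Nat.even_or_odd' k with ⟨i, hi | hi⟩
  · rw [hi, two_mul, pow_add, mul_apply_eq_comp, ← inner_defect_pow]
    exact real_inner_self_nonneg
  · rw [hi, two_mul, add_assoc, pow_add, pow_succ', mul_apply_eq_comp,
      mul_apply_eq_comp, ← inner_defect_pow, inner_defect_self]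
    have h1 := norm_apply_le_of hY ((defect Y ^ i) x)
    have h2 : ‖Y ((defect Y ^ i) x)‖ ^ 2 ≤ ‖(defect Y ^ i) x‖ ^ 2 := by gcongr
    linarith

/-- Consecutive differences. -/
theorem inner_defect_pow_sub (Y : H →L[ℝ] H) (k : ℕ) (x : H) :
    ⟪x, (defect Y ^ k) x⟫_ℝ - ⟪x, (defect Y ^ (k + 1)) x⟫_ℝ =
      ⟪Y x, (defect (adjoint Y) ^ k) (Y x)⟫_ℝ := by
  rw [pow_succ', mul_apply_eq_comp, defect_apply, inner_sub_right, sub_sub_cancel,
    adjoint_inner_right, Y_defect_pow]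

theorem antitone_inner_defect_pow {Y : H →L[ℝ] H} (hY : ‖Y‖ ≤ 1) (x : H) :
    Antitone fun k => ⟪x, (defect Y ^ k) x⟫_ℝ := by
  apply antitone_nat_of_succ_le
  intro k
  have h1 := inner_defect_pow_sub Y k x
  have h2 : ‖adjoint Y‖ ≤ 1 := by rwa [LinearIsometryEquiv.norm_map]
  have h3 := inner_defect_pow_nonneg h2 k (Y x)
  linarith

theorem ker_isClosed (Y : H →L[ℝ] H) : IsClosed ((LinearMap.ker Y.toLinearMap : Submodule ℝ H) : Set H) :=
  ContinuousLinearMap.isClosed_ker Y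

theorem tendsto_inner_defect_pow {Y : H →L[ℝ] H} (hY : ‖Y‖ ≤ 1) (x : H) :
    Tendsto (fun k => ⟪x, (defect Y ^ k) x⟫_ℝ) atTop
      (𝓝 (‖pj (LinearMap.ker Y.toLinearMap) x‖ ^ 2)) := by
  have hbdd : BddBelow (Set.range fun k => ⟪x, (defect Y ^ k) x⟫_ℝ) :=
    ⟨0, by rintro _ ⟨k, rfl⟩; exact inner_defect_pow_nonneg hY k x⟩
  have h1 := tendsto_atTop_ciInf (antitone_inner_defect_pow hY x) hbdd
  have h2 := h1.cesaro
  have hT : ‖defect Y‖ ≤ 1 :=
    ContinuousLinearMap.opNorm_le_bound _ zero_le_one (fun y => by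
      rw [one_mul]; exact norm_defect_le hY y)
  have h3 := (defect Y).tendsto_birkhoffAverage_orthogonalProjection hT x
  have h4 : Tendsto (fun n => ⟪x, birkhoffAverage ℝ (defect Y) _root_.id n x⟫_ℝ) atTop
      (𝓝 ⟪x, (((defect Y).eqLocus (1 : H →L[ℝ] H)).orthogonalProjectionOnto x : H)⟫_ℝ) :=
    (tendsto_const_nhds).inner h3
  have h5 : ∀ n : ℕ, ⟪x, birkhoffAverage ℝ (defect Y) _root_.id n x⟫_ℝ =
      (n : ℝ)⁻¹ * ∑ i ∈ Finset.range n, ⟪x, (defect Y ^ i) x⟫_ℝ := by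
    intro n
    rw [birkhoffAverage, birkhoffSum, inner_smul_right, inner_sum]
    congr 1
    apply Finset.sum_congr rfl
    intro i _
    rw [ContinuousLinearMap.coe_pow']
    rfl
  have h6 := tendsto_nhds_unique (h4.congr h5) h2
  have h7 : (defect Y).eqLocus (1 : H →L[ℝ] H) = LinearMap.ker Y.toLinearMap := by
    ext y
    simp only [LinearMap.mem_eqLocus, LinearMap.mem_ker]
    constructor
    · intro h
      have h' : defect Y y = y := h
      rw [defect_apply, sub_eq_self] at h'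
      have h8 : ⟪Y y, Y y⟫_ℝ = 0 := by
        rw [← adjoint_inner_right, h', inner_zero_right]
      exact inner_self_eq_zero.1 h8
    · intro h
      have h' : Y y = 0 := h
      change defect Y y = y
      rw [defect_apply, h', map_zero, sub_zero]
  have h8 : ⟪x, (((defect Y).eqLocus (1 : H →L[ℝ] H)).orthogonalProjectionOnto x : H)⟫_ℝ =
      ‖pj (LinearMap.ker Y.toLinearMap) x‖ ^ 2 := by
    rw [← inner_pj_self]
    congr 1
    symm
    apply pj_eq_of (ker_isClosed Y)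
    · rw [← h7]
      exact Submodule.coe_mem _
    · have h9 := Submodule.sub_starProjection_mem_orthogonal
        (K := (defect Y).eqLocus (1 : H →L[ℝ] H)) x
      rw [← h7]
      exact h9
  rw [← h8, h6]
  exact h1

end Hilb

end Vale.Agent.P143
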