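import Mathlib

set_option linter.unusedSectionVars false
set_option linter.unusedVariables false

open Filter Topology MeasureTheory ProbabilityTheory
open scoped ENNReal

namespace Vale.Agent.P143

section Levy

variable {E : Type*}

/-- Cylinder events determined by the elements of `R`. -/
def cylSet (R : Set E) : Set (Set (Set E)) :=
  {s | ∃ A B : Finset E, (A : Set E) ⊆ R ∧ (B : Set E) ⊆ R ∧
    s = {T | ↑A ⊆ T ∧ Disjoint (B : Set E) T}}

theorem cyl_meas (m : MeasurableSpace (Set E)) (A B : Finset E)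
    (hA : ∀ f ∈ A, MeasurableSet[m] {T : Set E | f ∈ T})
    (hB : ∀ f ∈ B, MeasurableSet[m] {T : Set E | f ∈ T}) :
    MeasurableSet[m] {T : Set E | ↑A ⊆ T ∧ Disjoint (B : Set E) T} := by
  have h1 : {T : Set E | ↑A ⊆ T ∧ Disjoint (B : Set E) T} =
      (⋂ f ∈ A, {T | f ∈ T}) ∩ ⋂ f ∈ B, {T | f ∈ T}ᶜ := by
    ext T
    simp only [Set.mem_ofPred_eq, Set.mem_inter_iff, Set.mem_iInter, Set.subset_def,
      Set.disjoint_left, Set.mem_compl_iff, Finset.mem_coe]
  rw [h1]
  exact (Finset.measurableSet_biInter A hA).inter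
    (Finset.measurableSet_biInter B fun f hf => (hB f hf).compl)

theorem isPiSystem_cylSet (R : Set E) : IsPiSystem (cylSet R) := by
  classical
  rintro s ⟨A, B, hA, hB, rfl⟩ t ⟨A', B', hA', hB', rfl⟩ _
  refine ⟨A ∪ A', B ∪ B', ?_, ?_, ?_⟩
  · rw [Finset.coe_union]; exact Set.union_subset hA hA'
  · rw [Finset.coe_union]; exact Set.union_subset hB hB'
  · ext T
    simp only [Set.mem_inter_iff, Set.mem_ofPred_eq, Finset.coe_union, Set.union_subset_iff,
      Set.disjoint_union_left]
    tauto

theorem mem_meas (f : E) : MeasurableSet {T : Set E | f ∈ T} :=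
  measurableSet_setOfPred.2 (measurable_set_iff.1 measurable_id f)

/-- The sigma-algebra generated by the elements of `R`. -/
@[reducible]
def sigR (R : Set E) : MeasurableSpace (Set E) :=
  MeasurableSpace.comap (fun T => T ∩ R) inferInstance

theorem measurable_interR (R : Set E) : Measurable fun T : Set E => T ∩ R := by
  rw [measurable_set_iff]
  intro f
  have h : MeasurableSet {T : Set E | f ∈ T ∩ R} := (mem_meas f).inter (MeasurableSet.const (f ∈ R))
  exact measurableSet_setOfPred.1 h

theorem sigR_le (R : Set E) : sigR R ≤ (inferInstance : MeasurableSpace (Set E)) :=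
  (measurable_interR R).comap_le

theorem sigR_mono {R R' : Set E} (h : R ⊆ R') : sigR R ≤ sigR R' := by
  unfold sigR
  have h1 : (fun T : Set E => T ∩ R) = (fun T => T ∩ R) ∘ (fun T => T ∩ R') := by
    ext T f
    simp only [Function.comp, Set.mem_inter_iff]
    constructor
    · rintro ⟨h1, h2⟩; exact ⟨⟨h1, h h2⟩, h2⟩
    · rintro ⟨⟨h1, _⟩, h2⟩; exact ⟨h1, h2⟩
  rw [h1, ← MeasurableSpace.comap_comp]
  exact MeasurableSpace.comap_mono (measurable_interR R).comap_le

theorem sigR_mem {R : Set E} {f : E} (hf : f ∈ R) : MeasurableSet[sigR R] {T : Set E | f ∈ T} := by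
  refine ⟨{T | f ∈ T}, mem_meas f, ?_⟩
  ext T
  simp [hf]

theorem measurable_to_set {α β : Type*} [MeasurableSpace β] {g : β → Set α}
    (h : ∀ a, MeasurableSet {x | a ∈ g x}) : Measurable g :=
  measurable_set_iff.2 fun i => measurableSet_setOfPred.1 (h i)

theorem sigR_eq (R : Set E) : sigR R = MeasurableSpace.generateFrom (cylSet R) := by
  apply le_antisymm
  · have h0 : ∀ f : E, MeasurableSet[MeasurableSpace.generateFrom (cylSet R)]
        {T : Set E | f ∈ T ∩ R} := by
      intro f
      by_cases hf : f ∈ R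
      · apply MeasurableSpace.measurableSet_generateFrom
        refine ⟨{f}, ∅, by simpa using hf, by simp, ?_⟩
        ext T
        simp [hf]
      · have : {T : Set E | f ∈ T ∩ R} = ∅ := by
          ext T; simp [hf]
        rw [this]
        exact @MeasurableSet.empty _ (MeasurableSpace.generateFrom (cylSet R))
    have h1 : Measurable[MeasurableSpace.generateFrom (cylSet R)] (fun T : Set E => T ∩ R) :=
      @measurable_to_set E (Set E) (MeasurableSpace.generateFrom (cylSet R)) _ h0
    exact h1.comap_le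
  · apply MeasurableSpace.generateFrom_le
    rintro s ⟨A, B, hA, hB, rfl⟩
    exact cyl_meas _ A B (fun f hf => sigR_mem (hA hf)) (fun f hf => sigR_mem (hB hf))

theorem levy_cond [Countable E] (μ : Measure (Set E)) [IsProbabilityMeasure μ] (e : E)
    (R : ℕ → Set E) (hR : Monotone R) (M : ℕ → Set E → ℝ) (hM : ∀ k, Measurable (M k))
    (hM01 : ∀ k T, M k T ∈ Set.Icc (0:ℝ) 1)
    (hMdep : ∀ k T T', (∀ f ∈ R k, f ∈ T ↔ f ∈ T') → M k T = M k T')
    (hMc : ∀ (k : ℕ) (A B : Finset E), (A : Set E) ⊆ R k → (B : Set E) ⊆ R k →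
      μ.real {T | ↑A ⊆ T ∧ Disjoint (B : Set E) T ∧ e ∈ T} =
        ∫ T in {T | ↑A ⊆ T ∧ Disjoint (B : Set E) T}, M k T ∂μ) :
    (∀ᵐ T ∂μ, Tendsto (fun k => M k T) atTop (𝓝 (limsup (fun k => M k T) atTop))) ∧
    ∀ (A B : Finset E), (A : Set E) ⊆ ⋃ k, R k → (B : Set E) ⊆ ⋃ k, R k →
      μ.real {T | ↑A ⊆ T ∧ Disjoint (B : Set E) T ∧ e ∈ T} =
        ∫ T in {T | ↑A ⊆ T ∧ Disjoint (B : Set E) T}, limsup (fun k => M k T) atTop ∂μ := by
  classical
  set g : Set E → ℝ := {T : Set E | e ∈ T}.indicator (fun _ => 1) with hg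
  have hgi : Integrable g μ := (integrable_const 1).indicator (mem_meas e)
  have hMi : ∀ k, Integrable (M k) μ := fun k => Integrable.of_bound
    (hM k).aestronglyMeasurable 1 (Eventually.of_forall fun T => by
      rw [Real.norm_of_nonneg (hM01 k T).1]; exact (hM01 k T).2)
  have hcylm : ∀ A B : Finset E, MeasurableSet {T : Set E | ↑A ⊆ T ∧ Disjoint (B : Set E) T} :=
    fun A B => cyl_meas _ A B (fun f _ => mem_meas f) (fun f _ => mem_meas f)
  set ℱ : Filtration ℕ (inferInstance : MeasurableSpace (Set E)) :=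
    ⟨fun k => sigR (R k), fun a b hab => sigR_mono (hR hab), fun k => sigR_le (R k)⟩ with hℱ
  have hMeas : ∀ k, Measurable[sigR (R k)] (M k) := by
    intro k
    have h1 : M k = (M k) ∘ (fun T => T ∩ R k) := by
      funext T
      apply hMdep
      intro f hf
      simp [hf]
    rw [h1]
    exact (hM k).comp (comap_measurable _)
  have hcyl : ∀ k (A B : Finset E), (A : Set E) ⊆ R k → (B : Set E) ⊆ R k →
      ∫ T in {T | ↑A ⊆ T ∧ Disjoint (B : Set E) T}, M k T ∂μ =
        ∫ T in {T | ↑A ⊆ T ∧ Disjoint (B : Set E) T}, g T ∂μ := by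
    intro k A B hA hB
    rw [← hMc k A B hA hB, hg, integral_indicator (mem_meas e),
      Measure.restrict_restrict (mem_meas e), setIntegral_const, smul_eq_mul, mul_one]
    congr 1
    ext T
    simp only [Set.mem_ofPred_eq, Set.mem_inter_iff]
    tauto
  have hcond : ∀ k, M k =ᵐ[μ] μ[g | ℱ k] := by
    intro k
    apply ae_eq_condExp_of_forall_setIntegral_eq (sigR_le (R k)) hgi
    · intro s _ _; exact (hMi k).integrableOn
    · have key : ∀ s (hs : MeasurableSet[sigR (R k)] s),
          ∫ x in s, M k x ∂μ = ∫ x in s, g x ∂μ := by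
        apply @MeasurableSpace.induction_on_inter (Set E) (sigR (R k))
          (fun s _ => ∫ x in s, M k x ∂μ = ∫ x in s, g x ∂μ) (cylSet (R k)) (sigR_eq (R k))
          (isPiSystem_cylSet (R k))
        · simp
        · rintro t ⟨A, B, hA, hB, rfl⟩
          exact hcyl k A B hA hB
        · intro t ht h
          have ht' : MeasurableSet t := sigR_le (R k) _ ht
          have huniv := hcyl k ∅ ∅ (by simp) (by simp)
          have hu : {T : Set E | ↑(∅ : Finset E) ⊆ T ∧ Disjoint ((∅ : Finset E) : Set E) T} =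
              Set.univ := by
            ext T; simp
          rw [hu, setIntegral_univ, setIntegral_univ] at huniv
          have h1 := integral_add_compl ht' (hMi k)
          have h2 := integral_add_compl ht' hgi
          linarith
        · intro f hd hf h
          have hf' : ∀ i, MeasurableSet (f i) := fun i => sigR_le (R k) _ (hf i)
          rw [integral_iUnion hf' hd (hMi k).integrableOn, integral_iUnion hf' hd hgi.integrableOn]
          congr 1
          funext i
          exact h i
      intro s hs _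
      exact key s hs
    · exact (hMeas k).stronglyMeasurable.aestronglyMeasurable
  have hconv : ∀ᵐ T ∂μ, Tendsto (fun k => M k T) atTop (𝓝 (limsup (fun k => M k T) atTop)) := by
    have h1 := tendsto_ae_condExp (μ := μ) (ℱ := ℱ) g
    have h2 : ∀ᵐ T ∂μ, ∀ k, M k T = (μ[g | ℱ k]) T := ae_all_iff.2 hcond
    filter_upwards [h1, h2] with T hT1 hT2
    have h3 : Tendsto (fun k => M k T) atTop (𝓝 ((μ[g | ⨆ n, ℱ n]) T)) := by
      simp only [hT2]; exact hT1
    rw [h3.limsup_eq]
    exact h3
  refine ⟨hconv, ?_⟩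
  intro A B hA hB
  have hev : ∀ A : Finset E, (A : Set E) ⊆ ⋃ k, R k → ∀ᶠ k in atTop, (A : Set E) ⊆ R k := by
    intro A hA
    have : ∀ᶠ k in atTop, ∀ f ∈ A, f ∈ R k := by
      rw [Finset.eventually_all]
      intro f hf
      obtain ⟨n, hn⟩ := Set.mem_iUnion.1 (hA hf)
      filter_upwards [eventually_ge_atTop n] with m hm
      exact hR hm hn
    exact this
  have hlim : Tendsto (fun k => ∫ T in {T | ↑A ⊆ T ∧ Disjoint (B : Set E) T}, M k T ∂μ) atTop
      (𝓝 (∫ T in {T | ↑A ⊆ T ∧ Disjoint (B : Set E) T}, limsup (fun k => M k T) atTop ∂μ)) := by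
    apply tendsto_integral_of_dominated_convergence (fun _ => 1)
    · intro k; exact (hM k).aestronglyMeasurable
    · exact integrable_const _
    · intro k
      refine Eventually.of_forall fun T => ?_
      rw [Real.norm_of_nonneg (hM01 k T).1]; exact (hM01 k T).2
    · exact ae_restrict_of_ae hconv
  refine tendsto_nhds_unique ?_ hlim
  refine tendsto_const_nhds.congr' ?_
  filter_upwards [hev A hA, hev B hB] with k hkA hkB
  exact hMc k A B hkA hkB

end Levy

end Vale.Agent.P143
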