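import Vale.Agent.P143_h11.Cycle
import Vale.Agent.P143_h11.Defs
import Vale.Agent.P143_h11.KirchhoffStmt

set_option linter.unusedSectionVars false
set_option linter.unusedVariables false

open Filter Topology MeasureTheory ContinuousLinearMap
open scoped InnerProductSpace ENNReal

namespace Vale.Agent.P143

section Limit

variable {V : Type*}

/-- Conditional probability of absence of `e`, given that the edges in `O` are present and those
in `R \ O` are absent. -/
noncomputable def pcS (G : SimpleGraph V) (R O : Set (Sym2 V)) (e : Sym2 V) : ℝ :=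
  2 * ‖pj (Wc (Zb G.edgeSet) (dd O) (dd (R \ O))) (dl (Quot.out e))‖ ^ 2

theorem pcS_mk (G : SimpleGraph V) (R O : Set (Sym2 V)) (x y : V) :
    pcS G R O s(x, y) = 2 * ‖pj (Wc (Zb G.edgeSet) (dd O) (dd (R \ O))) (dl (x, y))‖ ^ 2 := by
  unfold pcS
  set q := Quot.out (s(x, y)) with hq
  have h : s(q.1, q.2) = s(x, y) := Quot.out_eq s(x, y)
  rcases Sym2.eq_iff.1 h with ⟨h1, h2⟩ | ⟨h1, h2⟩
  · have : q = (x, y) := Prod.ext h1 h2
    rw [this]
  · have : q = (y, x) := Prod.ext h1 h2
    rw [this, pj_dl_swap (isClosed_Wc _ _ _) (Wc_le_Anti _ _ _), norm_neg]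

theorem pcS_nonneg (G : SimpleGraph V) (R O : Set (Sym2 V)) (e : Sym2 V) : 0 ≤ pcS G R O e := by
  unfold pcS; positivity

theorem pcS_le_one (G : SimpleGraph V) (R O : Set (Sym2 V)) (e : Sym2 V) : pcS G R O e ≤ 1 := by
  induction e using Sym2.inductionOn with
  | hf x y =>
    rw [pcS_mk]
    exact two_norm_pj_le (isClosed_Wc _ _ _) (Wc_le_Anti _ _ _) x y

/-- Finitely supported element. -/
noncomputable def ofFin {ι : Type*} (s : Finset ι) (f : ι → ℝ) : L2 ι := ∑ i ∈ s, f i • dl i

theorem ofFin_apply {ι : Type*} [DecidableEq ι] (s : Finset ι) (f : ι → ℝ) (i : ι) :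
    ofFin s f i = if i ∈ s then f i else 0 := by
  unfold ofFin
  rw [lp.coeFn_sum, Finset.sum_apply]
  simp only [lp.coeFn_smul, Pi.smul_apply, smul_eq_mul]
  by_cases h : i ∈ s
  · rw [if_pos h, Finset.sum_eq_single i]
    · rw [dl_self, mul_one]
    · intro j _ hj
      rw [dl_ne (Ne.symm hj), mul_zero]
    · intro h2; exact absurd h h2
  · rw [if_neg h]
    apply Finset.sum_eq_zero
    intro j hj
    rw [dl_ne, mul_zero]
    rintro rfl
    exact h hj

/-- The projected cycle space of a finite subgraph. -/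
noncomputable def Wfin (E : Set (Sym2 V)) (O C : Set (Sym2 V)) : Submodule ℝ (L2 (V × V)) :=
  (Submodule.map (pj (Lz (dd O))).toLinearMap (cyc E ⊓ Lz (dd C))).topologicalClosure

theorem isClosed_Wfin (E O C : Set (Sym2 V)) :
    IsClosed ((Wfin E O C : Submodule ℝ (L2 (V × V))) : Set (L2 (V × V))) :=
  Submodule.isClosed_topologicalClosure _

theorem Wfin_le_Wc {E E' : Set (Sym2 V)} (h : E ⊆ E') (O C : Set (Sym2 V)) :
    Wfin E O C ≤ Wc (Zb E') (dd O) (dd C) := by
  apply Submodule.topologicalClosure_minimal _ _ (isClosed_Wc _ _ _)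
  rintro _ ⟨z, hz, rfl⟩
  apply pj_mem_compress (isClosed_Lz _)
  exact ⟨Submodule.le_topologicalClosure _ (cyc_mono h hz.1), hz.2⟩

theorem Wfin_le_Anti (E O C : Set (Sym2 V)) : Wfin E O C ≤ Anti :=
  (Wfin_le_Wc (le_refl E) O C).trans (Wc_le_Anti _ _ _)

theorem tendsto_Wfin {E : ℕ → Set (Sym2 V)} (hE : Monotone E) (O : Set (Sym2 V))
    {C : Set (Sym2 V)} (hC : (dd C).Finite) (x : L2 (V × V)) :
    Tendsto (fun n => pj (Wfin (E n) O C) x) atTop
      (𝓝 (pj (Wc (Zb (⋃ n, E n)) (dd O) (dd C)) x)) := by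
  have hmono : Monotone fun n => Wfin (E n) O C := by
    intro m n hmn
    apply Submodule.topologicalClosure_mono
    apply Submodule.map_mono
    exact inf_le_inf_right _ (cyc_mono (hE hmn))
  have h := Submodule.starProjection_tendsto_closure_iSup
      (fun n => (Wfin (E n) O C).topologicalClosure)
      (fun m n hmn => Submodule.topologicalClosure_mono (hmono hmn)) x
  have h2 : (⨆ n, (Wfin (E n) O C).topologicalClosure).topologicalClosure =
      (Wc (Zb (⋃ n, E n)) (dd O) (dd C)).topologicalClosure := by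
    rw [closure_eq_of_closed (isClosed_Wc _ _ _)]
    apply le_antisymm
    · apply Submodule.topologicalClosure_minimal _ _ (isClosed_Wc _ _ _)
      apply iSup_le
      intro n
      rw [closure_eq_of_closed (isClosed_Wfin _ _ _)]
      exact Wfin_le_Wc (Set.subset_iUnion E n) O C
    · apply compress_le_closure (isClosed_Lz _) (Submodule.isClosed_topologicalClosure _)
      intro s hs
      have h3 : s ∈ (cyc (⋃ n, E n) ⊓ Lz (dd C)).topologicalClosure := closure_inf_Lz hC hs
      refine map_mem_closure (f := fun y : L2 (V × V) => pj (Lz (dd O)) y)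
        (pj (Lz (dd O))).continuous h3 ?_
      rintro y ⟨hy1, hy2⟩
      obtain ⟨n, hn⟩ := cyc_iUnion hE hy1
      have h4 : (Wfin (E n) O C).topologicalClosure ≤
        ⨆ n, (Wfin (E n) O C).topologicalClosure := le_iSup
          (fun n => (Wfin (E n) O C).topologicalClosure) n
      apply h4
      apply Submodule.le_topologicalClosure
      apply Submodule.le_topologicalClosure
      exact ⟨y, ⟨hn, hy2⟩, rfl⟩
  unfold pj
  rw [← starProjection_congr h2 x]
  exact h

/-- Kirchhoff's formula in terms of projections. -/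
theorem ust_cond [DecidableEq V] {G : SimpleGraph V} (H : G.Subgraph) (hfin : H.verts.Finite)
    (O C : Set (Sym2 V)) {x y : V} (he : s(x, y) ∈ H.edgeSet) (hO : s(x, y) ∉ O)
    (hC : s(x, y) ∉ C) :
    ustProb H (fun T => O ⊆ T ∧ Disjoint C T ∧ s(x, y) ∉ T) =
      2 * ‖pj (Wfin H.edgeSet O C) (dl (x, y))‖ ^ 2 *
        ustProb H (fun T => O ⊆ T ∧ Disjoint C T) := by
  classical
  have hEfin : H.edgeSet.Finite := by
    have : H.edgeSet ⊆ (fun p : V × V => s(p.1, p.2)) '' (H.verts ×ˢ H.verts) := by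
      intro e he
      induction e using Sym2.inductionOn with
      | hf a b =>
        have hab : H.Adj a b := he
        exact ⟨(a, b), ⟨H.edge_vert hab, H.edge_vert hab.symm⟩, rfl⟩
    exact ((hfin.prod hfin).image _).subset this
  set W := hfin.toFinset with hW
  set E := hEfin.toFinset with hE
  have hST : ∀ T, IsST W E T ↔ IsSpanningTree H T := by
    intro T
    unfold IsST IsSpanningTree
    simp [hW, hE]
  have hfinT : {T | IsSpanningTree H T}.Finite := by
    refine (hEfin.finite_subsets).subset ?_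
    intro T hT
    exact hT.1
  set N : Set (Set (Sym2 V)) := {T | IsSpanningTree H T ∧ O ⊆ T ∧ Disjoint C T} with hN
  set N1 : Set (Set (Sym2 V)) := {T | IsSpanningTree H T ∧ O ⊆ T ∧ Disjoint C T ∧ s(x, y) ∈ T}
    with hN1
  set N0 : Set (Set (Sym2 V)) := {T | IsSpanningTree H T ∧ O ⊆ T ∧ Disjoint C T ∧ s(x, y) ∉ T}
    with hN0
  have hNfin : N.Finite := hfinT.subset (fun T hT => hT.1)
  have hN1fin : N1.Finite := hNfin.subset (fun T hT => ⟨hT.1, hT.2.1, hT.2.2.1⟩)
  have hN0fin : N0.Finite := hNfin.subset (fun T hT => ⟨hT.1, hT.2.1, hT.2.2.1⟩)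
  have hdisj : Disjoint N1 N0 := by
    rw [Set.disjoint_left]
    rintro T ⟨_, _, _, h1⟩ ⟨_, _, _, h2⟩
    exact h2 h1
  have hcard : N.ncard = N1.ncard + N0.ncard := by
    rw [← Set.ncard_union_eq hdisj hN1fin hN0fin]
    congr 1
    ext T
    simp only [hN, hN1, hN0, Set.mem_ofPred_eq, Set.mem_union]
    tauto
  unfold ustProb
  rw [← mul_div_assoc]
  congr 1
  change (N0.ncard : ℝ) = 2 * ‖pj (Wfin H.edgeSet O C) (dl (x, y))‖ ^ 2 * (N.ncard : ℝ)
  by_cases hne : N.Nonempty
  swap
  · rw [Set.not_nonempty_iff_eq_empty] at hne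
    have h0 : N.ncard = 0 := by rw [hne, Set.ncard_empty]
    have h1 : N0.ncard = 0 := by omega
    rw [h0, h1]; simp
  obtain ⟨T0, hT0⟩ := hne
  have hEW : ∀ e ∈ E, ∀ v ∈ e, v ∈ W := by
    intro e he v hv
    rw [hE, Set.Finite.mem_toFinset] at he
    rw [hW, Set.Finite.mem_toFinset]
    exact H.mem_verts_of_mem_edge he hv
  have hdiag : ∀ e ∈ E, ¬ e.IsDiag := by
    intro e he
    rw [hE, Set.Finite.mem_toFinset] at he
    exact G.not_isDiag_of_mem_edgeSet (H.edgeSet_subset he)
  have hxyE : s(x, y) ∈ E := by rw [hE, Set.Finite.mem_toFinset]; exact he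
  obtain ⟨θ, g, hanti, hsupp, hθC, hdiv, hgrad, hgO, hθe⟩ :=
    kirchhoff W E hEW hdiag O C hxyE hO hC ⟨T0, (hST T0).2 hT0.1, hT0.2.1, hT0.2.2⟩
  have hxy : x ≠ y := by
    rintro rfl
    exact hdiag _ hxyE (by simp)
  have hNpos : (0 : ℝ) < N.ncard := by
    have : 0 < N.ncard := (Set.ncard_pos hNfin).2 ⟨T0, hT0⟩
    exact_mod_cast this
  have hN1e : {T | IsST W E T ∧ O ⊆ T ∧ Disjoint C T ∧ s(x, y) ∈ T} = N1 := by
    ext T; simp only [hN1, Set.mem_ofPred_eq, hST]
  have hNe : {T | IsST W E T ∧ O ⊆ T ∧ Disjoint C T} = N := by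
    ext T; simp only [hN, Set.mem_ofPred_eq, hST]
  rw [hN1e, hNe] at hθe
  -- vectors
  set th : L2 (V × V) := ofFin (W ×ˢ W) (fun i => θ i.1 i.2) with hth
  have hmemE : ∀ a b, s(a, b) ∈ E → a ∈ W ∧ b ∈ W := fun a b hab =>
    ⟨hEW _ hab a (Sym2.mem_mk_left a b), hEW _ hab b (Sym2.mem_mk_right a b)⟩
  have hthv : ∀ a b, th (a, b) = θ a b := by
    intro a b
    rw [hth, ofFin_apply]
    split_ifs with h
    · rfl
    · symm
      apply hsupp
      intro hab
      exact h (Finset.mem_product.2 (hmemE a b hab))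
  set u : L2 (V × V) := dl (x, y) - dl (y, x) with hu
  have huv : ∀ a b, u (a, b) = (if (a, b) = (x, y) then 1 else 0) -
      (if (a, b) = (y, x) then 1 else 0) := by
    intro a b
    rw [hu, lp.coeFn_sub, Pi.sub_apply]
    congr 1
    · split_ifs with h
      · rw [h, dl_self]
      · rw [dl_ne h]
    · split_ifs with h
      · rw [h, dl_self]
      · rw [dl_ne h]
  have hu0 : ∀ a b, s(a, b) ≠ s(x, y) → u (a, b) = 0 := by
    intro a b hab
    rw [huv, if_neg, if_neg, sub_zero]
    · rintro h; obtain ⟨rfl, rfl⟩ := Prod.mk.inj h; exact hab Sym2.eq_swap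
    · rintro h; obtain ⟨rfl, rfl⟩ := Prod.mk.inj h; exact hab rfl
  set z : L2 (V × V) := u - th with hz
  have hzv : ∀ a b, z (a, b) = u (a, b) - θ a b := by
    intro a b; rw [hz, lp.coeFn_sub, Pi.sub_apply, hthv]
  have hzsupp : ∀ a b, s(a, b) ∉ E → z (a, b) = 0 := by
    intro a b hab
    rw [hzv, hsupp a b hab, hu0, sub_zero]
    intro h; rw [h] at hab; exact hab hxyE
  have hzfin : ∀ (f : L2 (V × V)), (∀ a b, s(a, b) ∉ E → f (a, b) = 0) →
      (Function.support fun i => f i).Finite := by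
    intro f hf
    refine (W ×ˢ W).finite_toSet.subset ?_
    rintro ⟨a, b⟩ hab
    by_contra hcon
    apply hab
    apply hf
    intro h
    exact hcon (Finset.mem_coe.2 (Finset.mem_product.2 (hmemE a b h)))
  have hzcyc : z ∈ cyc H.edgeSet := by
    refine ⟨hzfin z hzsupp, ?_, ?_, ?_⟩
    · intro a b
      rw [hzv, hzv, huv, huv, hanti a b]
      have e1 : ((a, b) = (x, y)) ↔ ((b, a) = (y, x)) := by
        rw [Prod.mk.injEq, Prod.mk.injEq]; tauto
      have e2 : ((a, b) = (y, x)) ↔ ((b, a) = (x, y)) := by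
        rw [Prod.mk.injEq, Prod.mk.injEq]; tauto
      simp only [e1, e2]
      ring
    · intro a b hab
      apply hzsupp
      rw [hE, Set.Finite.mem_toFinset]; exact hab
    · intro a
      have h1 : (fun b => z (a, b)) = fun b => u (a, b) - θ a b := by ext b; exact hzv a b
      have h2 : ∑ᶠ b, z (a, b) = ∑ b ∈ W, z (a, b) := by
        apply finsum_eq_sum_of_support_subset
        intro b hb
        by_contra hcon
        apply hb
        apply hzsupp
        intro h
        exact hcon (Finset.mem_coe.2 (hmemE a b h).2)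
      rw [h2]
      simp only [hzv, Finset.sum_sub_distrib]
      rw [hdiv a]
      have hxW := (hmemE x y hxyE).1
      have hyW := (hmemE x y hxyE).2
      have h3 : ∑ b ∈ W, u (a, b) = (if a = x then 1 else 0) - (if a = y then 1 else 0) := by
        simp only [huv, Finset.sum_sub_distrib, Prod.mk.injEq]
        congr 1
        · by_cases hax : a = x
          · simp [hax, hyW]
          · simp [hax]
        · by_cases hay : a = y
          · simp [hay, hxW]
          · simp [hay]
      rw [h3, sub_self]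
  have hzC : z ∈ (Lz (dd C) : Submodule ℝ (L2 (V × V))) := by
    rintro ⟨a, b⟩ hab
    have hab' : s(a, b) ∈ C := hab
    rw [hzv, hθC a b hab', hu0, sub_zero]
    intro h; rw [h] at hab'; exact hC hab'
  have huO : u ∈ (Lz (dd O) : Submodule ℝ (L2 (V × V))) := by
    rintro ⟨a, b⟩ hab
    have hab' : s(a, b) ∈ O := hab
    apply hu0
    intro h; rw [h] at hab'; exact hO hab'
  -- the projection
  have hproj : pj (Wfin H.edgeSet O C) u = pj (Lz (dd O)) z := by
    apply pj_eq_of (isClosed_Wfin _ _ _)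
    · exact Submodule.le_topologicalClosure _ ⟨z, ⟨hzcyc, hzC⟩, rfl⟩
    · have h1 : u - pj (Lz (dd O)) z = pj (Lz (dd O)) th := by
        rw [hz, map_sub, (pj_eq_self (isClosed_Lz _)).2 huO, sub_sub_cancel]
      rw [h1, Submodule.mem_orthogonal]
      intro w hw
      -- closedness: enough for w in the image
      have h2 : (Submodule.map (pj (Lz (dd O))).toLinearMap (cyc H.edgeSet ⊓ Lz (dd C))) ≤
          (Submodule.span ℝ {pj (Lz (dd O)) th})ᗮ := by
        rintro _ ⟨z', ⟨hz'1, hz'2⟩, rfl⟩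
        rw [Submodule.mem_orthogonal_singleton_iff_inner_left]
        change ⟪pj (Lz (dd O)) z', pj (Lz (dd O)) th⟫_ℝ = 0
        obtain ⟨c1, c2, c3, c4⟩ := hz'1
        rw [inner_pj, pj_pj]
        refine (hasSum_inner_L2 z' (pj (Lz (dd O)) th)).unique ?_
        have h3 : (fun i : V × V => z' i * pj (Lz (dd O)) th i) =
            fun i => if i ∈ W ×ˢ W then z' i * (g i.1 - g i.2) else 0 := by
          ext ⟨a, b⟩
          rw [pj_Lz]
          by_cases hab : s(a, b) ∈ E
          · rw [if_pos (Finset.mem_product.2 (hmemE a b hab))]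
            by_cases hOab : s(a, b) ∈ O
            · rw [rs_notMem (Set.notMem_compl_iff.2 (show (a, b) ∈ dd O from hOab)), mul_zero,
                hgO a b hab hOab, sub_self, mul_zero]
            · rw [rs_mem (Set.mem_compl (show (a, b) ∉ dd O from hOab)), hthv]
              by_cases hCab : s(a, b) ∈ C
              · rw [hz'2 (a, b) hCab, zero_mul, zero_mul]
              · rw [hgrad a b hab hOab hCab]
          · have : z' (a, b) = 0 := by
              apply c3
              intro h
              apply hab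
              rw [hE, Set.Finite.mem_toFinset]; exact h
            rw [this]; simp
        rw [h3]
        have h4 : ∑ i ∈ W ×ˢ W, z' i * (g i.1 - g i.2) = 0 := by
          rw [Finset.sum_product]
          have hdiv' : ∀ a, ∑ b ∈ W, z' (a, b) = 0 := by
            intro a
            rw [← c4 a]
            symm
            apply finsum_eq_sum_of_support_subset
            intro b hb
            by_contra hcon
            apply hb
            apply c3
            intro h
            have h' : s(a, b) ∈ E := by rw [hE, Set.Finite.mem_toFinset]; exact h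
            exact hcon (Finset.mem_coe.2 (hmemE a b h').2)
          have e1 : ∑ a ∈ W, ∑ b ∈ W, z' (a, b) * (g a - g b) =
              ∑ a ∈ W, g a * ∑ b ∈ W, z' (a, b) - ∑ a ∈ W, ∑ b ∈ W, z' (a, b) * g b := by
            rw [← Finset.sum_sub_distrib]
            apply Finset.sum_congr rfl
            intro a _
            rw [Finset.mul_sum, ← Finset.sum_sub_distrib]
            apply Finset.sum_congr rfl
            intro b _
            ring
          have e2 : ∑ a ∈ W, ∑ b ∈ W, z' (a, b) * g b = - ∑ b ∈ W, g b * ∑ a ∈ W, z' (b, a) := by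
            rw [Finset.sum_comm, ← Finset.sum_neg_distrib]
            apply Finset.sum_congr rfl
            intro b _
            rw [Finset.mul_sum, ← Finset.sum_neg_distrib]
            apply Finset.sum_congr rfl
            intro a _
            rw [c2 a b]; ring
          rw [e1, e2]
          simp [hdiv']
        have h5 := hasSum_sum_of_ne_finset_zero
          (f := fun i : V × V => if i ∈ W ×ˢ W then z' i * (g i.1 - g i.2) else 0)
          (s := W ×ˢ W) (L := SummationFilter.unconditional _) (fun b hb => if_neg hb)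
        have h6 : ∑ i ∈ W ×ˢ W, (if i ∈ W ×ˢ W then z' i * (g i.1 - g i.2) else 0) = 0 := by
          rw [← h4]
          apply Finset.sum_congr rfl
          intro i hi
          rw [if_pos hi]
        rw [h6] at h5
        exact h5
      have h5 : (Wfin H.edgeSet O C) ≤ (Submodule.span ℝ {pj (Lz (dd O)) th})ᗮ :=
        Submodule.topologicalClosure_minimal _ h2 (Submodule.isClosed_orthogonal _)
      exact Submodule.mem_orthogonal_singleton_iff_inner_left.1 (h5 hw)
  have hnorm : ‖pj (Wfin H.edgeSet O C) u‖ ^ 2 = 2 - 2 * θ x y := by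
    rw [← inner_pj_self, hproj, ← inner_pj, (pj_eq_self (isClosed_Lz _)).2 huO, hz,
      inner_sub_right]
    have e1 : ⟪u, u⟫_ℝ = 2 := by
      rw [hu, inner_sub_left, inner_sub_right, inner_sub_right, inner_dl_left, inner_dl_left,
        inner_dl_left, inner_dl_left, dl_self, dl_self, dl_ne, dl_ne]
      · norm_num
      · intro h; exact hxy (Prod.mk.inj h).2
      · intro h; exact hxy (Prod.mk.inj h).1
    have e2 : ⟪u, th⟫_ℝ = 2 * θ x y := by
      rw [hu, inner_sub_left, inner_dl_left, inner_dl_left, hthv, hthv, hanti y x]; ring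
    rw [e1, e2]
  have hnorm2 : ‖pj (Wfin H.edgeSet O C) u‖ ^ 2 =
      4 * ‖pj (Wfin H.edgeSet O C) (dl (x, y))‖ ^ 2 := by
    have e1 : pj (Wfin H.edgeSet O C) u = (2 : ℝ) • pj (Wfin H.edgeSet O C) (dl (x, y)) := by
      rw [hu, map_sub, pj_dl_swap (isClosed_Wfin _ _ _) (Wfin_le_Anti _ _ _) x y, sub_neg_eq_add,
        two_smul]
    rw [e1, norm_smul, mul_pow, Real.norm_ofNat]
    norm_num
  have hfinal : 2 * ‖pj (Wfin H.edgeSet O C) (dl (x, y))‖ ^ 2 = 1 - θ x y := by linarith
  rw [hfinal, hθe, sub_mul, one_mul, div_mul_cancel₀ _ (ne_of_gt hNpos)]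
  rw [hcard]; push_cast; ring

theorem ustProb_nonneg {G : SimpleGraph V} (H : G.Subgraph) (p : Set (Sym2 V) → Prop) :
    0 ≤ ustProb H p := by
  unfold ustProb; positivity

theorem subgraph_edgeSet_finite {G : SimpleGraph V} (H : G.Subgraph) (hfin : H.verts.Finite) :
    H.edgeSet.Finite := by
  have : H.edgeSet ⊆ (fun p : V × V => s(p.1, p.2)) '' (H.verts ×ˢ H.verts) := by
    intro e he
    induction e using Sym2.inductionOn with
    | hf a b =>
      have hab : H.Adj a b := he
      exact ⟨(a, b), ⟨H.edge_vert hab, H.edge_vert hab.symm⟩, rfl⟩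
  exact ((hfin.prod hfin).image _).subset this

theorem finite_spanningTrees {G : SimpleGraph V} (H : G.Subgraph) (hfin : H.verts.Finite) :
    {T | IsSpanningTree H T}.Finite := by
  refine ((subgraph_edgeSet_finite H hfin).finite_subsets).subset ?_
  intro T hT
  exact hT.1

theorem ustProb_le_one {G : SimpleGraph V} (H : G.Subgraph) (hfin : H.verts.Finite)
    (p : Set (Sym2 V) → Prop) : ustProb H p ≤ 1 := by
  unfold ustProb
  apply div_le_one_of_le₀ _ (Nat.cast_nonneg _)
  have : {T | IsSpanningTree H T ∧ p T}.ncard ≤ {T | IsSpanningTree H T}.ncard :=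
    Set.ncard_le_ncard (fun T hT => hT.1) (finite_spanningTrees H hfin)
  exact_mod_cast this

theorem IsExhaustion.edgeSet_mono {G : SimpleGraph V} {H : ℕ → G.Subgraph} (hH : IsExhaustion H) :
    Monotone fun n => (H n).edgeSet := by
  intro m n hmn
  exact SimpleGraph.Subgraph.edgeSet_mono (hH.mono hmn)

theorem IsExhaustion.iUnion_edgeSet {G : SimpleGraph V} {H : ℕ → G.Subgraph}
    (hH : IsExhaustion H) : ⋃ n, (H n).edgeSet = G.edgeSet := by
  rw [← SimpleGraph.Subgraph.edgeSet_iSup, hH.iSup_eq_top, SimpleGraph.Subgraph.edgeSet_top]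

/-- The asymptotic conditional probabilities of the uniform spanning trees. -/
theorem ust_lim (G : SimpleGraph V) (H : ℕ → G.Subgraph) (hH : IsExhaustion H)
    (O C : Finset (Sym2 V)) (e : Sym2 V) (he : e ∈ G.edgeSet) (heO : e ∉ O) (heC : e ∉ C)
    (hOC : Disjoint O C) :
    Tendsto (fun n => ustProb (H n) (fun T => ↑O ⊆ T ∧ Disjoint (C : Set (Sym2 V)) T ∧ e ∉ T) -
      pcS G (↑O ∪ ↑C) ↑O e * ustProb (H n) (fun T => ↑O ⊆ T ∧ Disjoint (C : Set (Sym2 V)) T))
      atTop (𝓝 0) := by
  classical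
  induction e using Sym2.inductionOn with
  | hf x y =>
    have hset : ((O : Set (Sym2 V)) ∪ ↑C) \ ↑O = ↑C := by
      ext f
      simp only [Set.mem_sdiff, Set.mem_union, Finset.mem_coe]
      constructor
      · rintro ⟨h1 | h1, h2⟩
        · exact absurd h1 h2
        · exact h1
      · intro h1
        exact ⟨Or.inr h1, fun h2 => Finset.disjoint_left.1 hOC h2 h1⟩
    rw [pcS_mk, hset]
    have hfin : (dd (C : Set (Sym2 V))).Finite := by
      have h1 : (dd (C : Set (Sym2 V))) ⊆ ⋃ e ∈ C, {i : V × V | s(i.1, i.2) = e} := by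
        intro i hi
        simp only [Set.mem_iUnion]
        exact ⟨s(i.1, i.2), hi, rfl⟩
      refine Set.Finite.subset (Set.Finite.biUnion C.finite_toSet (fun e _ => ?_)) h1
      induction e using Sym2.inductionOn with
      | hf a b =>
        refine (Set.Finite.subset (Set.toFinite {(a, b), (b, a)}) ?_)
        rintro ⟨c, d⟩ h
        rcases Sym2.eq_iff.1 h with ⟨h1, h2⟩ | ⟨h1, h2⟩
        · left; exact Prod.ext h1 h2
        · right; exact Prod.ext h1 h2
    have h1 := tendsto_Wfin hH.edgeSet_mono (O : Set (Sym2 V)) hfin (dl (x, y))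
    rw [hH.iUnion_edgeSet] at h1
    have h2 : Tendsto (fun n => 2 * ‖pj (Wfin (H n).edgeSet ↑O ↑C) (dl (x, y))‖ ^ 2 -
        2 * ‖pj (Wc (Zb G.edgeSet) (dd ↑O) (dd ↑C)) (dl (x, y))‖ ^ 2) atTop (𝓝 0) := by
      have h3 := ((h1.norm.pow 2).const_mul 2).sub_const
        (2 * ‖pj (Wc (Zb G.edgeSet) (dd ↑O) (dd ↑C)) (dl (x, y))‖ ^ 2)
      rwa [sub_self] at h3
    obtain ⟨n0, hn0⟩ : ∃ n0, s(x, y) ∈ (H n0).edgeSet := by
      have : s(x, y) ∈ ⋃ n, (H n).edgeSet := by rw [hH.iUnion_edgeSet]; exact he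
      exact Set.mem_iUnion.1 this
    have h3 : ∀ᶠ n in atTop, ustProb (H n) (fun T => ↑O ⊆ T ∧ Disjoint (C : Set (Sym2 V)) T ∧
        s(x, y) ∉ T) - 2 * ‖pj (Wc (Zb G.edgeSet) (dd ↑O) (dd ↑C)) (dl (x, y))‖ ^ 2 *
        ustProb (H n) (fun T => ↑O ⊆ T ∧ Disjoint (C : Set (Sym2 V)) T) =
        (2 * ‖pj (Wfin (H n).edgeSet ↑O ↑C) (dl (x, y))‖ ^ 2 -
        2 * ‖pj (Wc (Zb G.edgeSet) (dd ↑O) (dd ↑C)) (dl (x, y))‖ ^ 2) *
        ustProb (H n) (fun T => ↑O ⊆ T ∧ Disjoint (C : Set (Sym2 V)) T) := by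
      filter_upwards [eventually_ge_atTop n0] with n hn
      rw [ust_cond (H n) (hH.finite n) ↑O ↑C (hH.edgeSet_mono hn hn0) heO heC]
      ring
    refine Tendsto.congr' (EventuallyEq.symm h3) ?_
    rw [tendsto_zero_iff_abs_tendsto_zero] at h2 ⊢
    refine squeeze_zero (fun n => abs_nonneg _) (fun n => ?_) h2
    simp only [Function.comp]
    rw [abs_mul, abs_of_nonneg (ustProb_nonneg _ _)]
    exact mul_le_of_le_one_right (abs_nonneg _) (ustProb_le_one _ (hH.finite n) _)

end Limit

end Vale.Agent.P143
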