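import Vale.Agent.P143_h11.Rho

set_option linter.unusedSectionVars false
set_option linter.unusedVariables false

open Filter Topology MeasureTheory ProbabilityTheory
open scoped InnerProductSpace ENNReal

namespace Vale.Agent.P143

open Vale.Agent.P143C (vlab unif)

theorem infinitePi_reindex {ι Y : Type*} [MeasurableSpace Y] (ν : Measure Y)
    [IsProbabilityMeasure ν] (e : ι ≃ ι) :
    (Measure.infinitePi fun _ : ι => ν).map (fun x i => x (e i)) =
      Measure.infinitePi fun _ : ι => ν := by
  classical
  have hm : Measurable fun (x : ι → Y) i => x (e i) :=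
    measurable_pi_lambda _ fun i => measurable_pi_apply (e i)
  apply Measure.eq_infinitePi
  intro s t ht
  rw [Measure.map_apply hm (MeasurableSet.pi s.countable_toSet fun i _ => ht i)]
  have h1 : (fun (x : ι → Y) i => x (e i)) ⁻¹' (Set.pi (s : Set ι) t) =
      Set.pi ((s.map e.toEmbedding : Finset ι) : Set ι) (fun i => t (e.symm i)) := by
    ext x
    simp only [Set.mem_preimage, Set.mem_pi, Finset.coe_map, Set.mem_image, Finset.mem_coe,
      Equiv.coe_toEmbedding]
    constructor
    · rintro h _ ⟨i, hi, rfl⟩
      rw [Equiv.symm_apply_apply]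
      exact h i hi
    · intro h i hi
      have := h (e i) ⟨i, hi, rfl⟩
      rwa [Equiv.symm_apply_apply] at this
  rw [h1, Measure.infinitePi_pi]
  · rw [Finset.prod_map]
    apply Finset.prod_congr rfl
    intro i _
    rw [Equiv.coe_toEmbedding, Equiv.symm_apply_apply]
  · intro i _
    exact ht _

section Mtp

variable {V : Type*} [Countable V] [MeasurableSpace V] [DiscreteMeasurableSpace V]

/-- Permutation of the unordered pairs. -/
def sym2Equiv (g : Equiv.Perm V) : Sym2 V ≃ Sym2 V where
  toFun e := e.map g
  invFun e := e.map g.symm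
  left_inv e := map_symm_map g e
  right_inv e := map_map_symm g e

theorem nuX_act (g : Equiv.Perm V) : (nuX V).map (actL g) = nuX V :=
  infinitePi_reindex (expMeasure 1) (sym2Equiv g).symm

theorem nuU_act (g : Equiv.Perm V) : (nuU V).map (actL g) = nuU V :=
  infinitePi_reindex unif (sym2Equiv g).symm

theorem measurable_actL (g : Equiv.Perm V) : Measurable (actL g) :=
  measurable_pi_lambda _ fun e => measurable_pi_apply _

theorem measurable_actT (g : Equiv.Perm V) : Measurable (actT g) :=
  measurable_set_of' fun e => measurable_mem_iff' measurable_id _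

theorem measurable_actG (g : Equiv.Perm V) : Measurable (actG (V := V) g) := by
  apply measurable_graph_of
  intro u v
  have : {G : SimpleGraph V | (actG g G).Adj u v} =
      {G : SimpleGraph V | G.Adj (g.symm u) (g.symm v)} := by
    ext G
    have := actG_adj g G (g.symm u) (g.symm v)
    rwa [Equiv.apply_symm_apply, Equiv.apply_symm_apply] at this
  rw [this]
  exact measurable_adj measurable_id _ _

variable {S : SimpleGraph V → (ℕ → ℝ) → Set (Sym2 V)}

theorem kap_act (hS : Measurable fun p : SimpleGraph V × (ℕ → ℝ) => S p.1 p.2)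
    (hF : ∀ G : SimpleGraph V, G.Connected → IsFUSF G (kap S G)) (g : Equiv.Perm V)
    {G : SimpleGraph V} (hG : G.Connected) : kap S (actG g G) = (kap S G).map (actT g) := by
  have h1 := hF (actG g G) ((connected_act g G).2 hG)
  have h2 := (hF G hG).map_perm g
  have h3 : (fun T : Set (Sym2 V) => Sym2.map g '' T) = actT g := by
    ext T e
    constructor
    · rintro ⟨f, hf, rfl⟩
      exact (mem_actT g T f).2 hf
    · intro he
      exact ⟨e.map g.symm, he, map_map_symm g e⟩
  rw [h3] at h2
  exact h1.unique (exists_exhaustion _ ((connected_act g G).2 hG)) h2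

theorem mtp_rho (P : Measure (SimpleGraph V × V)) [IsProbabilityMeasure P] (hP : IsUnimodular P)
    (hconn : ∀ᵐ p ∂P, p.1.Connected)
    (hS : Measurable fun p : SimpleGraph V × (ℕ → ℝ) => S p.1 p.2)
    (hF : ∀ G : SimpleGraph V, G.Connected → IsFUSF G (kap S G)) : MTP actO (rho P S) := by
  classical
  intro F hFm hFe
  have hprob : ∀ G, IsProbabilityMeasure (kap S G) := kap_prob hS
  set f : SimpleGraph V → V → V → ℝ≥0∞ := fun G u v => if G.Connected then
    ∫⁻ y, F (G, y.1, S G y.2.1, y.2.2) u v ∂((nuX V).prod (nuN.prod (nuU V))) else 0 with hf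
  have hmS : Measurable fun y : SimpleGraph V × (Lab V × ((ℕ → ℝ) × Lab V)) =>
      ((y.1, y.2.1, S y.1 y.2.2.1, y.2.2.2) : Om V) := by
    have h1 : Measurable fun y : SimpleGraph V × (Lab V × ((ℕ → ℝ) × Lab V)) => S y.1 y.2.2.1 :=
      hS.comp (measurable_fst.prodMk measurable_snd.snd.fst)
    exact measurable_fst.prodMk (measurable_snd.fst.prodMk (h1.prodMk measurable_snd.snd.snd))
  have hfm : ∀ u v, Measurable fun G => f G u v := by
    intro u v
    refine Measurable.ite measurableSet_connected ?_ measurable_const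
    exact Measurable.lintegral_prod_right' ((hFm u v).comp hmS)
  have hM : ∀ (G : SimpleGraph V) (h : Om V → ℝ≥0∞), Measurable h →
      ∫⁻ y, h (G, y.1, S G y.2.1, y.2.2) ∂((nuX V).prod (nuN.prod (nuU V))) =
      ∫⁻ z, h (G, z.1, z.2.1, z.2.2) ∂((nuX V).prod ((kap S G).prod (nuU V))) := by
    intro G h hh
    have e1 : (nuX V).prod ((kap S G).prod (nuU V)) =
        ((nuX V).prod (nuN.prod (nuU V))).map (Prod.map id (Prod.map (S G) id)) := by
      rw [kap_prod hS, ← Measure.map_prod_map _ _ measurable_id
        ((measurable_S hS G).prodMap measurable_id), Measure.map_id]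
    rw [e1, lintegral_map]
    · rfl
    · exact hh.comp (measurable_const.prodMk (measurable_fst.prodMk
        (measurable_snd.fst.prodMk measurable_snd.snd)))
    · exact measurable_id.prodMap ((measurable_S hS G).prodMap measurable_id)
  have hfe : ∀ (g : Equiv.Perm V) (G : SimpleGraph V) (u v : V),
      f (G.map g.toEmbedding) (g u) (g v) = f G u v := by
    intro g G u v
    change f (actG g G) (g u) (g v) = f G u v
    simp only [hf]
    by_cases hG : G.Connected
    · rw [if_pos hG, if_pos ((connected_act g G).2 hG), hM _ (fun ω => F ω (g u) (g v)) (hFm _ _),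
        hM _ (fun ω => F ω u v) (hFm _ _)]
      have e2 : (nuX V).prod ((kap S (actG g G)).prod (nuU V)) =
          ((nuX V).prod ((kap S G).prod (nuU V))).map
            (Prod.map (actL g) (Prod.map (actT g) (actL g))) := by
        rw [← Measure.map_prod_map _ _ (measurable_actL g)
          ((measurable_actT g).prodMap (measurable_actL g)),
          ← Measure.map_prod_map _ _ (measurable_actT g) (measurable_actL g),
          nuX_act, nuU_act, kap_act hS hF g hG]
      rw [e2, lintegral_map]
      · apply lintegral_congr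
        intro z
        exact hFe g (G, z.1, z.2.1, z.2.2) u v
      · exact (hFm _ _).comp (measurable_const.prodMk (measurable_fst.prodMk
          (measurable_snd.fst.prodMk measurable_snd.snd)))
      · exact (measurable_actL g).prodMap ((measurable_actT g).prodMap (measurable_actL g))
    · rw [if_neg hG, if_neg (fun h => hG ((connected_act g G).1 h))]
  have key := hP f hfm hfe
  -- unfold both sides
  have hT := measurable_Theta hS
  have gen : ∀ (W : Om V → V → V → ℝ≥0∞), (∀ u v, Measurable fun x => W x u v) →
      ∫⁻ w, ∑' v, W w.1 w.2 v ∂(rho P S) =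
        ∫⁻ p, ∑' v, ∫⁻ y, W (p.1, y.1, S p.1 y.2.1, y.2.2) p.2 v
          ∂((nuX V).prod (nuN.prod (nuU V))) ∂P := by
    intro W hW
    have hWm : Measurable fun w : Om V × V => ∑' v, W w.1 w.2 v := by
      apply Measurable.tsum
      intro v
      apply measurable_from_prod_countable_left
      intro u
      exact hW u v
    unfold rho
    rw [lintegral_map hWm hT]
    have h1 := lintegral_prod (μ := P) (ν := (nuX V).prod (nuN.prod (nuU V)))
      (fun z : (SimpleGraph V × V) × (Lab V × ((ℕ → ℝ) × Lab V)) =>
        ∑' v, W (z.1.1, z.2.1, S z.1.1 z.2.2.1, z.2.2.2) z.1.2 v) (hWm.comp hT).aemeasurable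
    rw [h1]
    apply lintegral_congr
    intro p
    rw [lintegral_tsum]
    intro v
    have hmp : Measurable fun y : Lab V × ((ℕ → ℝ) × Lab V) =>
        ((p.1, y.1, S p.1 y.2.1, y.2.2) : Om V) :=
      hmS.comp (measurable_const.prodMk measurable_id)
    exact ((hW p.2 v).comp hmp).aemeasurable
  have e1 := gen F hFm
  have e2 := gen (fun ω u v => F ω v u) (fun u v => hFm v u)
  rw [e1]
  have e2' : ∫⁻ w, ∑' v, F w.1 v w.2 ∂(rho P S) = _ := e2
  rw [e2']
  have e3 : ∫⁻ p, ∑' v, ∫⁻ y, F (p.1, y.1, S p.1 y.2.1, y.2.2) p.2 v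
      ∂((nuX V).prod (nuN.prod (nuU V))) ∂P = ∫⁻ p, ∑' v, f p.1 p.2 v ∂P := by
    apply lintegral_congr_ae
    filter_upwards [hconn] with p hp
    simp only [hf, if_pos hp]
  have e4 : ∫⁻ p, ∑' v, ∫⁻ y, F (p.1, y.1, S p.1 y.2.1, y.2.2) v p.2
      ∂((nuX V).prod (nuN.prod (nuU V))) ∂P = ∫⁻ p, ∑' v, f p.1 v p.2 ∂P := by
    apply lintegral_congr_ae
    filter_upwards [hconn] with p hp
    simp only [hf, if_pos hp]
  rw [e3, e4, key]

end Mtp

end Vale.Agent.P143
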