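import Vale.Agent.P143_h11.Sampling
import Vale.Agent.P143_h11.Levy

set_option linter.unusedSectionVars false
set_option linter.unusedVariables false

open MeasureTheory Filter Topology ProbabilityTheory
open scoped ENNReal unitInterval

namespace Vale.Agent.P143

variable {V : Type*}

theorem generateFrom_cylSet_univ {E : Type*} :
    (inferInstance : MeasurableSpace (Set E)) = MeasurableSpace.generateFrom (cylSet Set.univ) := by
  rw [← sigR_eq]
  apply le_antisymm
  · have h : Measurable[sigR (Set.univ : Set E)] (id : Set E → Set E) :=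
      @measurable_to_set E (Set E) (sigR Set.univ) _ fun f => sigR_mem (Set.mem_univ f)
    have := h.comap_le
    rwa [MeasurableSpace.comap_id] at this
  · exact sigR_le _

theorem IsFUSF.unique [Countable V] {G : SimpleGraph V} (hG : ∃ H : ℕ → G.Subgraph, IsExhaustion H)
    {μ ν : Measure (Set (Sym2 V))} (hμ : IsFUSF G μ) (hν : IsFUSF G ν) : μ = ν := by
  classical
  obtain ⟨H, hH⟩ := hG
  have := hμ.1
  have := hν.1
  have hcyl : ∀ O C : Finset (Sym2 V), μ {T | ↑O ⊆ T ∧ Disjoint (C : Set (Sym2 V)) T} =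
      ν {T | ↑O ⊆ T ∧ Disjoint (C : Set (Sym2 V)) T} := by
    intro O C
    have h := tendsto_nhds_unique (hμ.tendsto_cyl hH O C) (hν.tendsto_cyl hH O C)
    rw [measureReal_def, measureReal_def, ENNReal.toReal_eq_toReal_iff' (measure_ne_top _ _)
      (measure_ne_top _ _)] at h
    exact h
  refine MeasureTheory.ext_of_generate_finite (cylSet Set.univ) generateFrom_cylSet_univ
    (isPiSystem_cylSet _) ?_ ?_
  · rintro s ⟨A, B, _, _, rfl⟩
    exact hcyl A B
  · rw [measure_univ, measure_univ]

/-! ### Equivariance -/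

/-- Pull back of a subgraph along a relabelling. -/
def pull (g : Equiv.Perm V) {G : SimpleGraph V} (K : (actG g G).Subgraph) : G.Subgraph where
  verts := {v | g v ∈ K.verts}
  Adj u v := K.Adj (g u) (g v)
  adj_sub h := (actG_adj g G _ _).1 (K.adj_sub h)
  edge_vert h := K.edge_vert h
  symm := ⟨fun _ _ h => h.symm⟩

/-- The relabelling is an isomorphism between a subgraph and its pull back. -/
def pullIso (g : Equiv.Perm V) {G : SimpleGraph V} (K : (actG g G).Subgraph) :
    (pull g K).coe ≃g K.coe where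
  toEquiv := g.subtypeEquiv fun _ => Iff.rfl
  map_rel_iff' := Iff.rfl

theorem mem_pull_edgeSet (g : Equiv.Perm V) {G : SimpleGraph V} (K : (actG g G).Subgraph)
    (e : Sym2 V) : e ∈ (pull g K).edgeSet ↔ e.map g ∈ K.edgeSet := by
  induction e using Sym2.inductionOn with
  | hf x y => rw [Sym2.map_mk]; exact Iff.rfl

theorem pull_exhaustion (g : Equiv.Perm V) {G : SimpleGraph V} {H : ℕ → (actG g G).Subgraph}
    (hH : IsExhaustion H) : IsExhaustion fun n => pull g (H n) := by
  refine ⟨?_, ?_, ?_, ?_⟩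
  · intro m n hmn
    exact ⟨fun v hv => (hH.mono hmn).1 hv, fun u v h => (hH.mono hmn).2 h⟩
  · intro n
    have h := (hH.connected n).coe
    exact ⟨(pullIso g (H n)).connected_iff.2 h⟩
  · intro n
    exact (hH.finite n).preimage g.injective.injOn
  · apply le_antisymm le_top
    have htop := hH.iSup_eq_top
    constructor
    · intro v _
      rw [SimpleGraph.Subgraph.verts_iSup]
      have h1 : g v ∈ (⨆ n, H n).verts := by rw [htop]; trivial
      rw [SimpleGraph.Subgraph.verts_iSup] at h1
      obtain ⟨n, hn⟩ := Set.mem_iUnion.1 h1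
      exact Set.mem_iUnion.2 ⟨n, hn⟩
    · intro u v huv
      rw [SimpleGraph.Subgraph.iSup_adj]
      have h1 : (⨆ n, H n).Adj (g u) (g v) := by
        rw [htop]
        exact (actG_adj g G u v).2 huv
      rw [SimpleGraph.Subgraph.iSup_adj] at h1
      exact h1

theorem fromEdgeSet_image (g : Equiv.Perm V) (T : Set (Sym2 V)) :
    SimpleGraph.fromEdgeSet (Sym2.map g '' T) = actG g (SimpleGraph.fromEdgeSet T) := by
  ext u v
  have h1 := actG_adj g (SimpleGraph.fromEdgeSet T) (g.symm u) (g.symm v)
  rw [Equiv.apply_symm_apply, Equiv.apply_symm_apply] at h1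
  rw [h1, SimpleGraph.fromEdgeSet_adj, SimpleGraph.fromEdgeSet_adj]
  constructor
  · rintro ⟨⟨e, he, h2⟩, h3⟩
    refine ⟨?_, fun h4 => h3 (g.symm.injective h4)⟩
    have : e = s(g.symm u, g.symm v) := by
      rw [← Sym2.map_mk, ← h2, map_symm_map]
    rwa [← this]
  · rintro ⟨h2, h3⟩
    refine ⟨⟨_, h2, ?_⟩, fun h4 => h3 (congrArg g.symm h4)⟩
    rw [Sym2.map_mk, Equiv.apply_symm_apply, Equiv.apply_symm_apply]

theorem isSpanningTree_pull (g : Equiv.Perm V) {G : SimpleGraph V} (K : (actG g G).Subgraph)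
    (T : Set (Sym2 V)) : IsSpanningTree (pull g K) T ↔ IsSpanningTree K (Sym2.map g '' T) := by
  unfold IsSpanningTree
  rw [fromEdgeSet_image]
  have iso : SimpleGraph.fromEdgeSet T ≃g actG g (SimpleGraph.fromEdgeSet T) :=
    SimpleGraph.Iso.map g _
  have isoapp : ∀ u v, (actG g (SimpleGraph.fromEdgeSet T)).Reachable (g u) (g v) ↔
      (SimpleGraph.fromEdgeSet T).Reachable u v := by
    intro u v
    exact (SimpleGraph.Iso.map g (SimpleGraph.fromEdgeSet T)).reachable_iff (u := u) (v := v)
  refine and_congr ?_ (and_congr ?_ ?_)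
  · constructor
    · rintro h _ ⟨e, he, rfl⟩
      exact (mem_pull_edgeSet g K e).1 (h he)
    · intro h e he
      exact (mem_pull_edgeSet g K e).2 (h ⟨e, he, rfl⟩)
  · exact iso.isAcyclic_iff
  · constructor
    · intro h u hu v hv
      have := h (g.symm u) (by change g (g.symm u) ∈ K.verts; rwa [Equiv.apply_symm_apply])
        (g.symm v) (by change g (g.symm v) ∈ K.verts; rwa [Equiv.apply_symm_apply])
      rw [← isoapp, Equiv.apply_symm_apply, Equiv.apply_symm_apply] at this
      exact this
    · intro h u hu v hv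
      exact (isoapp u v).1 (h (g u) hu (g v) hv)

theorem ustProb_pull (g : Equiv.Perm V) {G : SimpleGraph V} (K : (actG g G).Subgraph)
    (p : Set (Sym2 V) → Prop) :
    ustProb K p = ustProb (pull g K) (fun T => p (Sym2.map g '' T)) := by
  have hinj : Function.Injective (fun T : Set (Sym2 V) => Sym2.map g '' T) :=
    Set.image_injective.2 (Sym2.map.injective g.injective)
  have hsurj : ∀ T : Set (Sym2 V), ∃ T', Sym2.map g '' T' = T := by
    intro T
    refine ⟨Sym2.map g.symm '' T, ?_⟩
    ext e
    constructor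
    · rintro ⟨_, ⟨f, hf, rfl⟩, rfl⟩
      rwa [map_map_symm]
    · intro he
      exact ⟨_, ⟨e, he, rfl⟩, map_map_symm g e⟩
  have key : ∀ q : Set (Sym2 V) → Prop, {T | IsSpanningTree K T ∧ q T}.ncard =
      {T | IsSpanningTree (pull g K) T ∧ q (Sym2.map g '' T)}.ncard := by
    intro q
    rw [← Set.ncard_image_of_injective {T | IsSpanningTree (pull g K) T ∧ q (Sym2.map g '' T)} hinj]
    congr 1
    ext T
    simp only [Set.mem_ofPred_eq, Set.mem_image]
    constructor
    · rintro ⟨h1, h2⟩
      obtain ⟨T', rfl⟩ := hsurj T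
      exact ⟨T', ⟨(isSpanningTree_pull g K T').2 h1, h2⟩, rfl⟩
    · rintro ⟨T', ⟨h1, h2⟩, rfl⟩
      exact ⟨(isSpanningTree_pull g K T').1 h1, h2⟩
  have key2 : {T | IsSpanningTree K T}.ncard = {T | IsSpanningTree (pull g K) T}.ncard := by
    have := key fun _ => True
    simpa using this
  unfold ustProb
  rw [key p, key2]

theorem IsFUSF.map_perm [Countable V] {G : SimpleGraph V} {μ : Measure (Set (Sym2 V))}
    (hμ : IsFUSF G μ) (g : Equiv.Perm V) :
    IsFUSF (G.map g.toEmbedding) (μ.map (fun T => Sym2.map g '' T)) := by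
  classical
  have := hμ.1
  have himg : ∀ T : Set (Sym2 V), Sym2.map g '' T = actT g T := by
    intro T
    ext e
    constructor
    · rintro ⟨f, hf, rfl⟩
      exact (mem_actT g T f).2 hf
    · intro he
      exact ⟨e.map g.symm, he, map_map_symm g e⟩
  have hm : Measurable fun T : Set (Sym2 V) => Sym2.map g '' T := by
    simp only [himg]
    exact measurable_set_of' fun e => measurable_mem_iff' measurable_id _
  refine ⟨Measure.isProbabilityMeasure_map hm.aemeasurable, ?_⟩
  intro H hH F A
  have hlim := hμ.2 (fun n => pull g (H n)) (pull_exhaustion g hH) (F.image (Sym2.map g.symm))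
    (A.image (Sym2.map g.symm))
  have hiff : ∀ T : Set (Sym2 V), (Sym2.map g '' T ∩ ↑F = ↑A) ↔
      T ∩ ↑(F.image (Sym2.map g.symm)) = ↑(A.image (Sym2.map g.symm)) := by
    intro T
    have hF : ∀ B : Finset (Sym2 V), ∀ e, e ∈ B.image (Sym2.map g.symm) ↔ e.map g ∈ B := by
      intro B e
      rw [Finset.mem_image]
      constructor
      · rintro ⟨f, hf, rfl⟩; rwa [map_map_symm]
      · intro h; exact ⟨e.map g, h, map_symm_map g e⟩
    have hT : ∀ e : Sym2 V, e.map g ∈ Sym2.map g '' T ↔ e ∈ T := by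
      intro e
      rw [himg]; exact mem_actT g T e
    rw [Set.ext_iff, Set.ext_iff]
    constructor
    · intro h e
      have := h (e.map g)
      simp only [Set.mem_inter_iff, Finset.mem_coe, hT] at this
      simp only [Set.mem_inter_iff, Finset.mem_coe, hF]
      exact this
    · intro h e
      have := h (e.map g.symm)
      simp only [Set.mem_inter_iff, Finset.mem_coe, hF, map_map_symm] at this
      have h2 := hT (e.map g.symm)
      rw [map_map_symm] at h2
      simp only [Set.mem_inter_iff, Finset.mem_coe, h2]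
      exact this
  have e1 : ∀ n, ustProb (H n) (fun T => T ∩ ↑F = ↑A) = ustProb (pull g (H n))
      (fun T => T ∩ ↑(F.image (Sym2.map g.symm)) = ↑(A.image (Sym2.map g.symm))) := by
    intro n
    exact (ustProb_pull g (H n) _).trans (ustProb_congr _ fun T _ => hiff T)
  have e2 : (μ.map (fun T => Sym2.map g '' T)).real {T | T ∩ ↑F = ↑A} =
      μ.real {T | T ∩ ↑(F.image (Sym2.map g.symm)) = ↑(A.image (Sym2.map g.symm))} := by
    have hms : MeasurableSet {T : Set (Sym2 V) | T ∩ ↑F = ↑A} := by
      have : {T : Set (Sym2 V) | T ∩ ↑F = ↑A} = ⋂ f : Sym2 V, {T | f ∈ T ∩ ↑F ↔ f ∈ (A : Set (Sym2 V))} := by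
        ext T
        simp only [Set.mem_ofPred_eq, Set.mem_iInter, Set.ext_iff]
      rw [this]
      refine MeasurableSet.iInter fun f => ?_
      have hf : MeasurableSet {T : Set (Sym2 V) | f ∈ T ∩ ↑F} :=
        (mem_meas f).inter (MeasurableSet.const _)
      by_cases h : f ∈ (A : Set (Sym2 V))
      · have : {T : Set (Sym2 V) | f ∈ T ∩ ↑F ↔ f ∈ (A : Set (Sym2 V))} = {T | f ∈ T ∩ ↑F} := by
          ext T
          simp only [Set.mem_ofPred_eq]
          exact ⟨fun h2 => h2.2 h, fun h2 => ⟨fun _ => h, fun _ => h2⟩⟩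
        rw [this]; exact hf
      · have : {T : Set (Sym2 V) | f ∈ T ∩ ↑F ↔ f ∈ (A : Set (Sym2 V))} = {T | f ∈ T ∩ ↑F}ᶜ := by
          ext T
          simp only [Set.mem_ofPred_eq, Set.mem_compl_iff]
          exact ⟨fun h2 h3 => h (h2.1 h3), fun h2 => ⟨fun h3 => absurd h3 h2, fun h3 => absurd h3 h⟩⟩
        rw [this]; exact hf.compl
    rw [measureReal_def, Measure.map_apply hm hms, measureReal_def]
    congr 2
    ext T
    exact hiff T
  simp only [e1]
  rw [e2]
  exact hlim

end Vale.Agent.P143
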