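import Vale.Agent.P143_h11.Space
import Vale.Agent.P143_h11.Uniq
import Vale.Agent.P143_C.Rosenblatt

set_option linter.unusedSectionVars false
set_option linter.unusedVariables false

open Filter Topology MeasureTheory
open scoped InnerProductSpace ENNReal

namespace Vale.Agent.P143

open Vale.Agent.P143C (vlab unif)

section Cyl

variable {V : Type*} [Countable V]

/-- Finite conditional formula for the law `μ`. -/
def FC (G : SimpleGraph V) (μ : Measure (Set (Sym2 V))) : Prop :=
  ∀ (O C : Finset (Sym2 V)) (e : Sym2 V), e ∈ G.edgeSet → e ∉ O → e ∉ C → Disjoint O C →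
    μ.real {T | ↑O ⊆ T ∧ Disjoint (C : Set (Sym2 V)) T ∧ e ∉ T} =
      pcS G (↑O ∪ ↑C) ↑O e * μ.real {T | ↑O ⊆ T ∧ Disjoint (C : Set (Sym2 V)) T}

theorem measurableSet_mem (e : Sym2 V) : MeasurableSet {T : Set (Sym2 V) | e ∈ T} :=
  measurable_mem_iff' measurable_id e

theorem measurableSet_sub (A : Finset (Sym2 V)) :
    MeasurableSet {T : Set (Sym2 V) | (A : Set (Sym2 V)) ⊆ T} := by
  have : {T : Set (Sym2 V) | (A : Set (Sym2 V)) ⊆ T} = ⋂ e ∈ A, {T | e ∈ T} := by
    ext T; simp [Set.subset_def]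
  rw [this]
  exact Finset.measurableSet_biInter A fun e _ => measurableSet_mem e

theorem measurableSet_disj (A : Finset (Sym2 V)) :
    MeasurableSet {T : Set (Sym2 V) | Disjoint (A : Set (Sym2 V)) T} := by
  have : {T : Set (Sym2 V) | Disjoint (A : Set (Sym2 V)) T} = ⋂ e ∈ A, {T | e ∈ T}ᶜ := by
    ext T; simp [Set.disjoint_left]
  rw [this]
  exact Finset.measurableSet_biInter A fun e _ => (measurableSet_mem e).compl

theorem measurableSet_cylAB (A B : Finset (Sym2 V)) :
    MeasurableSet {T : Set (Sym2 V) | ↑A ⊆ T ∧ Disjoint (B : Set (Sym2 V)) T} :=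
  (measurableSet_sub A).inter (measurableSet_disj B)

variable {G : SimpleGraph V} {μ : Measure (Set (Sym2 V))} [IsProbabilityMeasure μ]

theorem cond_finite (hFC : FC G μ) (F : Finset (Sym2 V)) {e : Sym2 V} (he : e ∈ G.edgeSet)
    (heF : e ∉ F) (A B : Finset (Sym2 V)) (hA : A ⊆ F) (hB : B ⊆ F) :
    μ.real {T | (↑A ⊆ T ∧ Disjoint (B : Set (Sym2 V)) T) ∧ e ∉ T} =
      ∫ T in {T | ↑A ⊆ T ∧ Disjoint (B : Set (Sym2 V)) T}, pcS G ↑F (T ∩ ↑F) e ∂μ := by
  classical
  set D : Set (Set (Sym2 V)) := {T | ↑A ⊆ T ∧ Disjoint (B : Set (Sym2 V)) T} with hD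
  have hDm : MeasurableSet D := measurableSet_cylAB A B
  set P : Finset (Sym2 V) → Set (Set (Sym2 V)) := fun O =>
    {T | ↑O ⊆ T ∧ Disjoint ((F \ O : Finset (Sym2 V)) : Set (Sym2 V)) T} with hP
  have hPm : ∀ O, MeasurableSet (P O) := fun O => measurableSet_cylAB O (F \ O)
  set I' := F.powerset.filter (fun O => A ⊆ O ∧ Disjoint B O) with hI
  have hPiff : ∀ (O : Finset (Sym2 V)), O ⊆ F → ∀ T, T ∈ P O ↔ O = F.filter (· ∈ T) := by
    intro O hO T
    constructor
    · rintro ⟨h1, h2⟩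
      ext f
      rw [Finset.mem_filter]
      constructor
      · intro hf; exact ⟨hO hf, h1 hf⟩
      · rintro ⟨h3, h4⟩
        by_contra h5
        exact Set.disjoint_left.1 h2 (Finset.mem_coe.2 (Finset.mem_sdiff.2 ⟨h3, h5⟩)) h4
    · intro h
      refine ⟨?_, ?_⟩
      · intro f hf
        rw [h] at hf
        exact (Finset.mem_filter.1 (Finset.mem_coe.1 hf)).2
      · rw [Set.disjoint_left]
        intro f hf hfT
        have h3 := Finset.mem_sdiff.1 (Finset.mem_coe.1 hf)
        apply h3.2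
        rw [h]
        exact Finset.mem_filter.2 ⟨h3.1, hfT⟩
  have hDiff : ∀ T, T ∈ D ↔ F.filter (· ∈ T) ∈ I' := by
    intro T
    rw [hI, Finset.mem_filter, Finset.mem_powerset]
    constructor
    · rintro ⟨h1, h2⟩
      refine ⟨Finset.filter_subset _ _, ?_, ?_⟩
      · intro f hf; exact Finset.mem_filter.2 ⟨hA hf, h1 hf⟩
      · rw [Finset.disjoint_left]
        intro f hf hf2
        exact Set.disjoint_left.1 h2 (Finset.mem_coe.2 hf) (Finset.mem_filter.1 hf2).2
    · rintro ⟨_, h1, h2⟩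
      refine ⟨?_, ?_⟩
      · intro f hf; exact (Finset.mem_filter.1 (h1 hf)).2
      · rw [Set.disjoint_left]
        intro f hf hfT
        exact Finset.disjoint_left.1 h2 hf (Finset.mem_filter.2 ⟨hB hf, hfT⟩)
  have hI'sub : ∀ O ∈ I', O ⊆ F := fun O hO =>
    Finset.mem_powerset.1 (Finset.mem_filter.1 hO).1
  -- right hand side
  have e1 : ∫ T in D, pcS G ↑F (T ∩ ↑F) e ∂μ =
      ∑ O ∈ I', pcS G ↑F ↑O e * μ.real (P O) := by
    rw [← integral_indicator hDm]
    have e2 : (D.indicator fun T => pcS G ↑F (T ∩ ↑F) e) =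
        fun T => ∑ O ∈ I', (P O).indicator (fun _ => pcS G ↑F ↑O e) T := by
      ext T
      by_cases hT : T ∈ D
      · rw [Set.indicator_of_mem hT]
        have h1 := (hDiff T).1 hT
        rw [Finset.sum_eq_single_of_mem _ h1]
        · rw [Set.indicator_of_mem ((hPiff _ (hI'sub _ h1) T).2 rfl)]
          congr 1
          ext f
          simp only [Set.mem_inter_iff, Finset.mem_coe, Finset.mem_filter]
          tauto
        · intro O hO hne
          rw [Set.indicator_of_notMem]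
          intro h
          exact hne ((hPiff O (hI'sub O hO) T).1 h)
      · rw [Set.indicator_of_notMem hT]
        symm
        apply Finset.sum_eq_zero
        intro O hO
        rw [Set.indicator_of_notMem]
        intro h
        apply hT
        rw [hDiff, ← (hPiff O (hI'sub O hO) T).1 h]
        exact hO
    rw [e2, integral_finsetSum]
    · apply Finset.sum_congr rfl
      intro O _
      rw [integral_indicator_const _ (hPm O), smul_eq_mul, mul_comm]
    · intro O _
      exact (integrable_const _).indicator (hPm O)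
  have e3 : {T | (↑A ⊆ T ∧ Disjoint (B : Set (Sym2 V)) T) ∧ e ∉ T} =
      ⋃ O ∈ I', (P O ∩ {T | e ∉ T}) := by
    ext T
    simp only [Set.mem_iUnion, Set.mem_inter_iff, exists_prop]
    constructor
    · rintro ⟨h1, h2⟩
      have h3 := (hDiff T).1 h1
      exact ⟨_, h3, (hPiff _ (hI'sub _ h3) T).2 rfl, h2⟩
    · rintro ⟨O, hO, h1, h2⟩
      refine ⟨?_, h2⟩
      have : T ∈ D := by
        rw [hDiff, ← (hPiff O (hI'sub O hO) T).1 h1]; exact hO
      exact this
  have e4 : μ.real {T | (↑A ⊆ T ∧ Disjoint (B : Set (Sym2 V)) T) ∧ e ∉ T} =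
      ∑ O ∈ I', μ.real (P O ∩ {T | e ∉ T}) := by
    rw [e3, measureReal_biUnion_finset]
    · intro O hO O' hO' hne
      rw [Function.onFun, Set.disjoint_left]
      rintro T ⟨h1, _⟩ ⟨h2, _⟩
      apply hne
      rw [(hPiff O (hI'sub O hO) T).1 h1, (hPiff O' (hI'sub O' hO') T).1 h2]
    · intro O _
      exact (hPm O).inter (measurableSet_mem e).compl
  rw [e1, e4]
  apply Finset.sum_congr rfl
  intro O hO
  have hOF := hI'sub O hO
  have h1 := hFC O (F \ O) e he (fun h => heF (hOF h)) (fun h => heF (Finset.mem_sdiff.1 h).1)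
    Finset.disjoint_sdiff
  have h2 : ((O : Set (Sym2 V)) ∪ ((F \ O : Finset (Sym2 V)) : Set (Sym2 V))) = ↑F := by
    rw [← Finset.coe_union, Finset.union_sdiff_of_subset hOF]
  rw [h2] at h1
  rw [← h1]
  congr 1
  ext T
  simp only [hP, Set.mem_inter_iff, Set.mem_ofPred_eq]
  tauto

theorem exists_exhausting_finsets (E : Type*) [Countable E] :
    ∃ K : ℕ → Finset E, Monotone K ∧ ∀ e, ∃ n, e ∈ K n := by
  classical
  cases isEmpty_or_nonempty E with
  | inl h => exact ⟨fun _ => ∅, fun _ _ _ => le_rfl, fun e => (h.false e).elim⟩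
  | inr h =>
    obtain ⟨f, hf⟩ := exists_surjective_nat E
    refine ⟨fun n => (Finset.range n).image f, ?_, ?_⟩
    · intro m n hmn
      exact Finset.image_subset_image (Finset.range_mono hmn)
    · intro e
      obtain ⟨k, rfl⟩ := hf e
      exact ⟨k + 1, Finset.mem_image_of_mem f (Finset.mem_range.2 (Nat.lt_succ_self k))⟩

/-- Conditional formula for infinite conditioning sets. -/
theorem cond_infinite [MeasurableSpace V] [DiscreteMeasurableSpace V] (hFC : FC G μ)
    (R : Set (Sym2 V)) {e : Sym2 V} (he : e ∈ G.edgeSet)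
    (heR : e ∉ R)
    (hcond : ∀ᵐ T ∂μ, Wc (Zb G.edgeSet) (dd (T ∩ R)) (dd (R \ T)) =
      Wup (Zb G.edgeSet) (dd (T ∩ R)) (dd (R \ T)))
    (A B : Finset (Sym2 V)) (hA : (A : Set (Sym2 V)) ⊆ R) (hB : (B : Set (Sym2 V)) ⊆ R) :
    μ.real {T | (↑A ⊆ T ∧ Disjoint (B : Set (Sym2 V)) T) ∧ e ∉ T} =
      ∫ T in {T | ↑A ⊆ T ∧ Disjoint (B : Set (Sym2 V)) T}, pcS G R (T ∩ R) e ∂μ := by
  classical
  obtain ⟨K, hK1, hK2⟩ := exists_exhausting_finsets (Sym2 V)
  set F : ℕ → Finset (Sym2 V) := fun n => (K n).filter (· ∈ R) with hF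
  have hFR : ∀ n, ((F n : Finset (Sym2 V)) : Set (Sym2 V)) ⊆ R := by
    intro n f hf
    exact (Finset.mem_filter.1 (Finset.mem_coe.1 hf)).2
  have hFmono : Monotone F := by
    intro m n hmn f hf
    rw [Finset.mem_filter] at hf ⊢
    exact ⟨hK1 hmn hf.1, hf.2⟩
  have hFU : ∀ f ∈ R, ∃ n, f ∈ F n := by
    intro f hf
    obtain ⟨n, hn⟩ := hK2 f
    exact ⟨n, Finset.mem_filter.2 ⟨hn, hf⟩⟩
  have hev : ∀ (A : Finset (Sym2 V)), (A : Set (Sym2 V)) ⊆ R → ∀ᶠ n in atTop, A ⊆ F n := by
    intro A hA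
    have : ∀ᶠ n in atTop, ∀ f ∈ A, f ∈ F n := by
      rw [Finset.eventually_all]
      intro f hf
      obtain ⟨n, hn⟩ := hFU f (hA hf)
      filter_upwards [eventually_ge_atTop n] with m hm
      exact hFmono hm hn
    exact this
  set D : Set (Set (Sym2 V)) := {T | ↑A ⊆ T ∧ Disjoint (B : Set (Sym2 V)) T} with hD
  -- convergence of the integrals
  have hlim : Tendsto (fun n => ∫ T in D, pcS G ↑(F n) (T ∩ ↑(F n)) e ∂μ) atTop
      (𝓝 (∫ T in D, pcS G R (T ∩ R) e ∂μ)) := by
    apply tendsto_integral_of_dominated_convergence (fun _ => 1)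
    · intro n
      exact (measurable_pcS (X := Set (Sym2 V)) (G := fun _ => G) (R := fun _ => ↑(F n))
        (O := fun T => T ∩ ↑(F n)) measurable_const measurable_const
        (measurable_inter measurable_id measurable_const) e).aestronglyMeasurable
    · exact (integrable_const _)
    · intro n
      refine Eventually.of_forall fun T => ?_
      rw [Real.norm_of_nonneg (pcS_nonneg _ _ _ _)]
      exact pcS_le_one _ _ _ _
    · apply ae_restrict_of_ae
      filter_upwards [hcond] with T hT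
      have hO : Monotone fun n => dd (T ∩ (↑(F n) : Set (Sym2 V))) := by
        intro m n hmn i hi
        exact ⟨hi.1, Finset.mem_coe.2 (hFmono hmn (Finset.mem_coe.1 hi.2))⟩
      have hC : Monotone fun n => dd ((↑(F n) : Set (Sym2 V)) \ T) := by
        intro m n hmn i hi
        exact ⟨Finset.mem_coe.2 (hFmono hmn (Finset.mem_coe.1 hi.1)), hi.2⟩
      have hOU : (⋃ n, dd (T ∩ (↑(F n) : Set (Sym2 V)))) = dd (T ∩ R) := by
        ext i
        simp only [Set.mem_iUnion]
        constructor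
        · rintro ⟨n, h1, h2⟩; exact ⟨h1, hFR n h2⟩
        · rintro ⟨h1, h2⟩
          obtain ⟨n, hn⟩ := hFU _ h2
          exact ⟨n, h1, hn⟩
      have hCU : (⋃ n, dd ((↑(F n) : Set (Sym2 V)) \ T)) = dd (R \ T) := by
        ext i
        simp only [Set.mem_iUnion]
        constructor
        · rintro ⟨n, h1, h2⟩; exact ⟨hFR n h1, h2⟩
        · rintro ⟨h1, h2⟩
          obtain ⟨n, hn⟩ := hFU _ h1
          exact ⟨n, hn, h2⟩
      have hdisj : Disjoint (⋃ n, dd (T ∩ (↑(F n) : Set (Sym2 V))))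
          (⋃ n, dd ((↑(F n) : Set (Sym2 V)) \ T)) := by
        rw [hOU, hCU, Set.disjoint_left]
        intro i h1 h2
        exact h2.2 h1.1
      have key := tendsto_pj_Wc (isClosed_Zb G.edgeSet) hO hC hdisj
        (by rw [hOU, hCU]; exact hT) (dl (Quot.out e))
      rw [hOU, hCU] at key
      unfold pcS
      have e1 : ∀ n, dd ((↑(F n) : Set (Sym2 V)) \ (T ∩ ↑(F n))) = dd ((↑(F n) : Set (Sym2 V)) \ T) := by
        intro n; congr 1; ext f; simp only [Set.mem_sdiff, Set.mem_inter_iff]; tauto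
      have e2 : dd (R \ (T ∩ R)) = dd (R \ T) := by
        congr 1; ext f; simp only [Set.mem_sdiff, Set.mem_inter_iff]; tauto
      simp only [e1, e2]
      exact ((key.norm).pow 2).const_mul 2
  have hconst : ∀ᶠ n in atTop, ∫ T in D, pcS G ↑(F n) (T ∩ ↑(F n)) e ∂μ =
      μ.real {T | (↑A ⊆ T ∧ Disjoint (B : Set (Sym2 V)) T) ∧ e ∉ T} := by
    filter_upwards [hev A hA, hev B hB] with n hnA hnB
    exact (cond_finite hFC (F n) he (fun h => heR (hFR n h)) A B hnA hnB).symm
  exact tendsto_nhds_unique (tendsto_const_nhds.congr' (hconst.mono fun n h => h.symm)) hlim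

end Cyl

end Vale.Agent.P143
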