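import Vale.Agent.P143_h11.Conv

set_option linter.unusedSectionVars false
set_option linter.unusedVariables false

open Filter Topology MeasureTheory ProbabilityTheory
open scoped InnerProductSpace ENNReal

namespace Vale.Agent.P143

open Vale.Agent.P143C (vlab unif)

section Psi

variable {V : Type*} [Countable V] [MeasurableSpace V] [DiscreteMeasurableSpace V]
  {S : SimpleGraph V → (ℕ → ℝ) → Set (Sym2 V)}

theorem exists_subseq (P : Measure (SimpleGraph V × V)) [IsProbabilityMeasure P]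
    (hP : IsUnimodular P)
    (hconn : ∀ᵐ p ∂P, p.1.Connected) (hlf : ∀ᵐ p ∂P, ∀ v, (p.1.neighborSet v).Finite)
    (hS : Measurable fun p : SimpleGraph V × (ℕ → ℝ) => S p.1 p.2)
    (hF : ∀ G : SimpleGraph V, G.Connected → IsFUSF G (kap S G)) :
    ∃ kk : ℕ → ℕ, ∀ i, del (rho P S) (kk i) (i * 2 ^ (kk i)) ≤ (2⁻¹ : ℝ≥0∞) ^ i := by
  have h : ∀ i : ℕ, ∃ k, del (rho P S) k (i * 2 ^ k) ≤ (2⁻¹ : ℝ≥0∞) ^ i := by
    intro i
    have h1 := eta_tendsto P hP hconn hlf hS hF (i : ℝ)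
    have h2 := ENNReal.Tendsto.const_mul (a := ENNReal.ofReal (Real.exp (2 * i))) h1
      (Or.inr ENNReal.ofReal_ne_top)
    rw [mul_zero] at h2
    have h3 : (0 : ℝ≥0∞) < (2⁻¹ : ℝ≥0∞) ^ i := by
      apply pos_iff_ne_zero.2
      apply pow_ne_zero
      simp
    obtain ⟨k, hk⟩ := (h2.eventually (gt_mem_nhds h3)).exists
    exact ⟨k, (del_le P hP hconn hlf hS hF k i).trans hk.le⟩
  choose kk hkk using h
  exact ⟨kk, hkk⟩

/-- The factor map in terms of edge labels. -/
noncomputable def Psi (kk : ℕ → ℕ) (G : SimpleGraph V) (x v : Lab V) : Set (Sym2 V) :=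
  {e | ∃ n : ℕ, ∀ i, n ≤ i → e ∈ sch (kk i) G x v (i * 2 ^ (kk i))}

theorem measurable_Psi {X : Type*} [MeasurableSpace X] {G : X → SimpleGraph V} {x v : X → Lab V}
    (hG : Measurable G)
    (hx : Measurable x) (hv : Measurable v) (kk : ℕ → ℕ) :
    Measurable fun ω => Psi kk (G ω) (x ω) (v ω) := by
  apply measurable_set_of'
  intro e
  have : {ω | e ∈ Psi kk (G ω) (x ω) (v ω)} =
      ⋃ n : ℕ, ⋂ i : ℕ, ⋂ _ : n ≤ i, {ω | e ∈ sch (kk i) (G ω) (x ω) (v ω) (i * 2 ^ (kk i))} := by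
    ext ω
    simp only [Psi, Set.mem_ofPred_eq, Set.mem_iUnion, Set.mem_iInter]
  rw [this]
  exact MeasurableSet.iUnion fun n => MeasurableSet.iInter fun i => MeasurableSet.iInter fun _ =>
    measurable_mem_iff' (measurable_sch hG hx hv _ _) e

theorem randEdge_Psi {X : Type*} [MeasurableSpace X] {act : Equiv.Perm V → X → X}
    {G : X → SimpleGraph V} {x v : X → Lab V} (hG : Measurable G)
    (hx : Measurable x) (hv : Measurable v) (hGe : ∀ g ω, G (act g ω) = actG g (G ω))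
    (hxe : EqLab act x) (hve : EqLab act v) (kk : ℕ → ℕ) :
    RandEdge act fun ω => Psi kk (G ω) (x ω) (v ω) := by
  refine ⟨measurable_Psi hG hx hv kk, fun g ω e => ?_⟩
  simp only [Psi, Set.mem_ofPred_eq]
  apply exists_congr
  intro n
  apply forall_congr'
  intro i
  apply imp_congr_right
  intro _
  exact (randEdge_sch hG hx hv hGe hxe hve (kk i) (i * 2 ^ (kk i))).eqv g ω e

/-- `Psi` depends only on the labels of the edges of the graph. -/
theorem Psi_congr (kk : ℕ → ℕ) (G : SimpleGraph V) {x x' v v' : Lab V}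
    (hx : ∀ e ∈ G.edgeSet, x e = x' e) (hv : ∀ e ∈ G.edgeSet, v e = v' e) :
    Psi kk G x v = Psi kk G x' v' := by
  unfold Psi
  have : ∀ k j, sch k G x v j = sch k G x' v' j := fun k j =>
    sch_congr k G j (fun e he _ => hx e he) (fun e he _ => hv e he)
  simp only [this]

/-- The total expected number of disagreements at the root along the subsequence is finite. -/
theorem Psi_eq (P : Measure (SimpleGraph V × V)) [IsProbabilityMeasure P]
    (hP : IsUnimodular P)
    (hconn : ∀ᵐ p ∂P, p.1.Connected)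
    (hS : Measurable fun p : SimpleGraph V × (ℕ → ℝ) => S p.1 p.2)
    (hF : ∀ G : SimpleGraph V, G.Connected → IsFUSF G (kap S G)) {kk : ℕ → ℕ}
    (hkk : ∀ i, del (rho P S) (kk i) (i * 2 ^ (kk i)) ≤ (2⁻¹ : ℝ≥0∞) ^ i) :
    ∀ᵐ w ∂(rho P S), Psi kk w.1.1 w.1.2.1 (VV w.1.1 w.1.2.1 w.1.2.2.1 w.1.2.2.2) =
      w.1.2.2.1 := by
  have hprob : ∀ G, IsProbabilityMeasure (kap S G) := kap_prob hS
  have := rho_prob P hS
  have hM := mtp_rho P hP hconn hS hF
  have hG0 : ∀ (g : Equiv.Perm V) (ω : Om V), (actO g ω).1 = actG g ω.1 := fun g ω => rfl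
  have hx0 : EqLab actO (fun ω : Om V => ω.2.1) := fun g ω e => actL_apply g ω.2.1 e
  have hξ0 : EqLab actO (fun ω : Om V => ω.2.2.2) := fun g ω e => actL_apply g ω.2.2.2 e
  have hT0 : RandEdge actO (fun ω : Om V => ω.2.2.1) :=
    ⟨measurable_snd.snd.fst, fun g ω e => mem_actT g ω.2.2.1 e⟩
  have hV := VV_act (X := Om V) (G := fun ω => ω.1) (x := fun ω => ω.2.1) (act := actO)
    measurable_fst measurable_snd.fst hG0 hx0 hT0 hξ0
  have hPsi := randEdge_Psi (X := Om V) (G := fun ω => ω.1) (x := fun ω => ω.2.1)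
    (v := fun ω => VV ω.1 ω.2.1 ω.2.2.1 ω.2.2.2) (act := actO)
    measurable_fst measurable_snd.fst measurable_VVo hG0 hx0 hV kk
  -- Borel-Cantelli
  set f : ℕ → Om V × V → ℝ≥0∞ := fun i w => ∑' b, ind (s(w.2, b) ∈ DD (kk i) (i * 2 ^ (kk i)) w.1)
    with hf
  have hfm : ∀ i, Measurable (f i) := fun i => measurable_EE (measurable_DDind _ _)
  have h1 : ∫⁻ w, ∑' i, f i w ∂(rho P S) ≠ ∞ := by
    rw [lintegral_tsum fun i => (hfm i).aemeasurable]
    refine ne_top_of_le_ne_top ?_ (ENNReal.tsum_le_tsum hkk)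
    rw [ENNReal.tsum_geometric]
    simp
  have h2 : ∀ᵐ w ∂(rho P S), ∑' i, f i w < ∞ :=
    ae_lt_top' (Measurable.tsum hfm).aemeasurable h1
  have h3 : ∀ᵐ w ∂(rho P S), ∀ b, ∀ᶠ i in atTop,
      s(w.2, b) ∉ DD (kk i) (i * 2 ^ (kk i)) w.1 := by
    filter_upwards [h2] with w hw b
    have h4 := ENNReal.tendsto_atTop_zero_of_tsum_ne_top hw.ne
    filter_upwards [h4.eventually (gt_mem_nhds zero_lt_one)] with i hi hmem
    have h5 : (1 : ℝ≥0∞) ≤ f i w := by
      calc (1 : ℝ≥0∞) = ind (s(w.2, b) ∈ DD (kk i) (i * 2 ^ (kk i)) w.1) := (ind_pos hmem).symm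
        _ ≤ _ := ENNReal.le_tsum b
    exact absurd hi (not_lt.2 h5)
  -- edges of `T` are edges of `G`
  have h4 : ∀ᵐ w ∂(rho P S), w.1.2.2.1 ⊆ w.1.1.edgeSet := by
    rw [ae_rho P hS]
    · filter_upwards [hconn] with p hc
      have h5 := (hF p.1 hc).subset_ae (exists_exhaustion _ hc)
      have h6 : ∀ᵐ z ∂((kap S p.1).prod (nuU V)), z.1 ⊆ p.1.edgeSet :=
        Measure.quasiMeasurePreserving_fst.ae h5
      exact Eventually.of_forall fun x => h6
    · have : {w : Om V × V | w.1.2.2.1 ⊆ w.1.1.edgeSet} =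
          ⋂ e : Sym2 V, ({w : Om V × V | e ∈ w.1.2.2.1}ᶜ ∪ {w : Om V × V | e ∈ w.1.1.edgeSet}) := by
        ext w
        simp only [Set.mem_ofPred_eq, Set.mem_iInter, Set.mem_union, Set.mem_compl_iff,
          Set.subset_def]
        apply forall_congr'
        intro e
        tauto
      rw [this]
      exact MeasurableSet.iInter fun e => (measurable_mem_iff' measurable_fst.snd.snd.fst e).compl.union
        (measurable_mem_iff' (measurable_edgeSet measurable_fst.fst) e)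
  set N : Om V → V → Prop := fun ω u => ∀ b, (s(u, b) ∈
    Psi kk ω.1 ω.2.1 (VV ω.1 ω.2.1 ω.2.2.1 ω.2.2.2) ↔ s(u, b) ∈ ω.2.2.1) with hN
  have h5 : ∀ᵐ w ∂(rho P S), N w.1 w.2 := by
    filter_upwards [h3, h4] with w hw1 hw2 b
    have hcast : ∀ i : ℕ, (((i * 2 ^ (kk i) : ℕ) : ℝ)) * hh (kk i) = i := by
      intro i
      push_cast
      rw [mul_assoc, two_pow_hh, mul_one]
    have h6 : ∀ᶠ i : ℕ in atTop, (s(w.2, b) ∈ w.1.2.2.1 ∩ Rt i w.1.1 w.1.2.1 ↔
        s(w.2, b) ∈ sch (kk i) w.1.1 w.1.2.1 (VV w.1.1 w.1.2.1 w.1.2.2.1 w.1.2.2.2)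
          (i * 2 ^ (kk i))) := by
      filter_upwards [hw1 b] with i hi
      unfold DD at hi
      rw [hcast] at hi
      by_contra hcon
      exact hi hcon
    constructor
    · rintro ⟨n, hn⟩
      obtain ⟨i, hi1, hi2⟩ := (h6.and (eventually_ge_atTop n)).exists
      exact (hi1.2 (hn i hi2)).1
    · intro hmem
      have h7 : ∀ᶠ i : ℕ in atTop, s(w.2, b) ∈ Rt i w.1.1 w.1.2.1 := by
        obtain ⟨n, hn⟩ := exists_nat_gt (tau w.1.1 w.1.2.1 s(w.2, b))
        filter_upwards [eventually_ge_atTop n] with i hi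
        exact ⟨hw2 hmem, hn.trans_le (by exact_mod_cast hi)⟩
      obtain ⟨n, hn⟩ := eventually_atTop.1 (h6.and h7)
      exact ⟨n, fun i hi => (hn i hi).1.1 ⟨hmem, (hn i hi).2⟩⟩
  have hNm : ∀ u, MeasurableSet {ω | N ω u} := by
    intro u
    have : {ω | N ω u} = ⋂ b, (({ω : Om V | s(u, b) ∈
        Psi kk ω.1 ω.2.1 (VV ω.1 ω.2.1 ω.2.2.1 ω.2.2.2)} ∩ {ω : Om V | s(u, b) ∈ ω.2.2.1}) ∪
        ({ω : Om V | s(u, b) ∈
        Psi kk ω.1 ω.2.1 (VV ω.1 ω.2.1 ω.2.2.1 ω.2.2.2)}ᶜ ∩ {ω : Om V | s(u, b) ∈ ω.2.2.1}ᶜ)) := by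
      ext ω
      simp only [hN, Set.mem_ofPred_eq, Set.mem_iInter, Set.mem_union, Set.mem_inter_iff,
        Set.mem_compl_iff]
      apply forall_congr'
      intro b
      tauto
    rw [this]
    refine MeasurableSet.iInter fun b => ?_
    have m1 := measurable_mem_iff' hPsi.meas s(u, b)
    have m2 := measurable_mem_iff' hT0.meas s(u, b)
    exact (m1.inter m2).union (m1.compl.inter m2.compl)
  have hNe : ∀ g ω u, N (actO g ω) (g u) ↔ N ω u := by
    intro g ω u
    have key : ∀ b, ((s(g u, g b) ∈ Psi kk (actO g ω).1 (actO g ω).2.1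
        (VV (actO g ω).1 (actO g ω).2.1 (actO g ω).2.2.1 (actO g ω).2.2.2) ↔
        s(g u, g b) ∈ (actO g ω).2.2.1) ↔ (s(u, b) ∈
        Psi kk ω.1 ω.2.1 (VV ω.1 ω.2.1 ω.2.2.1 ω.2.2.2) ↔ s(u, b) ∈ ω.2.2.1)) := by
      intro b
      have e1 := hPsi.eqv g ω s(u, b)
      have e2 := hT0.eqv g ω s(u, b)
      rw [Sym2.map_mk] at e1 e2
      exact iff_congr e1 e2
    constructor
    · intro h b
      exact (key b).1 (h (g b))
    · intro h b
      have := (key (g.symm b)).2 (h (g.symm b))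
      rwa [Equiv.apply_symm_apply] at this
  have h6 := hM.everywhere hNm hNe h5
  filter_upwards [h6] with w hw
  ext e
  induction e using Sym2.inductionOn with
  | hf u b => exact hw u b

/-- The law of the factor. -/
theorem Psi_law (P : Measure (SimpleGraph V × V)) [IsProbabilityMeasure P]
    (hP : IsUnimodular P)
    (hconn : ∀ᵐ p ∂P, p.1.Connected) (hlf : ∀ᵐ p ∂P, ∀ v, (p.1.neighborSet v).Finite)
    (hS : Measurable fun p : SimpleGraph V × (ℕ → ℝ) => S p.1 p.2)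
    (hF : ∀ G : SimpleGraph V, G.Connected → IsFUSF G (kap S G)) {kk : ℕ → ℕ}
    (hkk : ∀ i, del (rho P S) (kk i) (i * 2 ^ (kk i)) ≤ (2⁻¹ : ℝ≥0∞) ^ i) :
    ∀ᵐ p ∂P, ((nuX V).prod (nuU V)).map (fun z => Psi kk p.1 z.1 z.2) = kap S p.1 := by
  have hprob : ∀ G, IsProbabilityMeasure (kap S G) := kap_prob hS
  have := rho_prob P hS
  have h1 := Psi_eq P hP hconn hS hF hkk
  have hms : MeasurableSet {w : Om V × V | Psi kk w.1.1 w.1.2.1
      (VV w.1.1 w.1.2.1 w.1.2.2.1 w.1.2.2.2) = w.1.2.2.1} := by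
    have m1 : Measurable fun ω : Om V => Psi kk ω.1 ω.2.1 (VV ω.1 ω.2.1 ω.2.2.1 ω.2.2.2) :=
      measurable_Psi measurable_fst measurable_snd.fst measurable_VVo kk
    have : {w : Om V × V | Psi kk w.1.1 w.1.2.1
      (VV w.1.1 w.1.2.1 w.1.2.2.1 w.1.2.2.2) = w.1.2.2.1} = Prod.fst ⁻¹'
        (⋂ e : Sym2 V, (({ω : Om V | e ∈
        Psi kk ω.1 ω.2.1 (VV ω.1 ω.2.1 ω.2.2.1 ω.2.2.2)} ∩ {ω : Om V | e ∈ ω.2.2.1}) ∪
        ({ω : Om V | e ∈
        Psi kk ω.1 ω.2.1 (VV ω.1 ω.2.1 ω.2.2.1 ω.2.2.2)}ᶜ ∩ {ω : Om V | e ∈ ω.2.2.1}ᶜ))) := by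
      ext w
      simp only [Set.mem_ofPred_eq, Set.mem_preimage, Set.mem_iInter, Set.mem_union,
        Set.mem_inter_iff, Set.mem_compl_iff]
      rw [Set.ext_iff]
      apply forall_congr'
      intro e
      tauto
    rw [this]
    apply measurable_fst
    refine MeasurableSet.iInter fun e => ?_
    have m2 := measurable_mem_iff' m1 e
    have m3 : MeasurableSet {ω : Om V | e ∈ ω.2.2.1} :=
      measurable_mem_iff' measurable_snd.snd.fst e
    exact (m2.inter m3).union (m2.compl.inter m3.compl)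
  rw [ae_rho P hS hms] at h1
  filter_upwards [h1, good_ae P hP hconn hlf hS hF, hconn] with p hp hgood hc
  have hPm : Measurable fun z : Lab V × Lab V => Psi kk p.1 z.1 z.2 :=
    measurable_Psi (X := Lab V × Lab V) (G := fun _ => p.1) measurable_const measurable_fst
      measurable_snd kk
  have key : ∀ᵐ x ∂(nuX V), (nuU V).map (fun v => Psi kk p.1 x v) = kap S p.1 := by
    filter_upwards [hp, hgood] with x hx hg
    have hPx : Measurable fun v : Lab V => Psi kk p.1 x v :=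
      hPm.comp (measurable_const.prodMk measurable_id)
    have hVm : Measurable fun z : Set (Sym2 V) × Lab V => VV p.1 x z.1 z.2 :=
      measurable_VV (X := Set (Sym2 V) × Lab V) (G := fun _ => p.1) (x := fun _ => x)
        (T := fun z => z.1) (ξ := fun z => z.2) measurable_const measurable_const measurable_fst
        measurable_snd
    have hqm : ∀ e : Sym2 V, Measurable fun T : Set (Sym2 V) => qq p.1 x T e := fun e =>
      measurable_qq (X := Set (Sym2 V)) (G := fun _ => p.1) (x := fun _ => x) (T := fun T => T)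
        measurable_const measurable_const measurable_id e
    have hros : ((kap S p.1).prod (nuU V)).map (fun z => VV p.1 x z.1 z.2) = nuU V :=
      Vale.Agent.P143C.rosenblatt (tau p.1 x) hg.inj (kap S p.1)
        (fun (e : Sym2 V) (T : Set (Sym2 V)) => qq p.1 x T e) hqm (fun e T => qq_mem p.1 x T e)
        (fun e T T' hT => qq_dep (hg.nonneg e) hT)
        (fun e A B hA hB => hqc (FC_of_FUSF hc (hF p.1 hc))
          ((hF p.1 hc).subset_ae (exists_exhaustion _ hc)) hg e A B hA hB)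
    rw [← hros, Measure.map_map hPx hVm]
    have h2 : ((fun v => Psi kk p.1 x v) ∘ fun z : Set (Sym2 V) × Lab V => VV p.1 x z.1 z.2)
        =ᵐ[(kap S p.1).prod (nuU V)] Prod.fst := by
      filter_upwards [hx] with z hz
      exact hz
    rw [Measure.map_congr h2, Measure.map_fst_prod, measure_univ, one_smul]
  ext A hA
  rw [Measure.map_apply hPm hA, Measure.prod_apply (hA.preimage hPm)]
  have h3 : ∀ᵐ x ∂(nuX V), (nuU V) (Prod.mk x ⁻¹' ((fun z : Lab V × Lab V =>
      Psi kk p.1 z.1 z.2) ⁻¹' A)) = kap S p.1 A := by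
    filter_upwards [key] with x hx
    have hPx : Measurable fun v : Lab V => Psi kk p.1 x v :=
      hPm.comp (measurable_const.prodMk measurable_id)
    rw [← hx, Measure.map_apply hPx hA]
    rfl
  rw [lintegral_congr_ae h3, lintegral_const, measure_univ, mul_one]

end Psi

end Vale.Agent.P143
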