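import Vale.Agent.P143_h11.Coord

set_option linter.unusedSectionVars false

open Filter Topology MeasureTheory ContinuousLinearMap
open scoped InnerProductSpace ENNReal

namespace Vale.Agent.P143

/-! ### Measurable operators -/

section MeasOp

variable {ι : Type*} [Countable ι] {X : Type*} [MeasurableSpace X]

/-- Weakly measurable family of operators. -/
def MeasOp (A : X → L2 ι →L[ℝ] L2 ι) : Prop :=
  ∀ u v : L2 ι, Measurable fun x => ⟪u, A x v⟫_ℝ

theorem MeasOp.const (A : L2 ι →L[ℝ] L2 ι) : MeasOp (fun _ : X => A) :=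
  fun _ _ => measurable_const

theorem MeasOp.adj {A : X → L2 ι →L[ℝ] L2 ι} (hA : MeasOp A) : MeasOp fun x => adjoint (A x) := by
  intro u v
  have : (fun x => ⟪u, adjoint (A x) v⟫_ℝ) = fun x => ⟪v, A x u⟫_ℝ := by
    ext x
    rw [adjoint_inner_right, real_inner_comm]
  rw [this]
  exact hA v u

theorem MeasOp.add {A B : X → L2 ι →L[ℝ] L2 ι} (hA : MeasOp A) (hB : MeasOp B) :
    MeasOp fun x => A x + B x := by
  intro u v
  simp only [add_apply, inner_add_right]
  exact (hA u v).add (hB u v)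

theorem MeasOp.sub {A B : X → L2 ι →L[ℝ] L2 ι} (hA : MeasOp A) (hB : MeasOp B) :
    MeasOp fun x => A x - B x := by
  intro u v
  simp only [sub_apply, inner_sub_right]
  exact (hA u v).sub (hB u v)

/-- inner product of two weakly measurable vectors -/
theorem measurable_inner_of {a b : X → L2 ι} (ha : ∀ i, Measurable fun x => a x i)
    (hb : ∀ i, Measurable fun x => b x i) : Measurable fun x => ⟪a x, b x⟫_ℝ := by
  refine measurable_of_tendsto_metrizable' (atTop : Filter (Finset ι))
    (f := fun s x => ∑ i ∈ s, a x i * b x i) (fun s => ?_) ?_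
  · exact Finset.measurable_sum _ fun i _ => (ha i).mul (hb i)
  · rw [tendsto_pi_nhds]
    intro x
    exact hasSum_inner_L2 (a x) (b x)

theorem MeasOp.coord {A : X → L2 ι →L[ℝ] L2 ι} (hA : MeasOp A) (v : L2 ι) (i : ι) :
    Measurable fun x => A x v i := by
  have := hA (dl i) v
  simpa only [inner_dl_left] using this

theorem MeasOp.comp {A B : X → L2 ι →L[ℝ] L2 ι} (hA : MeasOp A) (hB : MeasOp B) :
    MeasOp fun x => A x * B x := by
  intro u v
  have : (fun x => ⟪u, (A x * B x) v⟫_ℝ) = fun x => ⟪adjoint (A x) u, B x v⟫_ℝ := by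
    ext x
    rw [adjoint_inner_left, mul_apply_eq_comp]
  rw [this]
  exact measurable_inner_of (hA.adj.coord u) (hB.coord v)

theorem MeasOp.pow {A : X → L2 ι →L[ℝ] L2 ι} (hA : MeasOp A) (k : ℕ) :
    MeasOp fun x => A x ^ k := by
  induction k with
  | zero => simpa using MeasOp.const (X := X) (1 : L2 ι →L[ℝ] L2 ι)
  | succ k ih =>
    have := ih.comp hA
    simpa only [pow_succ] using this

theorem MeasOp.of_tendsto {A : ℕ → X → L2 ι →L[ℝ] L2 ι} {B : X → L2 ι →L[ℝ] L2 ι}
    (hA : ∀ n, MeasOp (A n)) (h : ∀ x v, Tendsto (fun n => A n x v) atTop (𝓝 (B x v))) :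
    MeasOp B := by
  intro u v
  refine measurable_of_tendsto_metrizable (f := fun n x => ⟪u, A n x v⟫_ℝ)
    (fun n => hA n u v) ?_
  rw [tendsto_pi_nhds]
  intro x
  exact tendsto_const_nhds.inner (h x v)

theorem MeasOp.defect {Y : X → L2 ι →L[ℝ] L2 ι} (hY : MeasOp Y) :
    MeasOp fun x => defect (Y x) :=
  (MeasOp.const _).sub (hY.adj.comp hY)

theorem MeasOp.measurable_norm_sq {A : X → L2 ι →L[ℝ] L2 ι} (hA : MeasOp A) (v : L2 ι) :
    Measurable fun x => ‖A x v‖ ^ 2 := by
  have : (fun x => ‖A x v‖ ^ 2) = fun x => ⟪A x v, A x v⟫_ℝ := by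
    ext x; rw [real_inner_self_eq_norm_sq]
  rw [this]
  exact measurable_inner_of (hA.coord v) (hA.coord v)

/-- Projection on an intersection is measurable (mean ergodic theorem). -/
theorem MeasOp.pj_inf {S T : X → Submodule ℝ (L2 ι)} (hS : ∀ x, IsClosed (S x : Set (L2 ι)))
    (hT : ∀ x, IsClosed (T x : Set (L2 ι)))
    (hSm : MeasOp fun x => pj (S x)) (hTm : MeasOp fun x => pj (T x)) :
    MeasOp fun x => pj (S x ⊓ T x) := by
  set f : X → L2 ι →L[ℝ] L2 ι := fun x => pj (S x) * pj (T x) with hf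
  have hfm : MeasOp f := hSm.comp hTm
  have hnorm : ∀ x, ‖f x‖ ≤ 1 := by
    intro x
    refine ContinuousLinearMap.opNorm_le_bound _ zero_le_one (fun y => ?_)
    rw [one_mul, hf, mul_apply_eq_comp]
    exact (norm_pj_le _).trans (norm_pj_le _)
  refine MeasOp.of_tendsto (A := fun n x => (n : ℝ)⁻¹ • ∑ k ∈ Finset.range n, f x ^ k)
    (fun n => ?_) ?_
  · intro u v
    have : (fun x => ⟪u, ((n : ℝ)⁻¹ • ∑ k ∈ Finset.range n, f x ^ k) v⟫_ℝ) =
        fun x => (n : ℝ)⁻¹ * ∑ k ∈ Finset.range n, ⟪u, (f x ^ k) v⟫_ℝ := by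
      ext x
      rw [smul_apply, sum_apply, inner_smul_right, inner_sum]
    rw [this]
    exact (Finset.measurable_sum _ fun k _ => hfm.pow k u v).const_mul _
  · intro x v
    have h3 := (f x).tendsto_birkhoffAverage_orthogonalProjection (hnorm x) v
    have h7 : (f x).eqLocus (1 : L2 ι →L[ℝ] L2 ι) = S x ⊓ T x := by
      ext y
      simp only [LinearMap.mem_eqLocus]
      constructor
      · intro h
        have h' : pj (S x) (pj (T x) y) = y := h
        have h1 : y ∈ S x := by rw [← h']; exact pj_mem (hS x) _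
        have h2 : ‖y‖ ≤ ‖pj (T x) y‖ := by
          conv_lhs => rw [← h']
          exact norm_pj_le _
        have h3 : y ∈ T x := by
          have h4 : ‖pj (T x) y‖ ^ 2 = ⟪y, pj (T x) y⟫_ℝ := (inner_pj_self y).symm
          have h5 : ‖y - pj (T x) y‖ ^ 2 = ‖y‖ ^ 2 - ‖pj (T x) y‖ ^ 2 := by
            rw [norm_sub_sq_real, ← h4]; ring
          have h6 : ‖y‖ ^ 2 ≤ ‖pj (T x) y‖ ^ 2 := by gcongr
          have h7 : ‖y - pj (T x) y‖ ^ 2 ≤ 0 := by linarith
          have h8 : ‖y - pj (T x) y‖ = 0 := by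
            have := sq_nonneg ‖y - pj (T x) y‖
            exact pow_eq_zero_iff (two_ne_zero) |>.1 (le_antisymm h7 this)
          have h9 : y = pj (T x) y := sub_eq_zero.1 (norm_eq_zero.1 h8)
          rw [h9]
          exact pj_mem (hT x) _
        exact ⟨h1, h3⟩
      · rintro ⟨h1, h2⟩
        change pj (S x) (pj (T x) y) = y
        rw [(pj_eq_self (hT x)).2 h2, (pj_eq_self (hS x)).2 h1]
    have h8 : (((f x).eqLocus (1 : L2 ι →L[ℝ] L2 ι)).orthogonalProjectionOnto v : L2 ι) =
        pj (S x ⊓ T x) v := by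
      symm
      apply pj_eq_of (isClosed_inf (hS x) (hT x))
      · rw [← h7]
        exact Submodule.coe_mem _
      · rw [← h7]
        exact Submodule.sub_starProjection_mem_orthogonal
          (K := (f x).eqLocus (1 : L2 ι →L[ℝ] L2 ι)) v
    rw [h8] at h3
    refine h3.congr (fun n => ?_)
    rw [birkhoffAverage, birkhoffSum, smul_apply, sum_apply]
    congr 1
    apply Finset.sum_congr rfl
    intro i _
    rw [FunLike.coe_pow_eq_iterate]
    rfl

theorem MeasOp.pj_orth {S : X → Submodule ℝ (L2 ι)} (hS : ∀ x, IsClosed (S x : Set (L2 ι)))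
    (hSm : MeasOp fun x => pj (S x)) : MeasOp fun x => pj (S x)ᗮ := by
  intro u v
  have : (fun x => ⟪u, pj (S x)ᗮ v⟫_ℝ) = fun x => ⟪u, v⟫_ℝ - ⟪u, pj (S x) v⟫_ℝ := by
    ext x
    rw [Vale.Agent.P143.pj_orth (hS x), inner_sub_right]
  rw [this]
  exact measurable_const.sub (hSm u v)

theorem MeasOp.pj_compress {L S : X → Submodule ℝ (L2 ι)} (hL : ∀ x, IsClosed (L x : Set (L2 ι)))
    (hS : ∀ x, IsClosed (S x : Set (L2 ι)))
    (hLm : MeasOp fun x => pj (L x)) (hSm : MeasOp fun x => pj (S x)) :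
    MeasOp fun x => pj (compress (L x) (S x)) := by
  unfold compress
  apply MeasOp.pj_inf hL (fun x => Submodule.isClosed_orthogonal _) hLm
  apply MeasOp.pj_orth (fun x => isClosed_inf (hL x) (Submodule.isClosed_orthogonal _))
  exact MeasOp.pj_inf hL (fun x => Submodule.isClosed_orthogonal _) hLm (MeasOp.pj_orth hS hSm)

theorem MeasOp.pj_Lz {A : X → Set ι} (hA : Measurable A) :
    MeasOp fun x => pj (Lz (A x) : Submodule ℝ (L2 ι)) := by
  intro u v
  apply measurable_inner_of
  · intro i; exact measurable_const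
  · intro i
    classical
    have : (fun x => pj (Lz (A x)) v i) = fun x => if i ∈ A x then 0 else v i := by
      ext x
      rw [Vale.Agent.P143.pj_Lz]
      split_ifs with h
      · exact rs_notMem (by simpa using h)
      · exact rs_mem (by simpa using h)
    rw [this]
    refine Measurable.ite ?_ measurable_const measurable_const
    exact measurableSet_setOfPred.2 (measurable_set_iff.1 hA i)

end MeasOp

end Vale.Agent.P143
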