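import Vale.Agent.P143_h11.Trace

set_option linter.unusedSectionVars false

open Filter Topology MeasureTheory ContinuousLinearMap
open scoped InnerProductSpace ENNReal

namespace Vale.Agent.P143

theorem inner_eq_polar {H : Type*} [NormedAddCommGroup H] [InnerProductSpace ℝ H] (u v : H) :
    ⟪u, v⟫_ℝ = (‖u + v‖ ^ 2 - ‖u - v‖ ^ 2) / 4 := by
  rw [norm_add_sq_real, norm_sub_sq_real]; ring

section Rank

variable {V : Type*} [Countable V] [MeasurableSpace V] [DiscreteMeasurableSpace V]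
  {X : Type*} [MeasurableSpace X]

/-- Measure on the pairs (sample with root, further vertex). -/
noncomputable def Km (μ : Measure (X × V)) : Measure ((X × V) × V) := μ.prod Measure.count

theorem lintegral_Km (μ : Measure (X × V)) {f : (X × V) × V → ℝ≥0∞} (hf : Measurable f) :
    ∫⁻ q, f q ∂(Km μ) = ∫⁻ p, ∑' b, f (p, b) ∂μ := by
  unfold Km
  rw [lintegral_prod _ hf.aemeasurable]
  apply lintegral_congr
  intro p
  rw [lintegral_count]

/-- The basis vector of the edge indexed by `q`. -/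
noncomputable def dq (q : (X × V) × V) : L2 (V × V) := dl (q.1.2, q.2)

theorem measurable_Km {α : Type*} [MeasurableSpace α] {f : (X × V) × V → α}
    (hf : ∀ u v, Measurable fun x => f ((x, u), v)) : Measurable f := by
  apply measurable_from_prod_countable_left
  intro v
  apply measurable_from_prod_countable_left
  intro u
  exact hf u v

theorem measurable_inner_dq {Y Z : X → L2 (V × V) →L[ℝ] L2 (V × V)} (hY : MeasOp Y)
    (hZ : MeasOp Z) :
    Measurable fun q : (X × V) × V => ⟪Y q.1.1 (dq q), Z q.1.1 (dq q)⟫_ℝ := by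
  apply measurable_Km
  intro u v
  exact measurable_inner_of (a := fun x => Y x (dl (u, v))) (b := fun x => Z x (dl (u, v)))
    (hY.coord _) (hZ.coord _)

theorem measurable_norm_dq {Y : X → L2 (V × V) →L[ℝ] L2 (V × V)} (hY : MeasOp Y) :
    Measurable fun q : (X × V) × V => ‖Y q.1.1 (dq q)‖ ^ 2 := by
  apply measurable_Km
  intro u v
  exact hY.measurable_norm_sq (dl (u, v))

theorem hs_eq (μ : Measure (X × V)) {Y : X → L2 (V × V) →L[ℝ] L2 (V × V)} (hY : MeasOp Y) :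
    hs μ Y = ∫⁻ q, ENNReal.ofReal (‖Y q.1.1 (dq q)‖ ^ 2) ∂(Km μ) := by
  rw [lintegral_Km μ (measurable_norm_dq hY).ennreal_ofReal]
  rfl

theorem integrable_norm_dq {μ : Measure (X × V)} {Y : X → L2 (V × V) →L[ℝ] L2 (V × V)}
    (hY : MeasOp Y) (hfin : hs μ Y ≠ ∞) :
    Integrable (fun q : (X × V) × V => ‖Y q.1.1 (dq q)‖ ^ 2) (Km μ) := by
  refine ⟨(measurable_norm_dq hY).aestronglyMeasurable, ?_⟩
  rw [hasFiniteIntegral_iff_ofReal (Eventually.of_forall fun q => by positivity), ← hs_eq μ hY]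
  exact lt_top_iff_ne_top.2 hfin

theorem integral_norm_dq {μ : Measure (X × V)} {Y : X → L2 (V × V) →L[ℝ] L2 (V × V)}
    (hY : MeasOp Y) :
    ∫ q, ‖Y q.1.1 (dq q)‖ ^ 2 ∂(Km μ) = (hs μ Y).toReal := by
  rw [hs_eq μ hY, integral_eq_lintegral_of_nonneg_ae (Eventually.of_forall fun q => by positivity)
    (measurable_norm_dq hY).aestronglyMeasurable]

theorem hs_mono (μ : Measure (X × V)) {Y Z : X → L2 (V × V) →L[ℝ] L2 (V × V)}
    (h : ∀ x f, ‖Y x f‖ ≤ ‖Z x f‖) : hs μ Y ≤ hs μ Z := by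
  unfold hs
  apply lintegral_mono
  intro p
  apply ENNReal.tsum_le_tsum
  intro b
  apply ENNReal.ofReal_le_ofReal
  have := h p.1 (dl (p.2, b))
  gcongr

theorem hs_add_ne_top {μ : Measure (X × V)} {Y Z : X → L2 (V × V) →L[ℝ] L2 (V × V)}
    (hYm : MeasOp Y) (hZm : MeasOp Z) (hY : hs μ Y ≠ ∞) (hZ : hs μ Z ≠ ∞) :
    hs μ (fun x => Y x + Z x) ≠ ∞ := by
  have h1 : hs μ (fun x => Y x + Z x) ≤ ENNReal.ofReal 2 * hs μ Y + ENNReal.ofReal 2 * hs μ Z := by
    rw [hs_eq μ (hYm.add hZm), hs_eq μ hYm, hs_eq μ hZm,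
      ← lintegral_const_mul _ (measurable_norm_dq hYm).ennreal_ofReal,
      ← lintegral_const_mul _ (measurable_norm_dq hZm).ennreal_ofReal,
      ← lintegral_add_left ((measurable_norm_dq hYm).ennreal_ofReal.const_mul _)]
    apply lintegral_mono
    intro q
    simp only
    rw [← ENNReal.ofReal_mul (by norm_num), ← ENNReal.ofReal_mul (by norm_num),
      ← ENNReal.ofReal_add (by positivity) (by positivity)]
    apply ENNReal.ofReal_le_ofReal
    rw [add_apply]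
    have h3 := norm_add_le (Y q.1.1 (dq q)) (Z q.1.1 (dq q))
    have h4 := norm_nonneg (Y q.1.1 (dq q) + Z q.1.1 (dq q))
    nlinarith [sq_nonneg (‖Y q.1.1 (dq q)‖ - ‖Z q.1.1 (dq q)‖)]
  exact ne_top_of_le_ne_top (ENNReal.add_ne_top.2
    ⟨ENNReal.mul_ne_top ENNReal.ofReal_ne_top hY,
      ENNReal.mul_ne_top ENNReal.ofReal_ne_top hZ⟩) h1

theorem hs_sub_ne_top {μ : Measure (X × V)} {Y Z : X → L2 (V × V) →L[ℝ] L2 (V × V)}
    (hYm : MeasOp Y) (hZm : MeasOp Z) (hY : hs μ Y ≠ ∞) (hZ : hs μ Z ≠ ∞) :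
    hs μ (fun x => Y x - Z x) ≠ ∞ := by
  have h1 : hs μ (fun x => -Z x) ≠ ∞ := by
    have : hs μ (fun x => -Z x) = hs μ Z := by
      unfold hs
      simp only [neg_apply, norm_neg]
    rw [this]; exact hZ
  have h2 : MeasOp fun x => -Z x := by
    intro u v
    simp only [neg_apply, inner_neg_right]
    exact (hZm u v).neg
  have := hs_add_ne_top hYm h2 hY h1
  simpa only [sub_eq_add_neg] using this

/-- Traciality for Hilbert-Schmidt random operators. -/
theorem hs_inner {act : Equiv.Perm V → X → X} {μ : Measure (X × V)} (hμ : MTP act μ)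
    {Y Z : X → L2 (V × V) →L[ℝ] L2 (V × V)} (hYm : MeasOp Y) (hZm : MeasOp Z)
    (hYe : EqOp act Y) (hZe : EqOp act Z) (hY : hs μ Y ≠ ∞) (hZ : hs μ Z ≠ ∞) :
    ∫ q, ⟪Y q.1.1 (dq q), Z q.1.1 (dq q)⟫_ℝ ∂(Km μ) =
      ∫ q, ⟪adjoint (Y q.1.1) (dq q), adjoint (Z q.1.1) (dq q)⟫_ℝ ∂(Km μ) := by
  have gen : ∀ (A B : X → L2 (V × V) →L[ℝ] L2 (V × V)), MeasOp A → MeasOp B →
      hs μ A ≠ ∞ → hs μ B ≠ ∞ →
      ∫ q, ⟪A q.1.1 (dq q), B q.1.1 (dq q)⟫_ℝ ∂(Km μ) =
        ((hs μ fun x => A x + B x).toReal - (hs μ fun x => A x - B x).toReal) / 4 := by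
    intro A B hA hB hA' hB'
    have h1 : (fun q : (X × V) × V => ⟪A q.1.1 (dq q), B q.1.1 (dq q)⟫_ℝ) =
        fun q => (‖(A q.1.1 + B q.1.1) (dq q)‖ ^ 2 - ‖(A q.1.1 - B q.1.1) (dq q)‖ ^ 2) / 4 := by
      ext q
      rw [inner_eq_polar, add_apply, sub_apply]
    rw [h1, integral_div, integral_sub (integrable_norm_dq (hA.add hB) (hs_add_ne_top hA hB hA' hB'))
      (integrable_norm_dq (hA.sub hB) (hs_sub_ne_top hA hB hA' hB')),
      integral_norm_dq (hA.add hB), integral_norm_dq (hA.sub hB)]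
  rw [gen Y Z hYm hZm hY hZ, gen (fun x => adjoint (Y x)) (fun x => adjoint (Z x)) hYm.adj hZm.adj
    (by rw [← hs_adj hμ hYm hYe]; exact hY) (by rw [← hs_adj hμ hZm hZe]; exact hZ)]
  rw [hs_adj hμ (hYm.add hZm) (hYe.add hZe), hs_adj hμ (hYm.sub hZm) (hYe.sub hZe)]
  simp only [map_add, map_sub]

/-- The trace of `Y† (1 - Y Y†)^j Y` is the trace of `Y (1 - Y†Y)^j Y†`. -/
theorem trace_step {act : Equiv.Perm V → X → X} {μ : Measure (X × V)} (hμ : MTP act μ)
    {Y : X → L2 (V × V) →L[ℝ] L2 (V × V)} (hYm : MeasOp Y) (hYe : EqOp act Y)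
    (hYn : ∀ x, ‖Y x‖ ≤ 1) (hY : hs μ Y ≠ ∞) (j : ℕ) :
    ∫⁻ q, ENNReal.ofReal ⟪Y q.1.1 (dq q), (defect (adjoint (Y q.1.1)) ^ j) (Y q.1.1 (dq q))⟫_ℝ
        ∂(Km μ) =
      ∫⁻ q, ENNReal.ofReal ⟪adjoint (Y q.1.1) (dq q),
        (defect (Y q.1.1) ^ j) (adjoint (Y q.1.1) (dq q))⟫_ℝ ∂(Km μ) := by
  have hn' : ∀ x, ‖adjoint (Y x)‖ ≤ 1 := fun x => by
    rw [LinearIsometryEquiv.norm_map]; exact hYn x
  have hpow : ∀ x f, ‖(defect (adjoint (Y x)) ^ j) f‖ ≤ ‖f‖ := by
    intro x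
    induction j with
    | zero => intro f; simp
    | succ j ih =>
      intro f
      rw [pow_succ, mul_apply_eq_comp]
      exact (ih _).trans (norm_defect_le (hn' x) f)
  set Z : X → L2 (V × V) →L[ℝ] L2 (V × V) := fun x => defect (adjoint (Y x)) ^ j * Y x with hZ
  have hZm : MeasOp Z := (hYm.adj.defect.pow j).comp hYm
  have hZe : EqOp act Z := (hYe.adj.defect.pow j).comp hYe
  have hZfin : hs μ Z ≠ ∞ := by
    refine ne_top_of_le_ne_top hY (hs_mono μ fun x f => ?_)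
    exact hpow x _
  have hZadj : ∀ x f, adjoint (Z x) f = (defect (Y x) ^ j) (adjoint (Y x) f) := by
    intro x f
    apply ext_inner_left ℝ
    intro u
    rw [adjoint_inner_right, hZ]
    simp only
    rw [mul_apply_eq_comp, inner_defect_pow]
    rw [← adjoint_inner_right, Y_defect_pow, adjoint_adjoint]
  have hYfin' : hs μ (fun x => adjoint (Y x)) ≠ ∞ := by
    rw [← hs_adj hμ hYm hYe]; exact hY
  have hZfin' : hs μ (fun x => adjoint (Z x)) ≠ ∞ := by
    rw [← hs_adj hμ hZm hZe]; exact hZfin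
  have hint : ∀ (A B : X → L2 (V × V) →L[ℝ] L2 (V × V)), MeasOp A → MeasOp B →
      hs μ A ≠ ∞ → hs μ B ≠ ∞ →
      Integrable (fun q : (X × V) × V => ⟪A q.1.1 (dq q), B q.1.1 (dq q)⟫_ℝ) (Km μ) := by
    intro A B hA hB hA' hB'
    have h1 : (fun q : (X × V) × V => ⟪A q.1.1 (dq q), B q.1.1 (dq q)⟫_ℝ) =
        fun q => (‖(A q.1.1 + B q.1.1) (dq q)‖ ^ 2 - ‖(A q.1.1 - B q.1.1) (dq q)‖ ^ 2) / 4 := by
      ext q
      rw [inner_eq_polar, add_apply, sub_apply]
    rw [h1]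
    exact ((integrable_norm_dq (hA.add hB) (hs_add_ne_top hA hB hA' hB')).sub
      (integrable_norm_dq (hA.sub hB) (hs_sub_ne_top hA hB hA' hB'))).div_const 4
  have h1 := hs_inner hμ hYm hZm hYe hZe hY hZfin
  have h2 : ∀ q : (X × V) × V, 0 ≤ ⟪Y q.1.1 (dq q), Z q.1.1 (dq q)⟫_ℝ := by
    intro q
    exact inner_defect_pow_nonneg (hn' _) j _
  have h3 : ∀ q : (X × V) × V,
      0 ≤ ⟪adjoint (Y q.1.1) (dq q), adjoint (Z q.1.1) (dq q)⟫_ℝ := by
    intro q
    rw [hZadj]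
    exact inner_defect_pow_nonneg (hYn _) j _
  have h4 := ofReal_integral_eq_lintegral_ofReal (hint Y Z hYm hZm hY hZfin)
    (Eventually.of_forall h2)
  have h5 := ofReal_integral_eq_lintegral_ofReal
    (hint (fun x => adjoint (Y x)) (fun x => adjoint (Z x)) hYm.adj hZm.adj hYfin' hZfin')
    (Eventually.of_forall h3)
  rw [h1] at h4
  have h6 := h4.symm.trans h5
  simp only [hZadj] at h6
  exact h6

/-- Sum of the first `k` terms. -/
theorem sum_defect (Y : L2 (V × V) →L[ℝ] L2 (V × V)) (k : ℕ) (x : L2 (V × V)) :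
    ‖x‖ ^ 2 - ⟪x, (defect Y ^ k) x⟫_ℝ =
      ∑ j ∈ Finset.range k, ⟪Y x, (defect (adjoint Y) ^ j) (Y x)⟫_ℝ := by
  induction k with
  | zero => simp
  | succ k ih =>
    rw [Finset.sum_range_succ, ← ih, ← inner_defect_pow_sub]
    ring

/-- Rank lemma. -/
theorem rank_eq {act : Equiv.Perm V → X → X} {μ : Measure (X × V)} (hμ : MTP act μ)
    {Y : X → L2 (V × V) →L[ℝ] L2 (V × V)} (hYm : MeasOp Y) (hYe : EqOp act Y)
    (hYn : ∀ x, ‖Y x‖ ≤ 1) (hY : hs μ Y ≠ ∞) :
    hs μ (fun x => pj (LinearMap.ker (Y x).toLinearMap)ᗮ) =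
      hs μ (fun x => pj (LinearMap.ker (adjoint (Y x)).toLinearMap)ᗮ) := by
  have hn' : ∀ x, ‖adjoint (Y x)‖ ≤ 1 := fun x => by
    rw [LinearIsometryEquiv.norm_map]; exact hYn x
  -- general convergence statement
  have gen : ∀ (A : X → L2 (V × V) →L[ℝ] L2 (V × V)), MeasOp A → (∀ x, ‖A x‖ ≤ 1) →
      Tendsto (fun k : ℕ => ∫⁻ q, ENNReal.ofReal
        (‖dq q‖ ^ 2 - ⟪dq q, (defect (A q.1.1) ^ k) (dq q)⟫_ℝ) ∂(Km μ)) atTop
        (𝓝 (hs μ (fun x => pj (LinearMap.ker (A x).toLinearMap)ᗮ))) := by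
    intro A hA hAn
    have hlim : ∀ q : (X × V) × V, Tendsto
        (fun k : ℕ => ‖dq q‖ ^ 2 - ⟪dq q, (defect (A q.1.1) ^ k) (dq q)⟫_ℝ) atTop
        (𝓝 (‖pj (LinearMap.ker (A q.1.1).toLinearMap)ᗮ (dq q)‖ ^ 2)) := by
      intro q
      have h1 := (tendsto_inner_defect_pow (hAn q.1.1) (dq q)).const_sub (‖dq q‖ ^ 2)
      have h2 : ‖pj (LinearMap.ker (A q.1.1).toLinearMap)ᗮ (dq q)‖ ^ 2 =
          ‖dq q‖ ^ 2 - ‖pj (LinearMap.ker (A q.1.1).toLinearMap) (dq q)‖ ^ 2 := by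
        rw [← inner_pj_self, pj_orth (ker_isClosed _), inner_sub_right, inner_pj_self,
          real_inner_self_eq_norm_sq]
      rw [h2]
      exact h1
    have hmeas : ∀ k : ℕ, Measurable fun q : (X × V) × V => ENNReal.ofReal
        (‖dq q‖ ^ 2 - ⟪dq q, (defect (A q.1.1) ^ k) (dq q)⟫_ℝ) := by
      intro k
      apply Measurable.ennreal_ofReal
      apply measurable_Km
      intro u v
      exact (measurable_const (a := ‖(dl (u, v) : L2 (V × V))‖ ^ 2)).sub
        (hA.defect.pow k (dl (u, v)) (dl (u, v)))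
    have h3 : hs μ (fun x => pj (LinearMap.ker (A x).toLinearMap)ᗮ) =
        ∫⁻ q, ENNReal.ofReal (‖pj (LinearMap.ker (A q.1.1).toLinearMap)ᗮ (dq q)‖ ^ 2) ∂(Km μ) := by
      apply hs_eq
      intro u v
      have h4 : Measurable fun x => ⟪u, pj (LinearMap.ker (A x).toLinearMap) v⟫_ℝ := by
        -- polarisation
        have h5 : ∀ w : L2 (V × V),
            Measurable fun x => ‖pj (LinearMap.ker (A x).toLinearMap) w‖ ^ 2 := by
          intro w
          refine measurable_of_tendsto_metrizable (f := fun k x => ⟪w, (defect (A x) ^ k) w⟫_ℝ)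
            (fun k => hA.defect.pow k w w) ?_
          rw [tendsto_pi_nhds]
          intro x
          exact tendsto_inner_defect_pow (hAn x) w
        have h6 : (fun x => ⟪u, pj (LinearMap.ker (A x).toLinearMap) v⟫_ℝ) = fun x =>
            (‖pj (LinearMap.ker (A x).toLinearMap) (u + v)‖ ^ 2 -
              ‖pj (LinearMap.ker (A x).toLinearMap) (u - v)‖ ^ 2) / 4 := by
          ext x
          have h7 : ⟪u, pj (LinearMap.ker (A x).toLinearMap) v⟫_ℝ =
              ⟪pj (LinearMap.ker (A x).toLinearMap) u, pj (LinearMap.ker (A x).toLinearMap) v⟫_ℝ := by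
            rw [inner_pj, pj_pj]
          rw [h7, inner_eq_polar, map_add, map_sub]
        rw [h6]
        exact ((h5 _).sub (h5 _)).div_const 4
      have : (fun x => ⟪u, pj (LinearMap.ker (A x).toLinearMap)ᗮ v⟫_ℝ) =
          fun x => ⟪u, v⟫_ℝ - ⟪u, pj (LinearMap.ker (A x).toLinearMap) v⟫_ℝ := by
        ext x
        rw [pj_orth (ker_isClosed _), inner_sub_right]
      rw [this]
      exact measurable_const.sub h4
    rw [h3]
    refine lintegral_tendsto_of_tendsto_of_monotone (fun k => (hmeas k).aemeasurable) ?_ ?_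
    · refine Eventually.of_forall (fun q => ?_)
      intro k l hkl
      apply ENNReal.ofReal_le_ofReal
      exact sub_le_sub_left (antitone_inner_defect_pow (hAn q.1.1) (dq q) hkl) _
    · refine Eventually.of_forall (fun q => ?_)
      exact (ENNReal.continuous_ofReal.tendsto _).comp (hlim q)
  have h1 := gen Y hYm hYn
  have h2 := gen (fun x => adjoint (Y x)) hYm.adj hn'
  refine tendsto_nhds_unique h1 (h2.congr (fun k => ?_))
  -- equality of the approximations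
  have e1 : ∀ (A : X → L2 (V × V) →L[ℝ] L2 (V × V)), MeasOp A → (∀ x, ‖A x‖ ≤ 1) →
      ∫⁻ q, ENNReal.ofReal (‖dq q‖ ^ 2 - ⟪dq q, (defect (A q.1.1) ^ k) (dq q)⟫_ℝ) ∂(Km μ) =
      ∑ j ∈ Finset.range k, ∫⁻ q, ENNReal.ofReal
        ⟪A q.1.1 (dq q), (defect (adjoint (A q.1.1)) ^ j) (A q.1.1 (dq q))⟫_ℝ ∂(Km μ) := by
    intro A hA hAn
    have hAn' : ∀ x, ‖adjoint (A x)‖ ≤ 1 := fun x => by
      rw [LinearIsometryEquiv.norm_map]; exact hAn x
    rw [← lintegral_finsetSum]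
    · apply lintegral_congr
      intro q
      rw [sum_defect, ENNReal.ofReal_sum_of_nonneg]
      intro j _
      exact inner_defect_pow_nonneg (hAn' _) j _
    · intro j _
      apply Measurable.ennreal_ofReal
      exact measurable_inner_dq hA ((hA.adj.defect.pow j).comp hA)
  rw [e1 Y hYm hYn, e1 (fun x => adjoint (Y x)) hYm.adj hn']
  apply Finset.sum_congr rfl
  intro j _
  rw [trace_step hμ hYm hYe hYn hY j]
  simp only [adjoint_adjoint]

end Rank

end Vale.Agent.P143
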