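import Vale.Agent.P143_h11.Euler

set_option linter.unusedSectionVars false
set_option linter.unusedVariables false

open Filter Topology MeasureTheory ProbabilityTheory
open scoped InnerProductSpace ENNReal

namespace Vale.Agent.P143

open Vale.Agent.P143C (vlab unif)

/-- Indicator of a proposition. -/
noncomputable def ind (p : Prop) : ℝ≥0∞ := open Classical in if p then 1 else 0

theorem ind_pos {p : Prop} (h : p) : ind p = 1 := if_pos h
theorem ind_neg {p : Prop} (h : ¬ p) : ind p = 0 := if_neg h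

theorem ind_le_one (p : Prop) : ind p ≤ 1 := by
  by_cases h : p
  · rw [ind_pos h]
  · rw [ind_neg h]; exact zero_le

theorem ind_mono {p q : Prop} (h : p → q) : ind p ≤ ind q := by
  by_cases hp : p
  · rw [ind_pos hp, ind_pos (h hp)]
  · rw [ind_neg hp]; exact zero_le

theorem measurable_ind {X : Type*} [MeasurableSpace X] {p : X → Prop}
    (h : MeasurableSet {x | p x}) : Measurable fun x => ind (p x) :=
  Measurable.ite h measurable_const measurable_const

theorem lintegral_ind {X : Type*} [MeasurableSpace X] (μ : Measure X) {p : X → Prop}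
    (h : MeasurableSet {x | p x}) : ∫⁻ x, ind (p x) ∂μ = μ {x | p x} := by
  have : (fun x => ind (p x)) = {x | p x}.indicator (fun _ => (1 : ℝ≥0∞)) := by
    ext x
    by_cases hx : p x
    · rw [ind_pos hx, Set.indicator_of_mem (show x ∈ {x | p x} from hx)]
    · rw [ind_neg hx, Set.indicator_of_notMem (show x ∉ {x | p x} from hx)]
  rw [this]
  exact lintegral_indicator_one h

section Recur

variable {V : Type*} [Countable V] [MeasurableSpace V] [DiscreteMeasurableSpace V]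
  {S : SimpleGraph V → (ℕ → ℝ) → Set (Sym2 V)}

theorem FC_of_FUSF {G : SimpleGraph V} (hG : G.Connected) {μ : Measure (Set (Sym2 V))}
    (hμ : IsFUSF G μ) : FC G μ := fun O C e he heO heC hd =>
  IsFUSF.cond (exists_exhaustion G hG) hμ O C e _
    (fun H hH => ust_lim G H hH O C e he heO heC hd)

variable (k j : ℕ)

/-- The two conditional probabilities compared by the Lipschitz estimate. -/
noncomputable def dpc (ω : Om V) (e : Sym2 V) : ℝ≥0∞ :=
  ENNReal.ofReal |pcS ω.1 (Rt (j * hh k) ω.1 ω.2.1) (ω.2.2.1 ∩ Rt (j * hh k) ω.1 ω.2.1) e -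
    pcS ω.1 (Rt (j * hh k) ω.1 ω.2.1) (sch k ω.1 ω.2.1 (VV ω.1 ω.2.1 ω.2.2.1 ω.2.2.2) j) e|

theorem measurable_dpc (e : Sym2 V) : Measurable fun ω : Om V => dpc k j ω e := by
  have hR := measurable_Rt (X := Om V) (G := fun ω => ω.1) (x := fun ω => ω.2.1)
    measurable_fst measurable_snd.fst (j * hh k)
  have h1 := measurable_pcS (X := Om V) (G := fun ω => ω.1) measurable_fst hR
    (measurable_inter measurable_snd.snd.fst hR) e
  have h2 := measurable_pcS (X := Om V) (G := fun ω => ω.1) measurable_fst hR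
    (measurable_sch measurable_fst measurable_snd.fst measurable_VVo k j) e
  unfold dpc
  exact (continuous_abs.measurable.comp (h1.sub h2)).ennreal_ofReal

theorem measurable_DDind (e : Sym2 V) : Measurable fun ω : Om V => ind (e ∈ DD k j ω) :=
  measurable_ind (measurable_mem_iff' (measurable_DD k j) e)

/-- LIP step. -/
theorem lip_step (P : Measure (SimpleGraph V × V)) [IsProbabilityMeasure P] (hP : IsUnimodular P)
    (hconn : ∀ᵐ p ∂P, p.1.Connected)
    (hS : Measurable fun p : SimpleGraph V × (ℕ → ℝ) => S p.1 p.2)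
    (hF : ∀ G : SimpleGraph V, G.Connected → IsFUSF G (kap S G)) :
    EE (rho P S) (dpc k j) ≤ 2 * EE (rho P S) (fun ω e => ind (e ∈ DD k j ω)) := by
  have := rho_prob P hS
  have hM := mtp_rho P hP hconn hS hF
  have hG0 : ∀ (g : Equiv.Perm V) (ω : Om V), (actO g ω).1 = actG g ω.1 := fun g ω => rfl
  have hx0 : EqLab actO (fun ω : Om V => ω.2.1) := fun g ω e => actL_apply g ω.2.1 e
  have hξ0 : EqLab actO (fun ω : Om V => ω.2.2.2) := fun g ω e => actL_apply g ω.2.2.2 e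
  have hT0 : RandEdge actO (fun ω : Om V => ω.2.2.1) :=
    ⟨measurable_snd.snd.fst, fun g ω e => mem_actT g ω.2.2.1 e⟩
  have hE := randEdge_edgeSet (X := Om V) (G := fun ω => ω.1) (act := actO) measurable_fst hG0
  have hR := randEdge_Rt (X := Om V) (G := fun ω => ω.1) (x := fun ω => ω.2.1) (act := actO)
    measurable_fst measurable_snd.fst hG0 hx0 (j * hh k)
  have hV := VV_act (X := Om V) (G := fun ω => ω.1) (x := fun ω => ω.2.1) (act := actO)
    measurable_fst measurable_snd.fst hG0 hx0 hT0 hξ0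
  have hsch := randEdge_sch (X := Om V) (G := fun ω => ω.1) (x := fun ω => ω.2.1) (act := actO)
    measurable_fst measurable_snd.fst measurable_VVo hG0 hx0 hV k j
  have hO := hT0.inter hR
  have hlip := lip hM hE.Zb hR.dd hO.dd hsch.dd (fun ω => by
      intro i hi; exact hi.2) (fun ω => by
      intro i hi; exact sch_subset k _ _ _ j hi)
  have e1 : EE (rho P S) (dpc k j) = 2 * ∫⁻ p, ∑' b, ENNReal.ofReal
      |‖pj (Wc (Zb p.1.1.edgeSet) (dd (p.1.2.2.1 ∩ Rt (j * hh k) p.1.1 p.1.2.1))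
        (dd (Rt (j * hh k) p.1.1 p.1.2.1) \ dd (p.1.2.2.1 ∩ Rt (j * hh k) p.1.1 p.1.2.1)))
          (dl (p.2, b))‖ ^ 2 -
      ‖pj (Wc (Zb p.1.1.edgeSet) (dd (sch k p.1.1 p.1.2.1 (VV p.1.1 p.1.2.1 p.1.2.2.1 p.1.2.2.2) j))
        (dd (Rt (j * hh k) p.1.1 p.1.2.1) \
          dd (sch k p.1.1 p.1.2.1 (VV p.1.1 p.1.2.1 p.1.2.2.1 p.1.2.2.2) j)))
          (dl (p.2, b))‖ ^ 2| ∂(rho P S) := by
    unfold EE
    rw [← lintegral_const_mul']
    · apply lintegral_congr
      intro w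
      rw [← ENNReal.tsum_mul_left]
      apply tsum_congr
      intro b
      unfold dpc
      rw [pcS_mk, pcS_mk, ← mul_sub, abs_mul, ENNReal.ofReal_mul (abs_nonneg _), abs_two]
      congr 1
      norm_num
    · norm_num
  rw [e1]
  refine mul_le_mul_right (hlip.trans ?_) 2
  -- densities
  have e2 : ∀ (A : Om V → Set (Sym2 V)),
      dens (rho P S) (fun ω => dd (A ω)) = EE (rho P S) (fun ω e => ind (e ∈ A ω)) := by
    intro A; rfl
  have e3 : dens (rho P S) (fun ω : Om V =>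
      dd (sch k ω.1 ω.2.1 (VV ω.1 ω.2.1 ω.2.2.1 ω.2.2.2) j) \
        dd (ω.2.2.1 ∩ Rt (j * hh k) ω.1 ω.2.1)) = EE (rho P S) (fun ω e => ind (e ∈
          sch k ω.1 ω.2.1 (VV ω.1 ω.2.1 ω.2.2.1 ω.2.2.2) j \
            (ω.2.2.1 ∩ Rt (j * hh k) ω.1 ω.2.1))) := rfl
  have e4 : dens (rho P S) (fun ω : Om V => dd (ω.2.2.1 ∩ Rt (j * hh k) ω.1 ω.2.1) \
      dd (sch k ω.1 ω.2.1 (VV ω.1 ω.2.1 ω.2.2.1 ω.2.2.2) j)) = EE (rho P S) (fun ω e => ind (e ∈
          (ω.2.2.1 ∩ Rt (j * hh k) ω.1 ω.2.1) \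
            sch k ω.1 ω.2.1 (VV ω.1 ω.2.1 ω.2.2.1 ω.2.2.2) j)) := rfl
  rw [e3, e4, ← EE_add]
  · apply EE_mono
    intro ω e
    by_cases h1 : e ∈ ω.2.2.1 ∩ Rt (j * hh k) ω.1 ω.2.1
    · by_cases h2 : e ∈ sch k ω.1 ω.2.1 (VV ω.1 ω.2.1 ω.2.2.1 ω.2.2.2) j
      · rw [ind_neg (fun h => h.2 h1), ind_neg (fun h => h.2 h2), add_zero]
        exact zero_le
      · rw [ind_neg (fun h => h.2 h1), ind_pos ⟨h1, h2⟩, zero_add, ind_pos]
        intro h; exact h2 (h.1 h1)
    · by_cases h2 : e ∈ sch k ω.1 ω.2.1 (VV ω.1 ω.2.1 ω.2.2.1 ω.2.2.2) j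
      · rw [ind_pos ⟨h2, h1⟩, ind_neg (fun h => h.2 h2), add_zero, ind_pos]
        intro h; exact h1 (h.2 h2)
      · rw [ind_neg (fun h => h2 h.1), ind_neg (fun h => h1 h.1), add_zero]
        exact zero_le
  · intro e
    exact measurable_ind (measurable_mem_iff' (measurable_diff (measurable_sch measurable_fst
      measurable_snd.fst measurable_VVo k j) (measurable_inter measurable_snd.snd.fst
      (measurable_Rt measurable_fst measurable_snd.fst _))) e)

/-- Hazard step. -/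
theorem hazard_step (P : Measure (SimpleGraph V × V)) [IsProbabilityMeasure P]
    (hS : Measurable fun p : SimpleGraph V × (ℕ → ℝ) => S p.1 p.2) :
    EE (rho P S) (fun ω e => ind (bat k j ω.1 ω.2.1 e) * dpc k j ω e) ≤
      ENNReal.ofReal (hh k) * EE (rho P S) (dpc k j) := by
  have hprob : ∀ G, IsProbabilityMeasure (kap S G) := kap_prob hS
  have hm1 : ∀ e, Measurable fun ω : Om V => ind (bat k j ω.1 ω.2.1 e) * dpc k j ω e := fun e =>
    (measurable_ind (measurableSet_bat k j e)).mul (measurable_dpc k j e)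
  rw [← EE_const_mul _ (measurable_dpc k j), EE_eq' P hS hm1,
    EE_eq' P hS (fun e => (measurable_dpc k j e).const_mul _)]
  apply lintegral_mono
  intro p
  apply ENNReal.tsum_le_tsum
  intro b
  apply lintegral_mono
  intro z
  have hmx : Measurable fun x : Lab V => dpc k j (p.1, x, z.1, z.2) s(p.2, b) :=
    (measurable_dpc k j s(p.2, b)).comp (measurable_const.prodMk (measurable_id.prodMk
      measurable_const))
  set e := s(p.2, b) with he
  set m := mm p.1 e with hm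
  have hmpos : 0 < m := mm_pos _ _
  have hm1' : 1 ≤ m := one_le_mm _ _
  set a := (j : ℝ) * hh k / m with ha
  set c := ((j : ℝ) + 1) * hh k / m with hc
  have hh0 := hh_pos k
  have ha0 : 0 ≤ a := by rw [ha]; positivity
  have hac : a ≤ c := by
    rw [ha, hc]
    apply div_le_div_of_nonneg_right _ hmpos.le
    nlinarith
  have hset1 : ∀ x : Lab V, (a ≤ x e ↔ j * hh k ≤ tau p.1 x e) := by
    intro x; rw [ha, div_le_iff₀ hmpos]; rfl
  have hset2 : ∀ x : Lab V, (x e < c ↔ tau p.1 x e < (j + 1) * hh k) := by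
    intro x; rw [hc, lt_div_iff₀ hmpos]; rfl
  have hdep : ∀ x x' : Lab V, (∀ i, i ≠ e → x i = x' i) → a ≤ x e → a ≤ x' e →
      dpc k j (p.1, x, z.1, z.2) e = dpc k j (p.1, x', z.1, z.2) e := by
    intro x x' hxx hx hx'
    have ht0 : (0 : ℝ) ≤ j * hh k := by positivity
    have hxx' : ∀ f ∈ p.1.edgeSet, tau p.1 x f < j * hh k ∨ tau p.1 x' f < j * hh k →
        x f = x' f := by
      intro f _ hf
      apply hxx
      rintro rfl
      rcases hf with hf | hf
      · exact absurd ((hset1 x).1 hx) (not_le.2 hf)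
      · exact absurd ((hset1 x').1 hx') (not_le.2 hf)
    have hRR : Rt (j * hh k) p.1 x = Rt (j * hh k) p.1 x' := Rt_congr hxx' le_rfl
    have hsch : sch k p.1 x (VV p.1 x z.1 z.2) j = sch k p.1 x' (VV p.1 x' z.1 z.2) j :=
      sch_congr k p.1 j hxx' (fun f hf hft => VV_congr ht0 hxx' z.1 z.2 hf hft)
    unfold dpc
    simp only
    rw [hRR, hsch]
  have key := hazard e a c ha0 hac (fun x => dpc k j (p.1, x, z.1, z.2) e) hmx hdep
  have hms : MeasurableSet {x : Lab V | a ≤ x e ∧ x e < c} :=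
    (measurableSet_le measurable_const (measurable_pi_apply e)).inter
      (measurableSet_lt (measurable_pi_apply e) measurable_const)
  have h1 : ∫⁻ x, ind (bat k j p.1 x e) * dpc k j (p.1, x, z.1, z.2) e ∂(nuX V) ≤
      ∫⁻ x in {x : Lab V | a ≤ x e ∧ x e < c}, dpc k j (p.1, x, z.1, z.2) e ∂(nuX V) := by
    rw [← lintegral_indicator hms]
    apply lintegral_mono
    intro x
    by_cases hx : bat k j p.1 x e
    · have hx' : x ∈ {x : Lab V | a ≤ x e ∧ x e < c} := ⟨(hset1 x).2 hx.2.1, (hset2 x).2 hx.2.2⟩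
      simp only
      rw [Set.indicator_of_mem hx', ind_pos hx, one_mul]
    · simp only
      rw [ind_neg hx, zero_mul]; exact zero_le
  refine h1.trans (key.trans ?_)
  simp only
  rw [lintegral_const_mul _ hmx]
  refine mul_le_mul' ?_ (setLIntegral_le_lintegral _ _)
  apply ENNReal.ofReal_le_ofReal
  rw [ha, hc, ← sub_div, ← sub_mul, add_sub_cancel_left, one_mul]
  exact div_le_self hh0.le hm1'

/-- One step of the recursion for the disagreement. -/
theorem step (P : Measure (SimpleGraph V × V)) [IsProbabilityMeasure P] (hP : IsUnimodular P)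
    (hconn : ∀ᵐ p ∂P, p.1.Connected) (hlf : ∀ᵐ p ∂P, ∀ v, (p.1.neighborSet v).Finite)
    (hS : Measurable fun p : SimpleGraph V × (ℕ → ℝ) => S p.1 p.2)
    (hF : ∀ G : SimpleGraph V, G.Connected → IsFUSF G (kap S G)) :
    EE (rho P S) (fun ω e => ind (e ∈ DD k (j + 1) ω)) ≤
      EE (rho P S) (fun ω e => ind (e ∈ DD k j ω)) +
      (EE (rho P S) (fun ω e => ind (bat k j ω.1 ω.2.1 e) *
        ENNReal.ofReal |qq ω.1 ω.2.1 ω.2.2.1 e - Mk k ω.1 ω.2.1 ω.2.2.1 e|) +
      ENNReal.ofReal (hh k) * (2 * EE (rho P S) (fun ω e => ind (e ∈ DD k j ω)))) := by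
  have hprob : ∀ G, IsProbabilityMeasure (kap S G) := kap_prob hS
  have hms : ∀ e, MeasurableSet {ω : Om V | bat k j ω.1 ω.2.1 e ∧
      ¬ (e ∈ ω.2.2.1 ↔ VV ω.1 ω.2.1 ω.2.2.1 ω.2.2.2 e < aa k j ω.1 ω.2.1 ω.2.2.1 ω.2.2.2 e)} := by
    intro e
    have h1 := measurableSet_bat (V := V) k j e
    have h2 : MeasurableSet {ω : Om V | e ∈ ω.2.2.1} :=
      measurable_mem_iff' (measurable_snd.snd.fst) e
    have h3 : MeasurableSet {ω : Om V | VV ω.1 ω.2.1 ω.2.2.1 ω.2.2.2 e <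
        aa k j ω.1 ω.2.1 ω.2.2.1 ω.2.2.2 e} :=
      measurableSet_lt ((measurable_pi_apply e).comp measurable_VVo) (measurable_aa k j e)
    have h4 : {ω : Om V | bat k j ω.1 ω.2.1 e ∧
      ¬ (e ∈ ω.2.2.1 ↔ VV ω.1 ω.2.1 ω.2.2.1 ω.2.2.2 e < aa k j ω.1 ω.2.1 ω.2.2.1 ω.2.2.2 e)} =
      {ω : Om V | bat k j ω.1 ω.2.1 e} ∩ (({ω : Om V | e ∈ ω.2.2.1} \
        {ω : Om V | VV ω.1 ω.2.1 ω.2.2.1 ω.2.2.2 e < aa k j ω.1 ω.2.1 ω.2.2.1 ω.2.2.2 e}) ∪
        ({ω : Om V | VV ω.1 ω.2.1 ω.2.2.1 ω.2.2.2 e < aa k j ω.1 ω.2.1 ω.2.2.1 ω.2.2.2 e} \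
        {ω : Om V | e ∈ ω.2.2.1})) := by
      ext ω
      simp only [Set.mem_ofPred_eq, Set.mem_inter_iff, Set.mem_union, Set.mem_sdiff]
      tauto
    rw [h4]
    exact h1.inter ((h2.diff h3).union (h3.diff h2))
  have hmqq : ∀ e, Measurable fun ω : Om V => qq ω.1 ω.2.1 ω.2.2.1 e := fun e =>
    measurable_qq measurable_fst measurable_snd.fst measurable_snd.snd.fst e
  have hmMk : ∀ e, Measurable fun ω : Om V => Mk k ω.1 ω.2.1 ω.2.2.1 e := fun e =>
    measurable_Mk measurable_fst measurable_snd.fst measurable_snd.snd.fst k e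
  have hm2 : ∀ e, Measurable fun ω : Om V => ind (bat k j ω.1 ω.2.1 e) *
        ENNReal.ofReal |qq ω.1 ω.2.1 ω.2.2.1 e - aa k j ω.1 ω.2.1 ω.2.2.1 ω.2.2.2 e| := fun e =>
    (measurable_ind (measurableSet_bat k j e)).mul
      (continuous_abs.measurable.comp ((hmqq e).sub (measurable_aa k j e))).ennreal_ofReal
  have hm3 : ∀ e, Measurable fun ω : Om V => ind (bat k j ω.1 ω.2.1 e) *
        ENNReal.ofReal |qq ω.1 ω.2.1 ω.2.2.1 e - Mk k ω.1 ω.2.1 ω.2.2.1 e| := fun e =>
    (measurable_ind (measurableSet_bat k j e)).mul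
      (continuous_abs.measurable.comp ((hmqq e).sub (hmMk e))).ennreal_ofReal
  -- step A
  have hA : EE (rho P S) (fun ω e => ind (e ∈ DD k (j + 1) ω)) ≤
      EE (rho P S) (fun ω e => ind (e ∈ DD k j ω)) +
      EE (rho P S) (fun ω e => ind (bat k j ω.1 ω.2.1 e ∧
      ¬ (e ∈ ω.2.2.1 ↔ VV ω.1 ω.2.1 ω.2.2.1 ω.2.2.2 e < aa k j ω.1 ω.2.1 ω.2.2.1 ω.2.2.2 e))) := by
    rw [← EE_add _ (measurable_DDind k j)]
    apply EE_mono
    intro ω e
    by_cases h : e ∈ DD k (j + 1) ω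
    · rcases DD_succ k j ω h with h1 | h1
      · rw [ind_pos h, ind_pos h1]; exact le_self_add
      · rw [ind_pos h, ind_pos h1]; exact le_add_self
    · rw [ind_neg h]; exact zero_le
  -- step B
  have hB : EE (rho P S) (fun ω e => ind (bat k j ω.1 ω.2.1 e ∧
      ¬ (e ∈ ω.2.2.1 ↔ VV ω.1 ω.2.1 ω.2.2.1 ω.2.2.2 e < aa k j ω.1 ω.2.1 ω.2.2.1 ω.2.2.2 e))) =
      EE (rho P S) (fun ω e => ind (bat k j ω.1 ω.2.1 e) *
        ENNReal.ofReal |qq ω.1 ω.2.1 ω.2.2.1 e - aa k j ω.1 ω.2.1 ω.2.2.1 ω.2.2.2 e|) := by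
    rw [EE_eq P hS (fun e => measurable_ind (hms e)), EE_eq P hS hm2]
    apply lintegral_congr_ae
    filter_upwards [good_ae P hP hconn hlf hS hF, hconn] with p hp hc
    apply tsum_congr
    intro b
    apply lintegral_congr_ae
    filter_upwards [hp] with x hx
    by_cases hb : bat k j p.1 x s(p.2, b)
    · have h1 := xor_eq k j hS (FC_of_FUSF hc (hF p.1 hc))
        ((hF p.1 hc).subset_ae (exists_exhaustion _ hc)) hx hb
      have h2 : MeasurableSet {z : Set (Sym2 V) × Lab V | ¬ (s(p.2, b) ∈ z.1 ↔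
          VV p.1 x z.1 z.2 s(p.2, b) < aa k j p.1 x z.1 z.2 s(p.2, b))} := by
        have h3 : MeasurableSet {z : Set (Sym2 V) × Lab V | s(p.2, b) ∈ z.1} :=
          measurable_mem_iff' measurable_fst _
        have h4 : MeasurableSet {z : Set (Sym2 V) × Lab V |
            VV p.1 x z.1 z.2 s(p.2, b) < aa k j p.1 x z.1 z.2 s(p.2, b)} :=
          measurableSet_lt ((measurable_pi_apply s(p.2, b)).comp (measurable_VV
            (X := Set (Sym2 V) × Lab V) (G := fun _ => p.1) (x := fun _ => x)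
            measurable_const measurable_const measurable_fst measurable_snd))
            (measurable_aa_z k j p.1 x _)
        have h5 : {z : Set (Sym2 V) × Lab V | ¬ (s(p.2, b) ∈ z.1 ↔
          VV p.1 x z.1 z.2 s(p.2, b) < aa k j p.1 x z.1 z.2 s(p.2, b))} =
          ({z : Set (Sym2 V) × Lab V | s(p.2, b) ∈ z.1} \ {z : Set (Sym2 V) × Lab V |
            VV p.1 x z.1 z.2 s(p.2, b) < aa k j p.1 x z.1 z.2 s(p.2, b)}) ∪
          ({z : Set (Sym2 V) × Lab V |
            VV p.1 x z.1 z.2 s(p.2, b) < aa k j p.1 x z.1 z.2 s(p.2, b)} \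
            {z : Set (Sym2 V) × Lab V | s(p.2, b) ∈ z.1}) := by
          ext z
          simp only [Set.mem_ofPred_eq, Set.mem_union, Set.mem_sdiff]
          tauto
        rw [h5]
        exact (h3.diff h4).union (h4.diff h3)
      have h3 : ∀ z : Set (Sym2 V) × Lab V, ind (bat k j p.1 x s(p.2, b) ∧ ¬ (s(p.2, b) ∈ z.1 ↔
          VV p.1 x z.1 z.2 s(p.2, b) < aa k j p.1 x z.1 z.2 s(p.2, b))) =
          ind (¬ (s(p.2, b) ∈ z.1 ↔
          VV p.1 x z.1 z.2 s(p.2, b) < aa k j p.1 x z.1 z.2 s(p.2, b))) := by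
        intro z; congr 1; simp [hb]
      simp only [h3, ind_pos hb, one_mul]
      rw [lintegral_ind _ h2, h1]
    · have h3 : ∀ z : Set (Sym2 V) × Lab V, ind (bat k j p.1 x s(p.2, b) ∧ ¬ (s(p.2, b) ∈ z.1 ↔
          VV p.1 x z.1 z.2 s(p.2, b) < aa k j p.1 x z.1 z.2 s(p.2, b))) = 0 := by
        intro z; exact ind_neg (fun h => hb h.1)
      simp only [h3, ind_neg hb, zero_mul]
  -- step C
  have hC : EE (rho P S) (fun ω e => ind (bat k j ω.1 ω.2.1 e) *
        ENNReal.ofReal |qq ω.1 ω.2.1 ω.2.2.1 e - aa k j ω.1 ω.2.1 ω.2.2.1 ω.2.2.2 e|) ≤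
      EE (rho P S) (fun ω e => ind (bat k j ω.1 ω.2.1 e) *
        ENNReal.ofReal |qq ω.1 ω.2.1 ω.2.2.1 e - Mk k ω.1 ω.2.1 ω.2.2.1 e|) +
      EE (rho P S) (fun ω e => ind (bat k j ω.1 ω.2.1 e) * dpc k j ω e) := by
    rw [← EE_add _ hm3]
    apply EE_mono
    intro ω e
    by_cases hb : bat k j ω.1 ω.2.1 e
    · rw [ind_pos hb, one_mul, one_mul, one_mul]
      unfold dpc
      rw [← ENNReal.ofReal_add (abs_nonneg _) (abs_nonneg _)]
      apply ENNReal.ofReal_le_ofReal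
      rw [Mk_bat hb]
      unfold aa
      set A := pcS ω.1 (Rt (j * hh k) ω.1 ω.2.1) (ω.2.2.1 ∩ Rt (j * hh k) ω.1 ω.2.1) e
      set B := pcS ω.1 (Rt (j * hh k) ω.1 ω.2.1)
        (sch k ω.1 ω.2.1 (VV ω.1 ω.2.1 ω.2.2.1 ω.2.2.2) j) e
      set Q := qq ω.1 ω.2.1 ω.2.2.1 e
      have h1 : Q - (1 - B) = (Q - (1 - A)) + -(A - B) := by ring
      rw [h1]
      refine (abs_add_le _ _).trans ?_
      rw [abs_neg]
    · rw [ind_neg hb, zero_mul]; exact zero_le
  calc EE (rho P S) (fun ω e => ind (e ∈ DD k (j + 1) ω)) ≤ _ := hA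
    _ ≤ _ := by
      rw [hB]
      refine add_le_add le_rfl (hC.trans (add_le_add le_rfl ?_))
      refine (hazard_step k j P hS).trans ?_
      exact mul_le_mul_right (lip_step k j P hP hconn hS hF) _

end Recur

end Vale.Agent.P143
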