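import Vale.Agent.P143_h11.Coupl

set_option linter.unusedSectionVars false
set_option linter.unusedVariables false

open Filter Topology MeasureTheory ProbabilityTheory
open scoped InnerProductSpace ENNReal

namespace Vale.Agent.P143

open Vale.Agent.P143C (vlab unif)

section Rho

variable {V : Type*} [Countable V] [MeasurableSpace V] [DiscreteMeasurableSpace V]

instance : IsProbabilityMeasure unif := by
  constructor
  unfold unif
  rw [Measure.restrict_apply_univ, Real.volume_Icc]
  norm_num

/-- Law of the clocks. -/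
noncomputable def nuX (V : Type*) : Measure (Lab V) := Measure.infinitePi fun _ => expMeasure 1

/-- Law of the uniform labels. -/
noncomputable def nuU (V : Type*) : Measure (Lab V) := Measure.infinitePi fun _ => unif

/-- Law of the randomness used for sampling. -/
noncomputable def nuN : Measure (ℕ → ℝ) := Measure.infinitePi fun _ => unif

instance : IsProbabilityMeasure (expMeasure 1) := isProbabilityMeasure_expMeasure zero_lt_one

instance : IsProbabilityMeasure (nuX V) := by unfold nuX; infer_instance
instance : IsProbabilityMeasure (nuU V) := by unfold nuU; infer_instance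
instance : IsProbabilityMeasure nuN := by unfold nuN; infer_instance

/-- Law of the sampled forest. -/
noncomputable def kap (S : SimpleGraph V → (ℕ → ℝ) → Set (Sym2 V)) (G : SimpleGraph V) :
    Measure (Set (Sym2 V)) := nuN.map (S G)

/-- The space of graphs, clocks, forests and uniform labels. -/
abbrev Om (V : Type*) := SimpleGraph V × Lab V × Set (Sym2 V) × Lab V

/-- The action on `Om V`. -/
def actO (g : Equiv.Perm V) (ω : Om V) : Om V :=
  (actG g ω.1, actL g ω.2.1, actT g ω.2.2.1, actL g ω.2.2.2)

variable {S : SimpleGraph V → (ℕ → ℝ) → Set (Sym2 V)}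

theorem measurable_S (hS : Measurable fun p : SimpleGraph V × (ℕ → ℝ) => S p.1 p.2)
    (G : SimpleGraph V) : Measurable (S G) :=
  hS.comp (measurable_const.prodMk measurable_id)

theorem kap_prob (hS : Measurable fun p : SimpleGraph V × (ℕ → ℝ) => S p.1 p.2)
    (G : SimpleGraph V) : IsProbabilityMeasure (kap S G) :=
  Measure.isProbabilityMeasure_map (measurable_S hS G).aemeasurable

/-- The joint law. -/
noncomputable def rho (P : Measure (SimpleGraph V × V))
    (S : SimpleGraph V → (ℕ → ℝ) → Set (Sym2 V)) : Measure (Om V × V) :=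
  (P.prod ((nuX V).prod (nuN.prod (nuU V)))).map
    (fun z => ((z.1.1, z.2.1, S z.1.1 z.2.2.1, z.2.2.2), z.1.2))

theorem measurable_Theta (hS : Measurable fun p : SimpleGraph V × (ℕ → ℝ) => S p.1 p.2) :
    Measurable (fun z : (SimpleGraph V × V) × (Lab V × ((ℕ → ℝ) × Lab V)) =>
      (((z.1.1, z.2.1, S z.1.1 z.2.2.1, z.2.2.2), z.1.2) : Om V × V)) := by
  have h1 : Measurable fun z : (SimpleGraph V × V) × (Lab V × ((ℕ → ℝ) × Lab V)) =>
      S z.1.1 z.2.2.1 :=
    hS.comp (measurable_fst.fst.prodMk measurable_snd.snd.fst)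
  exact ((measurable_fst.fst.prodMk (measurable_snd.fst.prodMk (h1.prodMk
    measurable_snd.snd.snd))).prodMk measurable_fst.snd)

theorem rho_prob (P : Measure (SimpleGraph V × V)) [IsProbabilityMeasure P]
    (hS : Measurable fun p : SimpleGraph V × (ℕ → ℝ) => S p.1 p.2) :
    IsProbabilityMeasure (rho P S) :=
  Measure.isProbabilityMeasure_map (measurable_Theta hS).aemeasurable

theorem kap_prod (hS : Measurable fun p : SimpleGraph V × (ℕ → ℝ) => S p.1 p.2)
    (G : SimpleGraph V) :
    (kap S G).prod (nuU V) = (nuN.prod (nuU V)).map (Prod.map (S G) id) := by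
  unfold kap
  rw [← Measure.map_prod_map _ _ (measurable_S hS G) measurable_id, Measure.map_id]

theorem lintegral_rho (P : Measure (SimpleGraph V × V)) [IsProbabilityMeasure P]
    (hS : Measurable fun p : SimpleGraph V × (ℕ → ℝ) => S p.1 p.2) {F : Om V × V → ℝ≥0∞}
    (hF : Measurable F) :
    ∫⁻ w, F w ∂(rho P S) = ∫⁻ p, ∫⁻ x, ∫⁻ z, F ((p.1, x, z.1, z.2), p.2)
      ∂((kap S p.1).prod (nuU V)) ∂(nuX V) ∂P := by
  have hT := measurable_Theta hS
  unfold rho
  rw [lintegral_map hF hT]
  have h1 := lintegral_prod (μ := P) (ν := (nuX V).prod (nuN.prod (nuU V)))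
    (fun z : (SimpleGraph V × V) × (Lab V × ((ℕ → ℝ) × Lab V)) =>
      F ((z.1.1, z.2.1, S z.1.1 z.2.2.1, z.2.2.2), z.1.2)) (hF.comp hT).aemeasurable
  rw [h1]
  apply lintegral_congr
  intro p
  have h2 : Measurable fun y : Lab V × ((ℕ → ℝ) × Lab V) => F ((p.1, y.1, S p.1 y.2.1, y.2.2), p.2) :=
    (hF.comp hT).comp (measurable_const.prodMk measurable_id)
  rw [lintegral_prod _ h2.aemeasurable]
  apply lintegral_congr
  intro x
  rw [kap_prod hS, lintegral_map]
  · rfl
  · exact hF.comp ((measurable_const.prodMk (measurable_const.prodMk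
      (measurable_fst.prodMk measurable_snd))).prodMk measurable_const)
  · exact (measurable_S hS p.1).prodMap measurable_id

theorem ae_rho (P : Measure (SimpleGraph V × V)) [IsProbabilityMeasure P]
    (hS : Measurable fun p : SimpleGraph V × (ℕ → ℝ) => S p.1 p.2) {N : Om V × V → Prop}
    (hN : MeasurableSet {w | N w}) :
    (∀ᵐ w ∂(rho P S), N w) ↔ ∀ᵐ p ∂P, ∀ᵐ x ∂(nuX V), ∀ᵐ z ∂((kap S p.1).prod (nuU V)),
      N ((p.1, x, z.1, z.2), p.2) := by
  have hT := measurable_Theta hS
  unfold rho
  rw [ae_map_iff hT.aemeasurable hN]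
  have h2 : (∀ᵐ y ∂(P.prod ((nuX V).prod (nuN.prod (nuU V)))),
      N ((y.1.1, y.2.1, S y.1.1 y.2.2.1, y.2.2.2), y.1.2)) ↔
      ∀ᵐ p ∂P, ∀ᵐ y ∂((nuX V).prod (nuN.prod (nuU V))),
        N ((p.1, y.1, S p.1 y.2.1, y.2.2), p.2) :=
    Measure.ae_prod_iff_ae_ae (hN.preimage hT)
  rw [h2]
  apply Filter.eventually_congr
  refine Eventually.of_forall fun p => ?_
  have hT2 : Measurable fun y : Lab V × ((ℕ → ℝ) × Lab V) =>
      (((p.1, y.1, S p.1 y.2.1, y.2.2), p.2) : Om V × V) :=
    hT.comp (measurable_const.prodMk measurable_id)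
  have h3 : (∀ᵐ y ∂((nuX V).prod (nuN.prod (nuU V))), N ((p.1, y.1, S p.1 y.2.1, y.2.2), p.2)) ↔
      ∀ᵐ x ∂(nuX V), ∀ᵐ y ∂(nuN.prod (nuU V)), N ((p.1, x, S p.1 y.1, y.2), p.2) :=
    Measure.ae_prod_iff_ae_ae (hN.preimage hT2)
  rw [h3]
  apply Filter.eventually_congr
  refine Eventually.of_forall fun x => ?_
  rw [kap_prod hS, ae_map_iff ((measurable_S hS p.1).prodMap measurable_id).aemeasurable]
  · rfl
  · exact hN.preimage ((measurable_const.prodMk (measurable_const.prodMk
      (measurable_fst.prodMk measurable_snd))).prodMk measurable_const)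

end Rho

section Conn

variable {V : Type*} [Countable V]

/-- Reachability in at most `n` steps (auxiliary). -/
def rch (G : SimpleGraph V) : ℕ → V → V → Prop
  | 0, u, v => u = v
  | (n + 1), u, v => ∃ w, G.Adj u w ∧ rch G n w v

theorem reachable_iff_rch (G : SimpleGraph V) (u v : V) : G.Reachable u v ↔ ∃ n, rch G n u v := by
  constructor
  · rintro ⟨p⟩
    induction p with
    | nil => exact ⟨0, rfl⟩
    | cons h p ih =>
      obtain ⟨n, hn⟩ := ih
      exact ⟨n + 1, _, h, hn⟩
  · rintro ⟨n, hn⟩
    induction n generalizing u with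
    | zero => rw [show u = v from hn]
    | succ n ih =>
      obtain ⟨w, h1, h2⟩ := hn
      exact h1.reachable.trans (ih w h2)

theorem measurableSet_connected : MeasurableSet {G : SimpleGraph V | G.Connected} := by
  have h1 : ∀ n (u v : V), MeasurableSet {G : SimpleGraph V | rch G n u v} := by
    intro n
    induction n with
    | zero => intro u v; exact MeasurableSet.const _
    | succ n ih =>
      intro u v
      have : {G : SimpleGraph V | rch G (n + 1) u v} =
          ⋃ w, {G : SimpleGraph V | G.Adj u w} ∩ {G | rch G n w v} := by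
        ext G; simp [rch]
      rw [this]
      exact MeasurableSet.iUnion fun w => (measurable_adj measurable_id u w).inter (ih w v)
  have h2 : {G : SimpleGraph V | G.Connected} =
      (⋂ u, ⋂ v, ⋃ n, {G : SimpleGraph V | rch G n u v}) ∩ {G | Nonempty V} := by
    ext G
    simp only [Set.mem_ofPred_eq, Set.mem_inter_iff, Set.mem_iInter, Set.mem_iUnion]
    rw [SimpleGraph.connected_iff]
    constructor
    · rintro ⟨h3, h4⟩
      exact ⟨fun u v => (reachable_iff_rch G u v).1 (h3 u v), h4⟩
    · rintro ⟨h3, h4⟩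
      exact ⟨fun u v => (reachable_iff_rch G u v).2 (h3 u v), h4⟩
  rw [h2]
  exact (MeasurableSet.iInter fun u => MeasurableSet.iInter fun v =>
    MeasurableSet.iUnion fun n => h1 n u v).inter (MeasurableSet.const _)

theorem connected_act (g : Equiv.Perm V) (G : SimpleGraph V) :
    (actG g G).Connected ↔ G.Connected := by
  unfold actG
  exact (SimpleGraph.Iso.map g G).connected_iff.symm

end Conn

end Vale.Agent.P143
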