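import Vale.Agent.P143_h11.Fusf

set_option linter.unusedSectionVars false
set_option linter.unusedVariables false

open MeasureTheory Filter Topology ProbabilityTheory
open scoped ENNReal unitInterval

namespace Vale.Agent.P143

section Sampling

variable {V : Type*}

/-- The first `n` unordered pairs of an enumeration. -/
def FF (ee : ℕ ≃ Sym2 V) (n : ℕ) : Finset (Sym2 V) := (Finset.range n).map ee.toEmbedding

theorem mem_FF {ee : ℕ ≃ Sym2 V} {n : ℕ} {f : Sym2 V} : f ∈ FF ee n ↔ ee.symm f < n := by
  unfold FF
  rw [Finset.mem_map]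
  constructor
  · rintro ⟨i, hi, rfl⟩
    rw [Equiv.coe_toEmbedding, Equiv.symm_apply_apply]
    exact Finset.mem_range.1 hi
  · intro h
    exact ⟨ee.symm f, Finset.mem_range.2 h, by simp⟩

/-- Sequential sampling. -/
noncomputable def smp (pc : SimpleGraph V → Set (Sym2 V) → Set (Sym2 V) → Sym2 V → ℝ)
    (ee : ℕ ≃ Sym2 V) (G : SimpleGraph V) (η : ℕ → ℝ) : ℕ → Set (Sym2 V)
  | 0 => ∅
  | (n + 1) => smp pc ee G η n ∪ {f | f = ee n ∧ ee n ∈ G.edgeSet ∧
      pc G (FF ee n) (smp pc ee G η n) (ee n) ≤ η n}

variable {pc : SimpleGraph V → Set (Sym2 V) → Set (Sym2 V) → Sym2 V → ℝ} {ee : ℕ ≃ Sym2 V}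

theorem smp_sub (G : SimpleGraph V) (η : ℕ → ℝ) (n : ℕ) : smp pc ee G η n ⊆ ↑(FF ee n) := by
  induction n with
  | zero => intro f hf; exact absurd hf (Set.notMem_empty f)
  | succ n ih =>
    rintro f (hf | hf)
    · have := ih hf
      rw [Finset.mem_coe, mem_FF] at this ⊢
      omega
    · rw [Finset.mem_coe, mem_FF, hf.1, Equiv.symm_apply_apply]
      omega

theorem ee_notMem_FF (n : ℕ) : ee n ∉ FF ee n := by
  rw [mem_FF, Equiv.symm_apply_apply]; exact lt_irrefl n

theorem ee_notMem_smp (G : SimpleGraph V) (η : ℕ → ℝ) (n : ℕ) : ee n ∉ smp pc ee G η n :=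
  fun h => ee_notMem_FF n (Finset.mem_coe.1 (smp_sub G η n h))

theorem smp_inter (G : SimpleGraph V) (η : ℕ → ℝ) {m n : ℕ} (h : m ≤ n) :
    smp pc ee G η n ∩ ↑(FF ee m) = smp pc ee G η m := by
  induction n, h using Nat.le_induction with
  | base => exact Set.inter_eq_left.2 (smp_sub G η m)
  | succ n hmn ih =>
    rw [smp, Set.union_inter_distrib_right, ih]
    apply Set.union_eq_left.2
    rintro f ⟨⟨h1, _⟩, h2⟩
    rw [Finset.mem_coe, mem_FF, h1, Equiv.symm_apply_apply] at h2
    omega

theorem smp_congr (G : SimpleGraph V) {η η' : ℕ → ℝ} (n : ℕ) (h : ∀ i < n, η i = η' i) :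
    smp pc ee G η n = smp pc ee G η' n := by
  induction n with
  | zero => rfl
  | succ n ih =>
    rw [smp, smp, ih (fun i hi => h i (by omega)), h n (by omega)]

/-- The sampled set. -/
noncomputable def Smp (pc : SimpleGraph V → Set (Sym2 V) → Set (Sym2 V) → Sym2 V → ℝ)
    (ee : ℕ ≃ Sym2 V) (G : SimpleGraph V) (η : ℕ → ℝ) : Set (Sym2 V) := ⋃ n, smp pc ee G η n

theorem Smp_inter (G : SimpleGraph V) (η : ℕ → ℝ) (m : ℕ) :
    Smp pc ee G η ∩ ↑(FF ee m) = smp pc ee G η m := by
  unfold Smp
  ext f
  constructor
  · rintro ⟨h1, h2⟩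
    obtain ⟨n, hn⟩ := Set.mem_iUnion.1 h1
    rcases le_total m n with h | h
    · rw [← smp_inter G η h]; exact ⟨hn, h2⟩
    · have h3 := smp_inter (pc := pc) (ee := ee) G η h
      rw [← h3] at hn
      exact hn.1
  · intro h
    exact ⟨Set.mem_iUnion.2 ⟨m, h⟩, smp_sub G η m h⟩

theorem measurable_smp (hpcm : ∀ e, Measurable fun p : SimpleGraph V × Set (Sym2 V) × Set (Sym2 V) =>
      pc p.1 p.2.1 p.2.2 e) (n : ℕ) :
    Measurable fun p : SimpleGraph V × (ℕ → ℝ) => smp pc ee p.1 p.2 n := by
  induction n with
  | zero => exact measurable_const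
  | succ n ih =>
    apply measurable_set_of'
    intro f
    have h1 := measurable_mem_iff' ih f
    have h2 : MeasurableSet {p : SimpleGraph V × (ℕ → ℝ) | ee n ∈ p.1.edgeSet} :=
      measurable_mem_iff' (measurable_edgeSet measurable_fst) _
    have h3 : Measurable fun p : SimpleGraph V × (ℕ → ℝ) =>
        pc p.1 ((FF ee n : Finset (Sym2 V)) : Set (Sym2 V)) (smp pc ee p.1 p.2 n) (ee n) :=
      (hpcm (ee n)).comp (measurable_fst.prodMk (measurable_const.prodMk ih))
    have h4 : MeasurableSet {p : SimpleGraph V × (ℕ → ℝ) |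
        pc p.1 ((FF ee n : Finset (Sym2 V)) : Set (Sym2 V)) (smp pc ee p.1 p.2 n) (ee n) ≤ p.2 n} :=
      measurableSet_le h3 ((measurable_pi_apply n).comp measurable_snd)
    exact h1.union ((MeasurableSet.const (f = ee n)).inter (h2.inter h4))

theorem measurable_Smp (hpcm : ∀ e, Measurable fun p : SimpleGraph V × Set (Sym2 V) × Set (Sym2 V) =>
      pc p.1 p.2.1 p.2.2 e) :
    Measurable fun p : SimpleGraph V × (ℕ → ℝ) => Smp pc ee p.1 p.2 := by
  apply measurable_set_of'
  intro f
  have : {p : SimpleGraph V × (ℕ → ℝ) | f ∈ Smp pc ee p.1 p.2} =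
      ⋃ n, {p | f ∈ smp pc ee p.1 p.2 n} := by
    ext p; simp [Smp]
  rw [this]
  exact MeasurableSet.iUnion fun n => measurable_mem_iff' (measurable_smp hpcm n) f

theorem unif_Iio {c : ℝ} (hc : c ∈ Set.Icc (0:ℝ) 1) :
    (volume.restrict (Set.Icc (0:ℝ) 1) : Measure ℝ) (Set.Iio c) = ENNReal.ofReal c := by
  rw [Measure.restrict_apply measurableSet_Iio]
  have : Set.Iio c ∩ Set.Icc 0 1 = Set.Ico 0 c := by
    ext x
    simp only [Set.mem_inter_iff, Set.mem_Iio, Set.mem_Icc, Set.mem_Ico]
    constructor
    · rintro ⟨h1, h2, h3⟩; exact ⟨h2, h1⟩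
    · rintro ⟨h1, h2⟩; exact ⟨h2, h1, h2.le.trans hc.2⟩
  rw [this, Real.volume_Ico, sub_zero]

/-- Law of one step of the sampling. -/
theorem smp_step [Countable V]
    (hpcm : ∀ e, Measurable fun p : SimpleGraph V × Set (Sym2 V) × Set (Sym2 V) =>
      pc p.1 p.2.1 p.2.2 e) (hpc01 : ∀ G R O e, pc G R O e ∈ Set.Icc (0:ℝ) 1)
    (G : SimpleGraph V) (m : ℕ) (A : Set (Sym2 V)) (hAm : MeasurableSet {T : Set (Sym2 V) | T = A})
    (hA : A ⊆ ↑(FF ee m)) (he : ee m ∈ G.edgeSet) :
    (Measure.infinitePi fun _ : ℕ => (volume.restrict (Set.Icc (0:ℝ) 1) : Measure ℝ)).real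
      {η | smp pc ee G η (m + 1) = A} = pc G ↑(FF ee m) A (ee m) *
    (Measure.infinitePi fun _ : ℕ => (volume.restrict (Set.Icc (0:ℝ) 1) : Measure ℝ)).real
      {η | smp pc ee G η m = A} := by
  classical
  have hu : IsProbabilityMeasure (volume.restrict (Set.Icc (0:ℝ) 1) : Measure ℝ) := ⟨by simp⟩
  set N := Measure.infinitePi fun _ : ℕ => (volume.restrict (Set.Icc (0:ℝ) 1) : Measure ℝ) with hN
  set c := pc G ↑(FF ee m) A (ee m) with hc
  have hc01 : c ∈ Set.Icc (0:ℝ) 1 := hpc01 _ _ _ _
  have hsm : ∀ n, Measurable fun η : ℕ → ℝ => smp pc ee G η n := fun n =>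
    (measurable_smp hpcm n).comp (measurable_const.prodMk measurable_id)
  have hB : MeasurableSet {η : ℕ → ℝ | smp pc ee G η m = A} := hAm.preimage (hsm m)
  have hset : {η | smp pc ee G η (m + 1) = A} = {η | smp pc ee G η m = A} ∩ {η : ℕ → ℝ | η m < c} := by
    ext η
    simp only [Set.mem_ofPred_eq, Set.mem_inter_iff]
    have heA : ee m ∉ A := fun h => ee_notMem_FF m (Finset.mem_coe.1 (hA h))
    constructor
    · intro h
      have h1 : smp pc ee G η m = A := by
        rw [← smp_inter G η (Nat.le_succ m), h]
        exact Set.inter_eq_left.2 hA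
      refine ⟨h1, ?_⟩
      by_contra hcon
      push Not at hcon
      apply heA
      rw [← h, smp]
      right
      refine ⟨rfl, he, ?_⟩
      rw [h1]; exact hcon
    · rintro ⟨h1, h2⟩
      rw [smp, h1]
      apply Set.union_eq_left.2
      rintro f ⟨_, _, h3⟩
      exact absurd h2 (not_lt.2 h3)
  have hCm : MeasurableSet {η : ℕ → ℝ | η m < c} :=
    measurableSet_lt (measurable_pi_apply m) measurable_const
  have hupd : Measurable fun p : (ℕ → ℝ) × ℝ => Function.update p.1 m p.2 := by
    refine measurable_pi_iff.2 fun i => ?_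
    by_cases h : i = m
    · subst h
      simpa using measurable_snd
    · simp only [Function.update_of_ne h]
      exact (measurable_pi_apply i).comp measurable_fst
  have key : N ({η | smp pc ee G η m = A} ∩ {η : ℕ → ℝ | η m < c}) =
      N {η | smp pc ee G η m = A} * ENNReal.ofReal c := by
    conv_lhs => rw [hN, ← map_update_pi (volume.restrict (Set.Icc (0:ℝ) 1) : Measure ℝ) m]
    rw [Measure.map_apply hupd (hB.inter hCm)]
    have h1 : (fun p : (ℕ → ℝ) × ℝ => Function.update p.1 m p.2) ⁻¹'
        ({η | smp pc ee G η m = A} ∩ {η : ℕ → ℝ | η m < c}) =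
        {η | smp pc ee G η m = A} ×ˢ Set.Iio c := by
      ext p
      simp only [Set.mem_preimage, Set.mem_inter_iff, Set.mem_ofPred_eq, Set.mem_prod, Set.mem_Iio,
        Function.update_self]
      have h2 : smp pc ee G (Function.update p.1 m p.2) m = smp pc ee G p.1 m := by
        apply smp_congr
        intro i hi
        rw [Function.update_of_ne (by omega)]
      rw [h2]
    rw [h1, Measure.prod_prod, unif_Iio hc01]
  rw [hset, measureReal_def, key, ENNReal.toReal_mul, ENNReal.toReal_ofReal hc01.1, mul_comm]
  rfl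

theorem exists_sampling [Countable V] [Infinite V]
    (pc : SimpleGraph V → Set (Sym2 V) → Set (Sym2 V) → Sym2 V → ℝ)
    (hpcm : ∀ e, Measurable fun p : SimpleGraph V × Set (Sym2 V) × Set (Sym2 V) =>
      pc p.1 p.2.1 p.2.2 e)
    (hpc01 : ∀ G R O e, pc G R O e ∈ Set.Icc (0:ℝ) 1)
    (hlim : ∀ (G : SimpleGraph V) (H : ℕ → G.Subgraph), IsExhaustion H →
      ∀ (O C : Finset (Sym2 V)) (e : Sym2 V), e ∈ G.edgeSet → e ∉ O → e ∉ C → Disjoint O C →
      Tendsto (fun n => ustProb (H n) (fun T => ↑O ⊆ T ∧ Disjoint (C : Set (Sym2 V)) T ∧ e ∉ T) -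
        pc G (↑O ∪ ↑C) ↑O e * ustProb (H n) (fun T => ↑O ⊆ T ∧ Disjoint (C : Set (Sym2 V)) T))
        atTop (𝓝 0)) :
    ∃ S : SimpleGraph V → (ℕ → ℝ) → Set (Sym2 V),
      (Measurable fun p : SimpleGraph V × (ℕ → ℝ) => S p.1 p.2) ∧
      ∀ G : SimpleGraph V, G.Connected →
        IsFUSF G ((Measure.infinitePi fun _ : ℕ =>
          (volume.restrict (Set.Icc (0:ℝ) 1) : Measure ℝ)).map (S G)) := by
  classical
  have hinf : Infinite (Sym2 V) := by
    obtain ⟨v0⟩ : Nonempty V := inferInstance
    refine Infinite.of_injective (fun v : V => s(v, v)) ?_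
    intro a b h
    rcases Sym2.eq_iff.1 h with ⟨h1, _⟩ | ⟨h1, _⟩
    · exact h1
    · exact h1
  obtain ⟨ee⟩ : Nonempty (ℕ ≃ Sym2 V) := ⟨(nonempty_denumerable (Sym2 V)).some.eqv.symm⟩
  have hu : IsProbabilityMeasure (volume.restrict (Set.Icc (0:ℝ) 1) : Measure ℝ) := ⟨by simp⟩
  set N := Measure.infinitePi fun _ : ℕ => (volume.restrict (Set.Icc (0:ℝ) 1) : Measure ℝ) with hN
  refine ⟨Smp pc ee, measurable_Smp hpcm, fun G hG => ?_⟩
  have hSm : Measurable fun η : ℕ → ℝ => Smp pc ee G η :=
    (measurable_Smp hpcm).comp (measurable_const.prodMk measurable_id)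
  have hsm : ∀ n, Measurable fun η : ℕ → ℝ => smp pc ee G η n := fun n =>
    (measurable_smp hpcm n).comp (measurable_const.prodMk measurable_id)
  have hAm : ∀ A : Set (Sym2 V), MeasurableSet {T : Set (Sym2 V) | T = A} := by
    intro A
    have : {T : Set (Sym2 V) | T = A} = ⋂ f : Sym2 V, {T | f ∈ T ↔ f ∈ A} := by
      ext T
      simp only [Set.mem_ofPred_eq, Set.mem_iInter, Set.ext_iff]
    rw [this]
    refine MeasurableSet.iInter fun f => ?_
    have hf : MeasurableSet {T : Set (Sym2 V) | f ∈ T} := measurable_mem_iff' measurable_id f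
    by_cases h : f ∈ A
    · have : {T : Set (Sym2 V) | f ∈ T ↔ f ∈ A} = {T | f ∈ T} := by ext T; simp [h]
      rw [this]; exact hf
    · have : {T : Set (Sym2 V) | f ∈ T ↔ f ∈ A} = {T | f ∈ T}ᶜ := by ext T; simp [h]
      rw [this]; exact hf.compl
  refine ⟨Measure.isProbabilityMeasure_map hSm.aemeasurable, ?_⟩
  intro H hH
  -- main claim
  have claim : ∀ (m : ℕ) (A : Finset (Sym2 V)), Tendsto (fun n => ustProb (H n)
      (fun T => T ∩ ↑(FF ee m) = ↑A)) atTop (𝓝 (N.real {η | smp pc ee G η m = ↑A})) := by
    intro m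
    induction m with
    | zero =>
      intro A
      by_cases hA : A = ∅
      · have h1 : ∀ n, ustProb (H n) (fun T => T ∩ ↑(FF ee 0) = ↑A) = 1 := fun n =>
          ustProb_true _ (hH.connected n) (hH.finite n) fun T => by simp [hA, FF]
        have h2 : {η | smp pc ee G η 0 = ↑A} = Set.univ := by
          ext η; simp [hA, smp]
        simp only [h1, h2]
        simp
      · have hA' : (∅ : Set (Sym2 V)) ≠ ↑A := by
          intro h; apply hA; exact (Finset.coe_eq_empty.1 h.symm)
        have h1 : ∀ n, ustProb (H n) (fun T => T ∩ ↑(FF ee 0) = ↑A) = 0 := fun n =>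
          ustProb_false _ fun T _ h => hA' (by rw [← h]; simp [FF])
        have h2 : {η | smp pc ee G η 0 = ↑A} = ∅ := by
          ext η; simp only [Set.mem_ofPred_eq, smp, Set.mem_empty_iff_false, iff_false]
          exact hA'
        simp only [h1, h2]
        simp
    | succ m ih =>
      intro A
      have hFs : ∀ f, f ∈ FF ee (m + 1) ↔ f ∈ FF ee m ∨ f = ee m := by
        intro f
        rw [mem_FF, mem_FF]
        constructor
        · intro h
          rcases Nat.lt_succ_iff_lt_or_eq.1 h with h | h
          · exact Or.inl h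
          · right; rw [← h]; simp
        · rintro (h | rfl)
          · omega
          · simp
      by_cases hAsub : A ⊆ FF ee (m + 1)
      swap
      · have h1 : ∀ n, ustProb (H n) (fun T => T ∩ ↑(FF ee (m + 1)) = ↑A) = 0 := fun n =>
          ustProb_false _ fun T _ h => hAsub (by
            rw [← Finset.coe_subset, ← h]; exact Set.inter_subset_right)
        have h2 : {η | smp pc ee G η (m + 1) = ↑A} = ∅ := by
          ext η
          simp only [Set.mem_ofPred_eq, Set.mem_empty_iff_false, iff_false]
          intro h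
          exact hAsub (by rw [← Finset.coe_subset, ← h]; exact smp_sub G η _)
        simp only [h1, h2]
        simp
      by_cases he : ee m ∈ G.edgeSet
      swap
      · have hTe : ∀ n T, IsSpanningTree (H n) T → ee m ∉ T := fun n T hT h =>
          he ((H n).edgeSet_subset (hT.1 h))
        have hsm' : ∀ η, smp pc ee G η (m + 1) = smp pc ee G η m := by
          intro η
          rw [smp]
          apply Set.union_eq_left.2
          rintro f ⟨_, h, _⟩
          exact absurd h he
        have hTF : ∀ n T, IsSpanningTree (H n) T → T ∩ ↑(FF ee (m + 1)) = T ∩ ↑(FF ee m) := by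
          intro n T hT
          ext f
          simp only [Set.mem_inter_iff, Finset.mem_coe, hFs]
          constructor
          · rintro ⟨h1, h2 | rfl⟩
            · exact ⟨h1, h2⟩
            · exact absurd h1 (hTe n T hT)
          · rintro ⟨h1, h2⟩; exact ⟨h1, Or.inl h2⟩
        have h1 : ∀ n, ustProb (H n) (fun T => T ∩ ↑(FF ee (m + 1)) = ↑A) =
            ustProb (H n) (fun T => T ∩ ↑(FF ee m) = ↑A) := fun n =>
          ustProb_congr _ fun T hT => by rw [hTF n T hT]
        simp only [h1, hsm']
        exact ih A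
      -- `ee m` is an edge
      have hcase : ∀ B : Finset (Sym2 V), B ⊆ FF ee m → Tendsto (fun n => ustProb (H n)
          (fun T => T ∩ ↑(FF ee (m + 1)) = ↑B)) atTop
          (𝓝 (N.real {η | smp pc ee G η (m + 1) = ↑B})) := by
        intro B hB
        have heB : ee m ∉ B := fun h => ee_notMem_FF m (hB h)
        have hdis : Disjoint B (FF ee m \ B) := Finset.disjoint_sdiff
        have hU : B ∪ (FF ee m \ B) = FF ee m := Finset.union_sdiff_of_subset hB
        have hF1 : FF ee (m + 1) = B ∪ insert (ee m) (FF ee m \ B) := by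
          ext f
          rw [hFs, Finset.mem_union, Finset.mem_insert, Finset.mem_sdiff]
          constructor
          · rintro (h | h)
            · by_cases h2 : f ∈ B
              · exact Or.inl h2
              · exact Or.inr (Or.inr ⟨h, h2⟩)
            · exact Or.inr (Or.inl h)
          · rintro (h | h | h)
            · exact Or.inl (hB h)
            · exact Or.inr h
            · exact Or.inl h.1
        have hdis2 : Disjoint B (insert (ee m) (FF ee m \ B)) := by
          rw [Finset.disjoint_insert_right]; exact ⟨heB, hdis⟩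
        have h1 := hlim G H hH B (FF ee m \ B) (ee m) he heB
          (fun h => ee_notMem_FF m (Finset.mem_sdiff.1 h).1) hdis
        have hcoe : ((B : Set (Sym2 V)) ∪ ((FF ee m \ B : Finset (Sym2 V)) : Set (Sym2 V))) =
            ((FF ee m : Finset (Sym2 V)) : Set (Sym2 V)) := by rw [← Finset.coe_union, hU]
        rw [hcoe] at h1
        have h2 := ih B
        have e1 : ∀ T : Set (Sym2 V), (T ∩ ↑(FF ee m) = ↑B) ↔
            (↑B ⊆ T ∧ Disjoint ((FF ee m \ B : Finset (Sym2 V)) : Set (Sym2 V)) T) := by
          intro T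
          have := inter_eq_iff B (FF ee m \ B) hdis T
          rwa [hU] at this
        have e2 : ∀ T : Set (Sym2 V), (T ∩ ↑(FF ee (m + 1)) = ↑B) ↔
            (↑B ⊆ T ∧ Disjoint ((FF ee m \ B : Finset (Sym2 V)) : Set (Sym2 V)) T ∧ ee m ∉ T) := by
          intro T
          have := inter_eq_iff B (insert (ee m) (FF ee m \ B)) hdis2 T
          rw [← hF1, disj_insert] at this
          exact this
        simp only [e2]
        simp only [e1] at h2
        have h3 := h1.add (h2.const_mul (pc G ↑(FF ee m) ↑B (ee m)))
        simp only [sub_add_cancel, zero_add] at h3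
        rw [smp_step hpcm hpc01 G m ↑B (hAm _) (by exact_mod_cast hB) he]
        exact h3
      by_cases heA : ee m ∈ A
      swap
      · apply hcase
        intro f hf
        rcases (hFs f).1 (hAsub hf) with h | h
        · exact h
        · exact absurd (h ▸ hf) heA
      · set B := A.erase (ee m) with hB
        have hBF : B ⊆ FF ee m := by
          intro f hf
          rw [hB, Finset.mem_erase] at hf
          rcases (hFs f).1 (hAsub hf.2) with h | h
          · exact h
          · exact absurd h hf.1
        have hBA : insert (ee m) B = A := Finset.insert_erase heA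
        have heB : ee m ∉ B := Finset.notMem_erase _ _
        -- the event for `B` splits
        have e1 : ∀ T : Set (Sym2 V), (T ∩ ↑(FF ee m) = ↑B) ↔
            (T ∩ ↑(FF ee (m + 1)) = ↑B ∨ T ∩ ↑(FF ee (m + 1)) = ↑A) := by
          intro T
          have hA' : (A : Set (Sym2 V)) = insert (ee m) ↑B := by rw [← hBA, Finset.coe_insert]
          have hF' : ((FF ee (m + 1) : Finset (Sym2 V)) : Set (Sym2 V)) =
              insert (ee m) ((FF ee m : Finset (Sym2 V)) : Set (Sym2 V)) := by
            ext f
            rw [Finset.mem_coe, hFs, Set.mem_insert_iff, Finset.mem_coe, or_comm]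
          have heF : ee m ∉ ((FF ee m : Finset (Sym2 V)) : Set (Sym2 V)) := ee_notMem_FF m
          have heB' : ee m ∉ (B : Set (Sym2 V)) := heB
          rw [hA', hF']
          constructor
          · intro h
            by_cases hT : ee m ∈ T
            · right
              rw [Set.inter_insert_of_mem hT, h]
            · left
              rw [Set.inter_insert_of_notMem hT, h]
          · rintro (h | h)
            · have hT : ee m ∉ T := by
                intro hT
                apply heB'
                rw [← h]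
                exact ⟨hT, Set.mem_insert _ _⟩
              rwa [Set.inter_insert_of_notMem hT] at h
            · have hT : ee m ∈ T := by
                have : ee m ∈ T ∩ insert (ee m) ↑(FF ee m) := by rw [h]; exact Set.mem_insert _ _
                exact this.1
              rw [Set.inter_insert_of_mem hT] at h
              ext f
              constructor
              · intro hf
                have h5 : f ∈ insert (ee m) (B : Set (Sym2 V)) := by
                  rw [← h]; exact Set.mem_insert_of_mem _ hf
                rcases h5 with h5 | h5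
                · exact absurd hf.2 (h5 ▸ heF)
                · exact h5
              · intro hf
                have h5 : f ∈ insert (ee m) (T ∩ ↑(FF ee m)) := by
                  rw [h]; exact Set.mem_insert_of_mem _ hf
                rcases h5 with h5 | h5
                · exact absurd hf (h5 ▸ heB')
                · exact h5
        have hne : (B : Set (Sym2 V)) ≠ ↑A := by
          intro h
          apply heB
          rw [← Finset.mem_coe, h]; exact heA
        have h1 : ∀ n, ustProb (H n) (fun T => T ∩ ↑(FF ee (m + 1)) = ↑A) =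
            ustProb (H n) (fun T => T ∩ ↑(FF ee m) = ↑B) -
            ustProb (H n) (fun T => T ∩ ↑(FF ee (m + 1)) = ↑B) := by
          intro n
          have h2 := ustProb_sum (H n) (hH.finite n) (Finset.univ : Finset Bool)
            (fun b T => T ∩ ↑(FF ee (m + 1)) = bif b then (B : Set (Sym2 V)) else ↑A)
            (fun T => T ∩ ↑(FF ee m) = ↑B)
            (by
              intro i _ j _ T hi hj
              rw [hi] at hj
              cases i <;> cases j <;> simp only [cond_true, cond_false] at hj
              · rfl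
              · exact absurd hj.symm hne
              · exact absurd hj hne
              · rfl)
            (by
              intro T _
              rw [e1 T]
              constructor
              · rintro (h | h)
                · exact ⟨true, Finset.mem_univ _, h⟩
                · exact ⟨false, Finset.mem_univ _, h⟩
              · rintro ⟨b, _, h⟩
                cases b
                · exact Or.inr h
                · exact Or.inl h)
          rw [h2]
          simp
        simp only [h1]
        have hNs : N.real {η | smp pc ee G η (m + 1) = ↑A} =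
            N.real {η | smp pc ee G η m = ↑B} - N.real {η | smp pc ee G η (m + 1) = ↑B} := by
          have h3 : {η | smp pc ee G η m = ↑B} = {η | smp pc ee G η (m + 1) = ↑B} ∪
              {η | smp pc ee G η (m + 1) = ↑A} := by
            ext η
            simp only [Set.mem_ofPred_eq, Set.mem_union]
            have h4 := e1 (Smp pc ee G η)
            rw [Smp_inter, Smp_inter] at h4
            exact h4
          rw [h3, measureReal_union]
          · ring
          · rw [Set.disjoint_left]
            intro η h4 h5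
            apply hne
            have h4' : smp pc ee G η (m + 1) = ↑B := h4
            have h5' : smp pc ee G η (m + 1) = ↑A := h5
            rw [← h4', h5']
          · exact (hAm _).preimage (hsm (m + 1))
        rw [hNs]
        exact (ih B).sub (hcase B hBF)
  -- general cylinders
  intro F A
  obtain ⟨m, hm⟩ : ∃ m, F ⊆ FF ee m := by
    refine ⟨F.sup (fun f => ee.symm f + 1), fun f hf => ?_⟩
    rw [mem_FF]
    exact Nat.lt_of_succ_le (Finset.le_sup (f := fun f => ee.symm f + 1) hf)
  set s := (FF ee m).powerset.filter (fun B => B ∩ F = A) with hs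
  have hq : ∀ T : Set (Sym2 V), (T ∩ ↑F = ↑A ↔ ∃ B ∈ s, T ∩ ↑(FF ee m) = ↑B) := by
    intro T
    constructor
    · intro h
      refine ⟨(FF ee m).filter (· ∈ T), ?_, ?_⟩
      · rw [hs, Finset.mem_filter, Finset.mem_powerset]
        refine ⟨Finset.filter_subset _ _, ?_⟩
        ext f
        rw [Finset.mem_inter, Finset.mem_filter, ← Finset.mem_coe (s := A), ← h]
        constructor
        · rintro ⟨⟨h1, h2⟩, h3⟩; exact ⟨h2, h3⟩
        · rintro ⟨h1, h2⟩; exact ⟨⟨hm h2, h1⟩, h2⟩
      · ext f
        simp only [Set.mem_inter_iff, Finset.mem_coe, Finset.mem_filter]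
        tauto
    · rintro ⟨B, hB, h⟩
      rw [hs, Finset.mem_filter] at hB
      rw [← hB.2, Finset.coe_inter, ← h, Set.inter_assoc]
      congr 1
      rw [Set.inter_eq_right.2]
      exact_mod_cast hm
  have h1 : ∀ n, ustProb (H n) (fun T => T ∩ ↑F = ↑A) =
      ∑ B ∈ s, ustProb (H n) (fun T => T ∩ ↑(FF ee m) = ↑B) := by
    intro n
    apply ustProb_sum (H n) (hH.finite n) s (fun (B : Finset (Sym2 V)) T => T ∩ ↑(FF ee m) = ↑B)
    · intro B _ B' _ T h h'
      have h' : T ∩ ↑(FF ee m) = ↑B' := h'
      rw [h] at h'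
      exact Finset.coe_injective h'
    · intro T _; exact hq T
  have h2 : (N.map (Smp pc ee G)).real {T | T ∩ ↑F = ↑A} =
      ∑ B ∈ s, N.real {η | smp pc ee G η m = ↑B} := by
    have hms : MeasurableSet {T : Set (Sym2 V) | T ∩ ↑F = ↑A} :=
      (hAm ↑A).preimage (measurable_inter measurable_id measurable_const)
    rw [measureReal_def, Measure.map_apply hSm hms]
    have h3 : Smp pc ee G ⁻¹' {T | T ∩ ↑F = ↑A} = ⋃ B ∈ s, {η | smp pc ee G η m = ↑B} := by
      ext η
      simp only [Set.mem_preimage, Set.mem_ofPred_eq, Set.mem_iUnion, exists_prop]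
      rw [hq (Smp pc ee G η), Smp_inter]
    rw [h3]
    have h4 := measureReal_biUnion_finset (μ := N) (s := s)
      (f := fun B : Finset (Sym2 V) => {η | smp pc ee G η m = ↑B}) (by
        intro B _ B' _ hne
        rw [Function.onFun, Set.disjoint_left]
        intro η h5 h6
        apply hne
        have h5' : smp pc ee G η m = ↑B := h5
        have h6' : smp pc ee G η m = ↑B' := h6
        exact Finset.coe_injective (h5'.symm.trans h6')) (fun B _ => (hAm _).preimage (hsm m))
    exact h4
  simp only [h1]
  rw [h2]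
  exact tendsto_finsetSum _ fun B _ => claim m B

end Sampling

end Vale.Agent.P143
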