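import Vale.Agent.P143_h11.Limit

set_option linter.unusedSectionVars false
set_option linter.unusedVariables false

open Filter Topology MeasureTheory ContinuousLinearMap
open scoped InnerProductSpace ENNReal

namespace Vale.Agent.P143

section Actions

variable {V : Type*}

/-- Labels on unordered pairs. -/
abbrev Lab (V : Type*) := Sym2 V → ℝ

/-- Action on graphs. -/
def actG (g : Equiv.Perm V) (G : SimpleGraph V) : SimpleGraph V := G.map g.toEmbedding

/-- Action on labels. -/
def actL (g : Equiv.Perm V) (x : Lab V) : Lab V := fun e => x (e.map g.symm)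

/-- Action on edge sets. -/
def actT (g : Equiv.Perm V) (T : Set (Sym2 V)) : Set (Sym2 V) := {e | e.map g.symm ∈ T}

theorem map_symm_map (g : Equiv.Perm V) (e : Sym2 V) : (e.map g).map g.symm = e := by
  rw [Sym2.map_map]
  have : (g.symm ∘ g : V → V) = id := by ext x; simp
  rw [this, Sym2.map_id]; rfl

theorem map_map_symm (g : Equiv.Perm V) (e : Sym2 V) : (e.map g.symm).map g = e := by
  rw [Sym2.map_map]
  have : (g ∘ g.symm : V → V) = id := by ext x; simp
  rw [this, Sym2.map_id]; rfl

theorem mem_actT (g : Equiv.Perm V) (T : Set (Sym2 V)) (e : Sym2 V) :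
    e.map g ∈ actT g T ↔ e ∈ T := by
  change (e.map g).map g.symm ∈ T ↔ _
  rw [map_symm_map]

theorem actL_apply (g : Equiv.Perm V) (x : Lab V) (e : Sym2 V) : actL g x (e.map g) = x e := by
  change x ((e.map g).map g.symm) = _
  rw [map_symm_map]

theorem actG_adj (g : Equiv.Perm V) (G : SimpleGraph V) (u v : V) :
    (actG g G).Adj (g u) (g v) ↔ G.Adj u v := by
  unfold actG
  exact SimpleGraph.map_adj_apply (f := g.toEmbedding) (a := u) (b := v)

theorem mem_actG_edgeSet (g : Equiv.Perm V) (G : SimpleGraph V) (e : Sym2 V) :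
    e.map g ∈ (actG g G).edgeSet ↔ e ∈ G.edgeSet := by
  induction e using Sym2.inductionOn with
  | hf x y => rw [Sym2.map_mk, SimpleGraph.mem_edgeSet, SimpleGraph.mem_edgeSet, actG_adj]

end Actions

section MeasG

variable {V : Type*} {X : Type*} [MeasurableSpace X]

theorem measurable_adj {G : X → SimpleGraph V} (hG : Measurable G) (u v : V) :
    MeasurableSet {x | (G x).Adj u v} := by
  have h1 : Measurable fun G : SimpleGraph V => G.Adj := comap_measurable _
  have h2 : Measurable fun x => (G x).Adj := h1.comp hG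
  have h3 : Measurable fun x => (G x).Adj u v := (measurable_pi_apply v).comp
    ((measurable_pi_apply u).comp h2)
  exact measurableSet_setOfPred.2 h3

theorem measurable_edgeSet {G : X → SimpleGraph V} (hG : Measurable G) :
    Measurable fun x => (G x).edgeSet := by
  apply measurable_set_of'
  intro e
  induction e using Sym2.inductionOn with
  | hf u v => exact measurable_adj hG u v

theorem measurable_graph_of {G : X → SimpleGraph V} (h : ∀ u v, MeasurableSet {x | (G x).Adj u v}) :
    Measurable G := by
  rw [measurable_comap_iff]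
  apply measurable_pi_lambda
  intro u
  apply measurable_pi_lambda
  intro v
  exact measurableSet_setOfPred.1 (h u v)

end MeasG

section PcS

variable {V : Type*} [Countable V] [MeasurableSpace V] [DiscreteMeasurableSpace V]
  {X : Type*} [MeasurableSpace X] {act : Equiv.Perm V → X → X}

theorem measurable_dd {A : X → Set (Sym2 V)} (hA : Measurable A) : Measurable fun x => dd (A x) :=
  measurable_set_of fun i => measurable_mem_iff' hA _

theorem measurable_inter {E : Type*} {A B : X → Set E} (hA : Measurable A) (hB : Measurable B) :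
    Measurable fun x => A x ∩ B x :=
  measurable_set_of' fun i => (measurable_mem_iff' hA i).inter (measurable_mem_iff' hB i)

theorem measurable_diff {E : Type*} {A B : X → Set E} (hA : Measurable A) (hB : Measurable B) :
    Measurable fun x => A x \ B x :=
  measurable_set_of' fun i => (measurable_mem_iff' hA i).diff (measurable_mem_iff' hB i)

theorem measOp_Wc {E O C : X → Set (Sym2 V)} (hE : Measurable E) (hO : Measurable O)
    (hC : Measurable C) : MeasOp fun x => pj (Wc (Zb (E x)) (dd (O x)) (dd (C x))) := by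
  apply MeasOp.pj_compress (fun x => isClosed_Lz _)
    (fun x => isClosed_inf (isClosed_Zb _) (isClosed_Lz _)) (MeasOp.pj_Lz (measurable_dd hO))
  exact MeasOp.pj_inf (fun x => isClosed_Zb _) (fun x => isClosed_Lz _) (measOp_Zb hE)
    (MeasOp.pj_Lz (measurable_dd hC))

theorem measurable_pcS {G : X → SimpleGraph V} {R O : X → Set (Sym2 V)} (hG : Measurable G)
    (hR : Measurable R) (hO : Measurable O) (e : Sym2 V) :
    Measurable fun x => pcS (G x) (R x) (O x) e := by
  unfold pcS
  exact ((measOp_Wc (measurable_edgeSet hG) hO (measurable_diff hR hO)).measurable_norm_sq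
    _).const_mul 2

theorem pcS_act {G : X → SimpleGraph V} {R O : X → Set (Sym2 V)}
    (hG : RandEdge act fun x => (G x).edgeSet) (hR : RandEdge act R) (hO : RandEdge act O)
    (g : Equiv.Perm V) (x : X) (e : Sym2 V) :
    pcS (G (act g x)) (R (act g x)) (O (act g x)) (e.map g) = pcS (G x) (R x) (O x) e := by
  induction e using Sym2.inductionOn with
  | hf u v =>
    rw [Sym2.map_mk, pcS_mk, pcS_mk]
    have h := (RandSub.Wc hG.Zb hO.dd (hR.diff hO).dd)
    have h2 := (h.eqv.pj h.closed) g x (dl (u, v))
    rw [Ug_dl] at h2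
    rw [h2, Ug_norm]

end PcS

section Clocks

variable {V : Type*}

/-- The degree as an extended number. -/
noncomputable def dg (G : SimpleGraph V) (u : V) : ℝ≥0∞ :=
  open Classical in ∑' v, if G.Adj u v then 1 else 0

/-- The maximal degree of the end points (at least 1). -/
noncomputable def mm (G : SimpleGraph V) (e : Sym2 V) : ℝ :=
  max 1 (max (dg G (Quot.out e).1) (dg G (Quot.out e).2)).toReal

theorem mm_mk (G : SimpleGraph V) (x y : V) :
    mm G s(x, y) = max 1 (max (dg G x) (dg G y)).toReal := by
  unfold mm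
  set q := Quot.out (s(x, y)) with hq
  have h : s(q.1, q.2) = s(x, y) := Quot.out_eq s(x, y)
  rcases Sym2.eq_iff.1 h with ⟨h1, h2⟩ | ⟨h1, h2⟩
  · rw [h1, h2]
  · rw [h1, h2, max_comm (dg G y)]

theorem one_le_mm (G : SimpleGraph V) (e : Sym2 V) : 1 ≤ mm G e := le_max_left _ _

theorem mm_pos (G : SimpleGraph V) (e : Sym2 V) : 0 < mm G e := zero_lt_one.trans_le (one_le_mm G e)

/-- The time at which `e` is revealed. -/
noncomputable def tau (G : SimpleGraph V) (x : Lab V) (e : Sym2 V) : ℝ := x e * mm G e

/-- The edges revealed before time `t`. -/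
def Rt (t : ℝ) (G : SimpleGraph V) (x : Lab V) : Set (Sym2 V) := {e | e ∈ G.edgeSet ∧ tau G x e < t}

/-- Step size. -/
noncomputable def hh (k : ℕ) : ℝ := ((2 : ℝ) ^ k)⁻¹

theorem hh_pos (k : ℕ) : 0 < hh k := by unfold hh; positivity

/-- The discrete scheme. -/
noncomputable def sch (k : ℕ) (G : SimpleGraph V) (x v : Lab V) : ℕ → Set (Sym2 V)
  | 0 => ∅
  | (j + 1) => sch k G x v j ∪ {e | e ∈ G.edgeSet ∧ j * hh k ≤ tau G x e ∧
      tau G x e < (j + 1) * hh k ∧ v e < 1 - pcS G (Rt (j * hh k) G x) (sch k G x v j) e}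

theorem Rt_mono {s t : ℝ} (h : s ≤ t) (G : SimpleGraph V) (x : Lab V) : Rt s G x ⊆ Rt t G x :=
  fun _ he => ⟨he.1, he.2.trans_le h⟩

theorem sch_subset (k : ℕ) (G : SimpleGraph V) (x v : Lab V) (j : ℕ) :
    sch k G x v j ⊆ Rt (j * hh k) G x := by
  induction j with
  | zero => intro e he; exact absurd he (Set.notMem_empty e)
  | succ j ih =>
    intro e he
    rcases he with he | he
    · refine Rt_mono ?_ G x (ih he)
      push_cast
      have := hh_pos k
      nlinarith
    · refine ⟨he.1, ?_⟩
      push_cast
      exact he.2.2.1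

/-- Dependence of the scheme on the labels. -/
theorem sch_congr (k : ℕ) (G : SimpleGraph V) {x x' v v' : Lab V} (j : ℕ)
    (hR : ∀ e ∈ G.edgeSet, tau G x e < j * hh k ∨ tau G x' e < j * hh k → x e = x' e)
    (hv : ∀ e ∈ G.edgeSet, tau G x e < j * hh k → v e = v' e) :
    sch k G x v j = sch k G x' v' j := by
  induction j with
  | zero => rfl
  | succ j ih =>
    have hle : (j : ℝ) * hh k ≤ ((j + 1 : ℕ) : ℝ) * hh k := by
      push_cast
      have := hh_pos k
      nlinarith
    have hRt : ∀ t ≤ ((j + 1 : ℕ) : ℝ) * hh k, Rt t G x = Rt t G x' := by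
      intro t ht
      ext e
      constructor
      · rintro ⟨h1, h2⟩
        refine ⟨h1, ?_⟩
        have := hR e h1 (Or.inl (h2.trans_le ht))
        unfold tau at h2 ⊢
        rwa [← this]
      · rintro ⟨h1, h2⟩
        refine ⟨h1, ?_⟩
        have := hR e h1 (Or.inr (h2.trans_le ht))
        unfold tau at h2 ⊢
        rwa [this]
    have ih' := ih (fun e he h => hR e he (h.imp (fun h => h.trans_le hle) (fun h => h.trans_le hle)))
      (fun e he h => hv e he (h.trans_le hle))
    rw [sch, sch, ih', hRt _ hle]
    congr 1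
    ext e
    simp only [Set.mem_ofPred_eq]
    have hcast : ((j : ℝ) + 1) * hh k = ((j + 1 : ℕ) : ℝ) * hh k := by push_cast; ring
    constructor
    · rintro ⟨h1, h2, h3, h4⟩
      rw [hcast] at h3
      have hx := hR e h1 (Or.inl h3)
      have hvv := hv e h1 h3
      have ht : tau G x e = tau G x' e := by unfold tau; rw [hx]
      rw [hcast, ← ht, ← hvv]
      exact ⟨h1, h2, h3, h4⟩
    · rintro ⟨h1, h2, h3, h4⟩
      rw [hcast] at h3
      have hx := hR e h1 (Or.inr h3)
      have ht : tau G x e = tau G x' e := by unfold tau; rw [hx]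
      have h3' := h3
      rw [← ht] at h3'
      have hvv := hv e h1 h3'
      rw [hcast, ht, hvv]
      exact ⟨h1, h2, h3, h4⟩

end Clocks

section ClocksMeas

variable {V : Type*} [Countable V] [MeasurableSpace V] [DiscreteMeasurableSpace V]
  {X : Type*} [MeasurableSpace X] {act : Equiv.Perm V → X → X}

theorem measurable_dg {G : X → SimpleGraph V} (hG : Measurable G) (u : V) :
    Measurable fun x => dg (G x) u := by
  unfold dg
  apply Measurable.tsum
  intro v
  exact Measurable.ite (measurable_adj hG u v) measurable_const measurable_const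

theorem dg_act (g : Equiv.Perm V) (G : SimpleGraph V) (u : V) : dg (actG g G) (g u) = dg G u := by
  classical
  unfold dg
  rw [← Equiv.tsum_eq g (fun v => if (actG g G).Adj (g u) v then (1 : ℝ≥0∞) else 0)]
  apply tsum_congr
  intro v
  by_cases h : G.Adj u v
  · rw [if_pos h, if_pos ((actG_adj g G u v).2 h)]
  · rw [if_neg h, if_neg (fun h2 => h ((actG_adj g G u v).1 h2))]

theorem mm_act (g : Equiv.Perm V) (G : SimpleGraph V) (e : Sym2 V) :
    mm (actG g G) (e.map g) = mm G e := by
  induction e using Sym2.inductionOn with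
  | hf x y => rw [Sym2.map_mk, mm_mk, mm_mk, dg_act, dg_act]

theorem measurable_mm {G : X → SimpleGraph V} (hG : Measurable G) (e : Sym2 V) :
    Measurable fun x => mm (G x) e := by
  unfold mm
  exact measurable_const.max ((measurable_dg hG _).max (measurable_dg hG _)).ennreal_toReal

theorem measurable_tau {G : X → SimpleGraph V} {x : X → Lab V} (hG : Measurable G)
    (hx : Measurable x) (e : Sym2 V) : Measurable fun ω => tau (G ω) (x ω) e :=
  ((measurable_pi_apply e).comp hx).mul (measurable_mm hG e)

theorem tau_act (g : Equiv.Perm V) (G : SimpleGraph V) (x : Lab V) (e : Sym2 V) :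
    tau (actG g G) (actL g x) (e.map g) = tau G x e := by
  unfold tau
  rw [mm_act, actL_apply]

theorem measurable_Rt {G : X → SimpleGraph V} {x : X → Lab V} (hG : Measurable G)
    (hx : Measurable x) (t : ℝ) : Measurable fun ω => Rt t (G ω) (x ω) := by
  apply measurable_set_of'
  intro e
  exact (measurable_mem_iff' (measurable_edgeSet hG) e).inter
    (measurableSet_lt (measurable_tau hG hx e) measurable_const)

theorem measurable_sch {G : X → SimpleGraph V} {x v : X → Lab V} (hG : Measurable G)
    (hx : Measurable x) (hv : Measurable v) (k j : ℕ) :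
    Measurable fun ω => sch k (G ω) (x ω) (v ω) j := by
  induction j with
  | zero => exact measurable_const
  | succ j ih =>
    apply measurable_set_of'
    intro e
    have h1 := measurable_mem_iff' ih e
    have h2 := measurable_mem_iff' (measurable_edgeSet hG) e
    have h3 : MeasurableSet {ω | (j : ℝ) * hh k ≤ tau (G ω) (x ω) e} :=
      measurableSet_le measurable_const (measurable_tau hG hx e)
    have h4 : MeasurableSet {ω | tau (G ω) (x ω) e < ((j : ℝ) + 1) * hh k} :=
      measurableSet_lt (measurable_tau hG hx e) measurable_const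
    have h5 : MeasurableSet {ω | v ω e < 1 - pcS (G ω) (Rt (j * hh k) (G ω) (x ω))
        (sch k (G ω) (x ω) (v ω) j) e} :=
      measurableSet_lt ((measurable_pi_apply e).comp hv)
        (measurable_const.sub (measurable_pcS hG (measurable_Rt hG hx _) ih e))
    exact h1.union (h2.inter (h3.inter (h4.inter h5)))

/-- A family of labels is equivariant. -/
def EqLab (act : Equiv.Perm V → X → X) (x : X → Lab V) : Prop :=
  ∀ g ω e, x (act g ω) (e.map g) = x ω e

theorem randEdge_Rt {G : X → SimpleGraph V} {x : X → Lab V} (hG : Measurable G)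
    (hx : Measurable x) (hGe : ∀ g ω, G (act g ω) = actG g (G ω)) (hxe : EqLab act x) (t : ℝ) :
    RandEdge act fun ω => Rt t (G ω) (x ω) := by
  refine ⟨measurable_Rt hG hx t, fun g ω e => ?_⟩
  change (e.map g ∈ (G (act g ω)).edgeSet ∧ tau (G (act g ω)) (x (act g ω)) (e.map g) < t) ↔
    (e ∈ (G ω).edgeSet ∧ tau (G ω) (x ω) e < t)
  unfold tau
  rw [hGe, mem_actG_edgeSet, mm_act, hxe]

theorem randEdge_edgeSet {G : X → SimpleGraph V} (hG : Measurable G)
    (hGe : ∀ g ω, G (act g ω) = actG g (G ω)) : RandEdge act fun ω => (G ω).edgeSet :=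
  ⟨measurable_edgeSet hG, fun g ω e => by rw [hGe, mem_actG_edgeSet]⟩

theorem randEdge_sch {G : X → SimpleGraph V} {x v : X → Lab V} (hG : Measurable G)
    (hx : Measurable x) (hv : Measurable v) (hGe : ∀ g ω, G (act g ω) = actG g (G ω))
    (hxe : EqLab act x) (hve : EqLab act v) (k j : ℕ) :
    RandEdge act fun ω => sch k (G ω) (x ω) (v ω) j := by
  refine ⟨measurable_sch hG hx hv k j, ?_⟩
  induction j with
  | zero => intro g ω e; exact Iff.rfl
  | succ j ih =>
    intro g ω e
    have hS : RandEdge act fun ω => sch k (G ω) (x ω) (v ω) j := ⟨measurable_sch hG hx hv k j, ih⟩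
    have hp := pcS_act (randEdge_edgeSet hG hGe) (randEdge_Rt hG hx hGe hxe (j * hh k)) hS g ω e
    change (e.map g ∈ sch k (G (act g ω)) (x (act g ω)) (v (act g ω)) j ∨
      (e.map g ∈ (G (act g ω)).edgeSet ∧ j * hh k ≤ tau (G (act g ω)) (x (act g ω)) (e.map g) ∧
        tau (G (act g ω)) (x (act g ω)) (e.map g) < (j + 1) * hh k ∧
        v (act g ω) (e.map g) < 1 - pcS (G (act g ω))
          (Rt (j * hh k) (G (act g ω)) (x (act g ω)))
          (sch k (G (act g ω)) (x (act g ω)) (v (act g ω)) j) (e.map g))) ↔ _
    rw [hp, ih g ω e, hve]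
    have ht : tau (G (act g ω)) (x (act g ω)) (e.map g) = tau (G ω) (x ω) e := by
      unfold tau
      rw [hGe, mm_act, hxe]
    rw [ht, hGe, mem_actG_edgeSet]
    exact Iff.rfl

end ClocksMeas

end Vale.Agent.P143
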