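import Vale.Agent.P143_h11.Rand

set_option linter.unusedSectionVars false

open Filter Topology MeasureTheory ContinuousLinearMap
open scoped InnerProductSpace ENNReal

namespace Vale.Agent.P143

/-! ### The unitary of a permutation -/

section Perm

variable {ι : Type*}

/-- Reindexing of a square summable function. -/
noncomputable def permL (e : ι ≃ ι) (f : L2 ι) : L2 ι :=
  ⟨fun i => f (e.symm i), by
    have hf : Memℓp (fun i => f i) 2 := lp.memℓp f
    apply memℓp_gen
    have h := (memℓp_gen_iff (E := fun _ : ι => ℝ) (p := 2) (by norm_num)).1 hf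
    exact h.comp_injective e.symm.injective⟩

theorem permL_apply (e : ι ≃ ι) (f : L2 ι) (i : ι) : permL e f i = f (e.symm i) := rfl

theorem permL_inner (e : ι ≃ ι) (f g : L2 ι) : ⟪permL e f, permL e g⟫_ℝ = ⟪f, g⟫_ℝ := by
  refine (hasSum_inner_L2 (permL e f) (permL e g)).unique ?_
  have h := hasSum_inner_L2 f g
  have h2 := (Equiv.hasSum_iff e.symm).2 h
  exact h2

theorem permL_add (e : ι ≃ ι) (f g : L2 ι) : permL e (f + g) = permL e f + permL e g := by
  apply ext_L2; intro i; rfl

theorem permL_sub (e : ι ≃ ι) (f g : L2 ι) : permL e (f - g) = permL e f - permL e g := by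
  apply ext_L2; intro i; rfl

theorem permL_smul (e : ι ≃ ι) (c : ℝ) (f : L2 ι) : permL e (c • f) = c • permL e f := by
  apply ext_L2; intro i; rfl

theorem permL_norm (e : ι ≃ ι) (f : L2 ι) : ‖permL e f‖ = ‖f‖ := by
  have h : ‖permL e f‖ ^ 2 = ‖f‖ ^ 2 := by
    rw [← real_inner_self_eq_norm_sq, ← real_inner_self_eq_norm_sq, permL_inner]
  exact (sq_eq_sq₀ (norm_nonneg _) (norm_nonneg _)).1 h

theorem permL_symm (e : ι ≃ ι) (f : L2 ι) : permL e (permL e.symm f) = f := by
  apply ext_L2; intro i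
  rw [permL_apply, permL_apply, Equiv.symm_symm, Equiv.apply_symm_apply]

theorem permL_dl (e : ι ≃ ι) (i : ι) : permL e (dl i) = dl (e i) := by
  apply ext_L2
  intro j
  rw [permL_apply]
  by_cases h : j = e i
  · subst h
    rw [Equiv.symm_apply_apply, dl_self, dl_self]
  · rw [dl_ne h, dl_ne]
    intro h2
    apply h
    rw [← h2, Equiv.apply_symm_apply]

end Perm

section Equivariance

variable {V : Type*}

/-- Action of a permutation of the vertices on ordered pairs. -/
def g2 (g : Equiv.Perm V) : V × V ≃ V × V := Equiv.prodCongr g g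

theorem g2_apply (g : Equiv.Perm V) (u v : V) : g2 g (u, v) = (g u, g v) := rfl

/-- The unitary associated with a permutation of the vertices. -/
noncomputable def Ug (g : Equiv.Perm V) (f : L2 (V × V)) : L2 (V × V) := permL (g2 g) f

theorem Ug_inner (g : Equiv.Perm V) (f h : L2 (V × V)) : ⟪Ug g f, Ug g h⟫_ℝ = ⟪f, h⟫_ℝ :=
  permL_inner _ _ _

theorem Ug_norm (g : Equiv.Perm V) (f : L2 (V × V)) : ‖Ug g f‖ = ‖f‖ := permL_norm _ _

theorem Ug_sub (g : Equiv.Perm V) (f h : L2 (V × V)) : Ug g (f - h) = Ug g f - Ug g h :=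
  permL_sub _ _ _

theorem Ug_dl (g : Equiv.Perm V) (u v : V) : Ug g (dl (u, v)) = dl (g u, g v) := by
  unfold Ug; rw [permL_dl, g2_apply]

theorem Ug_surj (g : Equiv.Perm V) (f : L2 (V × V)) : ∃ h, Ug g h = f :=
  ⟨permL (g2 g).symm f, permL_symm _ _⟩

variable {X : Type*}

/-- Equivariance of a family of subspaces. -/
def EqSub (act : Equiv.Perm V → X → X) (S : X → Submodule ℝ (L2 (V × V))) : Prop :=
  ∀ g x f, Ug g f ∈ S (act g x) ↔ f ∈ S x

/-- Equivariance of a family of operators. -/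
def EqOp (act : Equiv.Perm V → X → X) (A : X → L2 (V × V) →L[ℝ] L2 (V × V)) : Prop :=
  ∀ g x f, A (act g x) (Ug g f) = Ug g (A x f)

variable {act : Equiv.Perm V → X → X}

theorem EqSub.inf {S T : X → Submodule ℝ (L2 (V × V))} (hS : EqSub act S) (hT : EqSub act T) :
    EqSub act fun x => S x ⊓ T x := by
  intro g x f
  rw [Submodule.mem_inf, Submodule.mem_inf, hS g x f, hT g x f]

theorem EqSub.orth {S : X → Submodule ℝ (L2 (V × V))} (hS : EqSub act S) :
    EqSub act fun x => (S x)ᗮ := by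
  intro g x f
  rw [Submodule.mem_orthogonal, Submodule.mem_orthogonal]
  constructor
  · intro h u hu
    have := h (Ug g u) ((hS g x u).2 hu)
    rwa [Ug_inner] at this
  · intro h u hu
    obtain ⟨u', rfl⟩ := Ug_surj g u
    rw [Ug_inner]
    exact h u' ((hS g x u').1 hu)

theorem EqSub.compress {L S : X → Submodule ℝ (L2 (V × V))} (hL : EqSub act L)
    (hS : EqSub act S) : EqSub act fun x => compress (L x) (S x) :=
  hL.inf (hL.inf hS.orth).orth

theorem EqSub.pj {S : X → Submodule ℝ (L2 (V × V))} (hS : EqSub act S)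
    (hcl : ∀ x, IsClosed (S x : Set (L2 (V × V)))) : EqOp act fun x => pj (S x) := by
  intro g x f
  apply pj_eq_of (hcl _)
  · exact (hS g x _).2 (pj_mem (hcl x) f)
  · rw [← Ug_sub]
    exact (hS.orth g x _).2 (sub_pj_mem f)

theorem EqOp.comp {A B : X → L2 (V × V) →L[ℝ] L2 (V × V)} (hA : EqOp act A) (hB : EqOp act B) :
    EqOp act fun x => A x * B x := by
  intro g x f
  rw [mul_apply_eq_comp, mul_apply_eq_comp, hB, hA]

theorem EqOp.adj {A : X → L2 (V × V) →L[ℝ] L2 (V × V)} (hA : EqOp act A) :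
    EqOp act fun x => adjoint (A x) := by
  intro g x f
  apply ext_inner_left ℝ
  intro u
  obtain ⟨u', rfl⟩ := Ug_surj g u
  rw [adjoint_inner_right, hA, Ug_inner, Ug_inner, adjoint_inner_right]

theorem EqOp.one : EqOp act fun _ => (1 : L2 (V × V) →L[ℝ] L2 (V × V)) := fun _ _ _ => rfl

theorem EqOp.sub {A B : X → L2 (V × V) →L[ℝ] L2 (V × V)} (hA : EqOp act A) (hB : EqOp act B) :
    EqOp act fun x => A x - B x := by
  intro g x f
  rw [sub_apply, sub_apply, hA, hB, Ug_sub]

theorem EqOp.add {A B : X → L2 (V × V) →L[ℝ] L2 (V × V)} (hA : EqOp act A) (hB : EqOp act B) :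
    EqOp act fun x => A x + B x := by
  intro g x f
  rw [add_apply, add_apply, hA, hB]
  exact (permL_add _ _ _).symm

theorem EqOp.defect {Y : X → L2 (V × V) →L[ℝ] L2 (V × V)} (hY : EqOp act Y) :
    EqOp act fun x => defect (Y x) := by
  unfold Vale.Agent.P143.defect
  exact EqOp.one.sub (hY.adj.comp hY)

theorem EqOp.pow {Y : X → L2 (V × V) →L[ℝ] L2 (V × V)} (hY : EqOp act Y) (k : ℕ) :
    EqOp act fun x => Y x ^ k := by
  induction k with
  | zero => simpa using EqOp.one (act := act)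
  | succ k ih => simpa only [pow_succ] using ih.comp hY

end Equivariance

/-! ### The mass transport principle and the trace -/

section Trace

variable {V : Type*} [Countable V] [MeasurableSpace V] [DiscreteMeasurableSpace V]
  {X : Type*} [MeasurableSpace X]

/-- Mass transport principle on an abstract space with an action of the permutations of `V`. -/
def MTP (act : Equiv.Perm V → X → X) (μ : Measure (X × V)) : Prop :=
  ∀ F : X → V → V → ℝ≥0∞, (∀ u v, Measurable fun x => F x u v) →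
    (∀ g x u v, F (act g x) (g u) (g v) = F x u v) →
    ∫⁻ p, ∑' v, F p.1 p.2 v ∂μ = ∫⁻ p, ∑' v, F p.1 v p.2 ∂μ

/-- A property that holds at the root almost surely holds everywhere almost surely. -/
theorem MTP.everywhere {act : Equiv.Perm V → X → X} {μ : Measure (X × V)} (hμ : MTP act μ)
    {N : X → V → Prop} (hN : ∀ v, MeasurableSet {x | N x v})
    (heq : ∀ g x v, N (act g x) (g v) ↔ N x v) (h : ∀ᵐ p ∂μ, N p.1 p.2) :
    ∀ᵐ p ∂μ, ∀ v, N p.1 v := by
  classical
  set F : X → V → V → ℝ≥0∞ := fun x u _ => if N x u then 0 else 1 with hF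
  have h1 := hμ F (fun u v => Measurable.ite (hN u) measurable_const measurable_const)
    (fun g x u v => by simp only [hF, heq])
  have h2 : ∫⁻ p, ∑' v, F p.1 p.2 v ∂μ = 0 := by
    rw [lintegral_eq_zero_iff' ]
    · filter_upwards [h] with p hp
      simp [hF, hp]
    · have : (fun p : X × V => ∑' v, F p.1 p.2 v) =ᵐ[μ] fun _ => 0 := by
        filter_upwards [h] with p hp
        simp [hF, hp]
      exact ⟨fun _ => 0, measurable_const, this⟩
  rw [h2] at h1
  have hm : Measurable fun p : X × V => ∑' v, F p.1 v p.2 := by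
    apply Measurable.tsum
    intro v
    exact (Measurable.ite (hN v) measurable_const measurable_const).comp measurable_fst
  have h3 := (lintegral_eq_zero_iff hm).1 h1.symm
  filter_upwards [h3] with p hp v
  have h4 : ∑' v, F p.1 v p.2 = 0 := hp
  rw [ENNReal.tsum_eq_zero] at h4
  have h5 := h4 v
  by_contra hcon
  simp [hF, hcon] at h5

/-- Hilbert-Schmidt norm. -/
noncomputable def hs (μ : Measure (X × V)) (Y : X → L2 (V × V) →L[ℝ] L2 (V × V)) : ℝ≥0∞ :=
  ∫⁻ p, ∑' b, ENNReal.ofReal (‖Y p.1 (dl (p.2, b))‖ ^ 2) ∂μ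

theorem ofReal_norm_sq_eq_tsum {ι : Type*} (f : L2 ι) :
    ENNReal.ofReal (‖f‖ ^ 2) = ∑' i, ENNReal.ofReal (f i ^ 2) := by
  have h := hasSum_inner_L2 f f
  rw [real_inner_self_eq_norm_sq] at h
  rw [← h.tsum_eq, ENNReal.ofReal_tsum_of_nonneg]
  · congr 1
    ext i
    rw [sq]
  · intro i; exact mul_self_nonneg _
  · exact h.summable

theorem hs_adj {act : Equiv.Perm V → X → X} {μ : Measure (X × V)} (hμ : MTP act μ)
    {Y : X → L2 (V × V) →L[ℝ] L2 (V × V)} (hYm : MeasOp Y) (hYe : EqOp act Y) :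
    hs μ Y = hs μ fun x => adjoint (Y x) := by
  set F : X → V → V → ℝ≥0∞ := fun x u v =>
    ∑' b, ∑' d, ENNReal.ofReal (⟪dl (v, d), Y x (dl (u, b))⟫_ℝ ^ 2) with hF
  have hFm : ∀ u v, Measurable fun x => F x u v := by
    intro u v
    apply Measurable.tsum
    intro b
    apply Measurable.tsum
    intro d
    exact ((hYm _ _).pow_const 2).ennreal_ofReal
  have hFe : ∀ g x u v, F (act g x) (g u) (g v) = F x u v := by
    intro g x u v
    simp only [hF]
    rw [← Equiv.tsum_eq g]
    refine tsum_congr (fun b => ?_)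
    rw [← Equiv.tsum_eq g]
    refine tsum_congr (fun d => ?_)
    rw [← Ug_dl, ← Ug_dl, hYe, Ug_inner]
  have h := hμ F hFm hFe
  have h1 : ∀ p : X × V, ∑' v, F p.1 p.2 v =
      ∑' b, ENNReal.ofReal (‖Y p.1 (dl (p.2, b))‖ ^ 2) := by
    intro p
    simp only [hF]
    rw [ENNReal.tsum_comm]
    refine tsum_congr (fun b => ?_)
    rw [ofReal_norm_sq_eq_tsum, ENNReal.tsum_prod']
    refine tsum_congr (fun v => tsum_congr (fun d => ?_))
    rw [inner_dl_left]
  have h2 : ∀ p : X × V, ∑' v, F p.1 v p.2 =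
      ∑' b, ENNReal.ofReal (‖adjoint (Y p.1) (dl (p.2, b))‖ ^ 2) := by
    intro p
    simp only [hF]
    have : ∀ v, ∑' b, ∑' d, ENNReal.ofReal (⟪dl (p.2, d), Y p.1 (dl (v, b))⟫_ℝ ^ 2) =
        ∑' d, ∑' b, ENNReal.ofReal (⟪dl (p.2, d), Y p.1 (dl (v, b))⟫_ℝ ^ 2) :=
      fun v => ENNReal.tsum_comm
    simp_rw [this]
    rw [ENNReal.tsum_comm]
    refine tsum_congr (fun d => ?_)
    rw [ofReal_norm_sq_eq_tsum, ENNReal.tsum_prod']
    refine tsum_congr (fun v => tsum_congr (fun b => ?_))
    rw [← adjoint_inner_left, inner_dl_right]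
  simp_rw [h1, h2] at h
  exact h

end Trace

end Vale.Agent.P143
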